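import Mathlib
import Crest.Prelude.Def_AsymptoticConvexity

/-!
# Game lemma: no equivalent asymptotically uniformly convex norm

Shared lemmas for S0166, S0167, S0168, S0169.
-/

set_option autoImplicit false

namespace Crest.Agent.AUCGame

open Crest.AnalysisR

variable {X : Type} [NormedAddCommGroup X] [NormedSpace ℝ X]

/-- closed finite-codimensional linear subspaces, as sets (unbundled `RealBanach.IsCof`). -/
def Cof (F : Set X) : Prop :=
  ∃ S : Submodule ℝ X, (S : Set X) = F ∧ IsClosed F ∧ FiniteDimensional ℝ (X ⧸ S)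

/-- A bundled `RealBanach` from unbundled instances. -/
abbrev mkRB (X : Type) [NormedAddCommGroup X] [NormedSpace ℝ X] [CompleteSpace X] : RealBanach :=
  ⟨X, inferInstance, inferInstance, inferInstance⟩

theorem cof_univ : Cof (Set.univ : Set X) :=
  ⟨⊤, by simp, isClosed_univ, inferInstance⟩

theorem Cof.smul_mem {F : Set X} (h : Cof F) {y : X} (hy : y ∈ F) (c : ℝ) : c • y ∈ F := by
  obtain ⟨S, rfl, -, -⟩ := h; exact S.smul_mem c hy

/-- The game lemma. -/
theorem not_auc_of_game [CompleteSpace X] (M κ : ℝ) (hκ : 0 < κ)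
    (hgame : ∀ k : ℕ, ∃ S : ℕ → Set X, (0 : X) ∈ S 0 ∧
      (∀ j, j < k → ∀ x ∈ S j, ∀ F : Set X, Cof F → ∃ y ∈ F, κ ≤ ‖y‖ ∧ x + y ∈ S (j + 1)) ∧
      (∀ j, j ≤ k → ∀ x ∈ S j, ‖x‖ ≤ M))
    (N : X → ℝ) (hN : (mkRB X).IsEquivNorm N) : ¬ (mkRB X).IsAUC N := by
  intro hauc
  obtain ⟨hadd, hsmul, a, b, ha, hab⟩ := hN
  -- notational normalization
  have hadd' : ∀ x y : X, N (x + y) ≤ N x + N y := hadd
  have hsmul' : ∀ (c : ℝ) (x : X), N (c • x) = |c| * N x := hsmul
  have hab' : ∀ x : X, a * ‖x‖ ≤ N x ∧ N x ≤ b * ‖x‖ := hab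
  clear hadd hsmul hab
  -- first consequences
  have hM : 0 ≤ M := by
    obtain ⟨S, h0, -, h2⟩ := hgame 0
    exact (norm_nonneg _).trans (h2 0 le_rfl 0 h0)
  have hb : a ≤ b := by
    obtain ⟨S, h0, h1, -⟩ := hgame 1
    obtain ⟨y, -, hy, -⟩ := h1 0 (by norm_num) 0 h0 Set.univ cof_univ
    have hy0 : 0 < ‖y‖ := lt_of_lt_of_le hκ hy
    have := (hab' y).1.trans (hab' y).2
    exact le_of_mul_le_mul_right this hy0
  have hb0 : 0 < b := lt_of_lt_of_le ha hb
  set T : ℝ := b * M + 1 with hT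
  have hT0 : 0 < T := by positivity
  set t₀ : ℝ := a * κ / T with ht₀
  have ht₀0 : 0 < t₀ := by positivity
  -- the AUC constant
  obtain ⟨c₀, hc₀, hauc₀⟩ := hauc t₀ ht₀0
  have hauc₁ : ∀ x : X, N x = 1 → ∃ F : Set X, Cof F ∧ ∀ y ∈ F, N y = 1 → c₀ ≤ N (x + t₀ • y) - 1 :=
    hauc₀
  clear hauc₀ hauc
  set δ : ℝ := min (c₀ * T) (a * κ) with hδ
  have hδ0 : 0 < δ := lt_min (by positivity) (by positivity)
  have hNnn : ∀ x : X, 0 ≤ N x := fun x => (mul_nonneg ha.le (norm_nonneg x)).trans (hab' x).1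
  -- the key step
  have key : ∀ x : X, ‖x‖ ≤ M → ∃ F : Set X, Cof F ∧
      ∀ y' ∈ F, κ ≤ ‖y'‖ → N x + δ ≤ N (x + y') := by
    intro x hx
    by_cases hr : N x = 0
    · refine ⟨Set.univ, cof_univ, fun y' _ hy' => ?_⟩
      have hx0 : ‖x‖ = 0 := by
        have h1 := (hab' x).1
        rw [hr] at h1
        have h2 : ‖x‖ ≤ 0 := by
          by_contra h
          push Not at h
          have := mul_pos ha h
          linarith
        exact le_antisymm h2 (norm_nonneg _)
      have hx1 : x = 0 := norm_eq_zero.mp hx0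
      subst hx1
      have h3 := (hab' y').1
      have h4 : a * κ ≤ a * ‖y'‖ := by gcongr
      have h5 : δ ≤ a * κ := min_le_right _ _
      simp only [zero_add, hr]
      linarith
    · have hr0 : 0 < N x := lt_of_le_of_ne (hNnn x) (Ne.symm hr)
      set r := N x with hrdef
      have hxhat : N (r⁻¹ • x) = 1 := by
        rw [hsmul', abs_of_pos (inv_pos.mpr hr0), ← hrdef]
        exact inv_mul_cancel₀ hr0.ne'
      obtain ⟨F, hF, hFprop⟩ := hauc₁ (r⁻¹ • x) hxhat
      refine ⟨F, hF, fun y' hy'F hy' => ?_⟩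
      set ρ := N y' with hρdef
      have hρ : a * κ ≤ ρ := by
        have h3 := (hab' y').1
        have h4 : a * κ ≤ a * ‖y'‖ := by gcongr
        linarith
      have hρ0 : 0 < ρ := lt_of_lt_of_le (by positivity) hρ
      have hyhat : N (ρ⁻¹ • y') = 1 := by
        rw [hsmul', abs_of_pos (inv_pos.mpr hρ0), ← hρdef]
        exact inv_mul_cancel₀ hρ0.ne'
      have hyhatF : ρ⁻¹ • y' ∈ F := hF.smul_mem hy'F _
      have h1 := hFprop _ hyhatF hyhat
      -- the parameter
      set lam : ℝ := r * t₀ / ρ with hlam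
      have hlam0 : 0 < lam := by positivity
      have hrT : r ≤ T := by
        have : r ≤ b * ‖x‖ := (hab' x).2
        have : b * ‖x‖ ≤ b * M := by gcongr
        rw [hT]; linarith
      have hlam1 : lam ≤ 1 := by
        rw [hlam, div_le_one hρ0, ht₀]
        calc r * (a * κ / T) = (r / T) * (a * κ) := by ring
          _ ≤ 1 * (a * κ) := by
              gcongr
              exact (div_le_one hT0).mpr hrT
          _ = a * κ := one_mul _
          _ ≤ ρ := hρ
      -- rewriting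
      have h2 : r⁻¹ • x + t₀ • ρ⁻¹ • y' = r⁻¹ • (x + lam • y') := by
        rw [smul_add, smul_smul, smul_smul, hlam]
        congr 2
        field_simp
      have h3 : N (x + lam • y') = r * N (r⁻¹ • x + t₀ • ρ⁻¹ • y') := by
        rw [h2, hsmul', abs_of_pos (inv_pos.mpr hr0)]
        field_simp
      have h4 : x + lam • y' = (1 - lam) • x + lam • (x + y') := by
        rw [smul_add, sub_smul, one_smul]
        abel
      have h5 : N (x + lam • y') ≤ (1 - lam) * r + lam * N (x + y') := by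
        rw [h4]
        refine (hadd' _ _).trans ?_
        rw [hsmul', hsmul', abs_of_nonneg (by linarith), abs_of_pos hlam0]
      have h6 : r * (c₀ + 1) ≤ N (x + lam • y') := by
        rw [h3]
        have : c₀ + 1 ≤ N (r⁻¹ • x + t₀ • ρ⁻¹ • y') := by linarith
        gcongr
      have h7 : r + r * c₀ / lam ≤ N (x + y') := by
        have : lam * (r + r * c₀ / lam) ≤ lam * N (x + y') := by
          have e : lam * (r + r * c₀ / lam) = lam * r + r * c₀ := by
            field_simp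
          rw [e]
          nlinarith
        exact le_of_mul_le_mul_left this hlam0
      have h8 : r * c₀ / lam = c₀ * ρ / t₀ := by
        rw [hlam]
        field_simp
      have h9 : c₀ * T ≤ c₀ * ρ / t₀ := by
        rw [le_div_iff₀ ht₀0, ht₀]
        have : c₀ * T * (a * κ / T) = c₀ * (a * κ) := by
          field_simp
        rw [this]
        gcongr
      have h10 : δ ≤ c₀ * T := min_le_left _ _
      rw [h8] at h7
      linarith
  -- the induction
  obtain ⟨k, hk⟩ := exists_nat_gt (b * M / δ)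
  have hk' : b * M < k * δ := by
    rwa [div_lt_iff₀ hδ0] at hk
  obtain ⟨S, h0, h1, h2⟩ := hgame k
  have hind : ∀ j, j ≤ k → ∃ x ∈ S j, (j : ℝ) * δ ≤ N x := by
    intro j
    induction j with
    | zero =>
      intro _
      exact ⟨0, h0, by simpa using hNnn 0⟩
    | succ j ih =>
      intro hj
      obtain ⟨x, hxS, hxN⟩ := ih (by omega)
      obtain ⟨F, hF, hFk⟩ := key x (h2 j (by omega) x hxS)
      obtain ⟨y, hyF, hy, hxy⟩ := h1 j (by omega) x hxS F hF
      refine ⟨x + y, hxy, ?_⟩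
      have := hFk y hyF hy
      push_cast
      linarith
  obtain ⟨x, hxS, hxN⟩ := hind k le_rfl
  have h3 : N x ≤ b * ‖x‖ := (hab' x).2
  have h4 : b * ‖x‖ ≤ b * M := by
    gcongr
    exact h2 k le_rfl x hxS
  linarith

/-- Vectors with `√`-growth of finite sums get arbitrarily close to any closed finite-codimensional
subspace. -/
theorem exists_near_of_sqrt_bound (u : ℕ → X) (C : ℝ)
    (hu : ∀ A : Finset ℕ, ‖∑ n ∈ A, u n‖ ≤ C * Real.sqrt A.card)
    {F : Set X} (hF : Cof F) {ε : ℝ} (hε : 0 < ε) : ∃ n, ∃ y ∈ F, ‖y - u n‖ < ε := by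
  obtain ⟨S, rfl, hcl, hfd⟩ := hF
  have : IsClosed (S : Set X) := hcl
  have : FiniteDimensional ℝ (X ⧸ S) := hfd
  have : ProperSpace (X ⧸ S) := FiniteDimensional.proper_real _
  set v : ℕ → X ⧸ S := fun n => S.mkQ (u n) with hv
  have hvsum : ∀ A : Finset ℕ, ‖∑ n ∈ A, v n‖ ≤ C * Real.sqrt A.card := by
    intro A
    have : ∑ n ∈ A, v n = S.mkQ (∑ n ∈ A, u n) := by
      rw [map_sum]
    rw [this]
    exact (Submodule.Quotient.norm_mk_le S _).trans (hu A)
  have hvbd : ∀ n, v n ∈ Metric.closedBall (0 : X ⧸ S) C := by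
    intro n
    have := hvsum {n}
    simpa using this
  obtain ⟨c, -, φ, hφ, hlim⟩ := tendsto_subseq_of_bounded Metric.isBounded_closedBall hvbd
  -- the limit vanishes
  have hc : c = 0 := by
    by_contra hc0
    have hcpos : 0 < ‖c‖ := norm_pos_iff.mpr hc0
    have hev : ∀ᶠ i in Filter.atTop, ‖(v ∘ φ) i - c‖ < ‖c‖ / 2 := by
      have := (Metric.tendsto_nhds.mp hlim) (‖c‖ / 2) (by positivity)
      simpa [dist_eq_norm] using this
    obtain ⟨I, hI⟩ := Filter.eventually_atTop.mp hev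
    -- large `m`
    obtain ⟨m, hm⟩ := exists_nat_gt ((2 * C / ‖c‖) ^ 2)
    have hm0 : 0 < m := by
      have : (0 : ℝ) ≤ (2 * C / ‖c‖) ^ 2 := by positivity
      have : (0 : ℝ) < m := lt_of_le_of_lt this hm
      exact_mod_cast this
    set A : Finset ℕ := (Finset.range m).image (fun i => φ (I + i)) with hA
    have hinj : Set.InjOn (fun i => φ (I + i)) (Finset.range m : Set ℕ) := by
      intro i _ j _ hij
      have := hφ.injective hij
      omega
    have hcard : A.card = m := by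
      rw [hA, Finset.card_image_of_injOn hinj, Finset.card_range]
    have hsum : ∑ n ∈ A, v n = ∑ i ∈ Finset.range m, v (φ (I + i)) := by
      rw [hA, Finset.sum_image hinj]
    have h1 : ‖∑ i ∈ Finset.range m, v (φ (I + i)) - (m : ℝ) • c‖ ≤ m * (‖c‖ / 2) := by
      have : ∑ i ∈ Finset.range m, v (φ (I + i)) - (m : ℝ) • c =
          ∑ i ∈ Finset.range m, (v (φ (I + i)) - c) := by
        rw [Finset.sum_sub_distrib]
        simp [Nat.cast_smul_eq_nsmul]
      rw [this]
      refine (norm_sum_le _ _).trans ?_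
      have : ∀ i ∈ Finset.range m, ‖v (φ (I + i)) - c‖ ≤ ‖c‖ / 2 := by
        intro i _
        exact (hI (I + i) (by omega)).le
      refine (Finset.sum_le_card_nsmul _ _ _ this).trans ?_
      simp
    have h2 : (m : ℝ) * ‖c‖ ≤ C * Real.sqrt m + m * (‖c‖ / 2) := by
      have h3 := hvsum A
      rw [hsum, hcard] at h3
      have h4 : ‖(m : ℝ) • c‖ = m * ‖c‖ := by
        rw [norm_smul]; simp
      have h5 : ‖(m : ℝ) • c‖ ≤ ‖∑ i ∈ Finset.range m, v (φ (I + i))‖ +
          ‖∑ i ∈ Finset.range m, v (φ (I + i)) - (m : ℝ) • c‖ := by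
        have := norm_sub_le (∑ i ∈ Finset.range m, v (φ (I + i)))
          (∑ i ∈ Finset.range m, v (φ (I + i)) - (m : ℝ) • c)
        simpa using this
      linarith
    have hmpos : (0 : ℝ) < m := by exact_mod_cast hm0
    have hsq : Real.sqrt m * Real.sqrt m = m := Real.mul_self_sqrt hmpos.le
    have hsqpos : 0 < Real.sqrt m := Real.sqrt_pos.mpr hmpos
    have h6 : Real.sqrt m * ‖c‖ ≤ 2 * C := by
      have : Real.sqrt m * (Real.sqrt m * ‖c‖) ≤ Real.sqrt m * (2 * C) := by
        have e : Real.sqrt m * (Real.sqrt m * ‖c‖) = m * ‖c‖ := by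
          rw [← mul_assoc, hsq]
        rw [e]
        nlinarith
      exact le_of_mul_le_mul_left this hsqpos
    have h7 : 2 * C / ‖c‖ < Real.sqrt m := by
      by_cases h2C : 2 * C / ‖c‖ ≤ 0
      · exact lt_of_le_of_lt h2C hsqpos
      · push Not at h2C
        rw [← Real.sqrt_sq h2C.le]
        exact Real.sqrt_lt_sqrt (by positivity) hm
    rw [div_lt_iff₀ hcpos] at h7
    linarith
  subst hc
  have hev : ∀ᶠ i in Filter.atTop, ‖(v ∘ φ) i‖ < ε / 2 := by
    have := (Metric.tendsto_nhds.mp hlim) (ε / 2) (by positivity)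
    simpa [dist_eq_norm] using this
  obtain ⟨i, hi⟩ := hev.exists
  obtain ⟨z, hz, hzn⟩ := Submodule.Quotient.norm_mk_lt ((v ∘ φ) i) (show 0 < ε / 2 by positivity)
  refine ⟨φ i, u (φ i) - z, ?_, ?_⟩
  · have h1 : S.mkQ z = S.mkQ (u (φ i)) := hz
    have h2 : S.mkQ (u (φ i) - z) = 0 := by
      rw [map_sub, h1, sub_self]
    have h3 : u (φ i) - z ∈ S := by
      rwa [← Submodule.Quotient.mk_eq_zero, ← Submodule.mkQ_apply]
    exact h3
  · have : u (φ i) - z - u (φ i) = -z := by abel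
    rw [this, norm_neg]
    linarith

/-- An infinite spreading family forces infinite dimension. -/
theorem not_finiteDimensional_of_sqrt_bound (u : ℕ → X) (C κ : ℝ) (hκ : 0 < κ)
    (hlow : ∀ n, κ ≤ ‖u n‖)
    (hu : ∀ A : Finset ℕ, ‖∑ n ∈ A, u n‖ ≤ C * Real.sqrt A.card) :
    ¬ FiniteDimensional ℝ X := by
  intro hfd
  have hF : Cof ({0} : Set X) := by
    refine ⟨⊥, by simp, isClosed_singleton, ?_⟩
    exact Module.Finite.quotient ℝ ⊥
  obtain ⟨n, y, hy, hyn⟩ := exists_near_of_sqrt_bound u C hu hF hκ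
  rw [Set.mem_singleton_iff] at hy
  subst hy
  have := hlow n
  simp only [zero_sub, norm_neg] at hyn
  linarith

/-- Branch sum along the root path of `s`, root excluded. -/
def branch (u : List ℕ → X) : List ℕ → X
  | [] => 0
  | a :: v => branch u v + u (a :: v)

/-- The tree lemma: a bounded branch tree with weakly-null-type siblings prevents an equivalent
asymptotically uniformly convex norm. -/
theorem not_auc_of_tree [CompleteSpace X] (M κ C : ℝ) (hκ : 0 < κ)
    (htree : ∀ k : ℕ, ∃ u : List ℕ → X,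
      (∀ s : List ℕ, s ≠ [] → s.length ≤ k → κ ≤ ‖u s‖) ∧
      (∀ s : List ℕ, s.length ≤ k → ‖branch u s‖ ≤ M) ∧
      (∀ r : List ℕ, r.length < k → ∀ A : Finset ℕ, ‖∑ n ∈ A, u (n :: r)‖ ≤ C * Real.sqrt A.card))
    (N : X → ℝ) (hN : (mkRB X).IsEquivNorm N) : ¬ (mkRB X).IsAUC N := by
  refine not_auc_of_game (M + 1) (κ / 2) (by positivity) ?_ N hN
  intro k
  obtain ⟨u, h1, h2, h3⟩ := htree k
  set δ : ℝ := min (κ / 2) 1 with hδ
  have hδ0 : 0 < δ := lt_min (by positivity) one_pos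
  refine ⟨fun j => {x | ∃ s : List ℕ, s.length = j ∧ ‖x - branch u s‖ ≤ δ * (1 - (1 / 2 : ℝ) ^ j)},
    ⟨[], rfl, by simp [branch]⟩, ?_, ?_⟩
  · rintro j hj x ⟨s, hs, hxs⟩ F hF
    have hpos : 0 < δ * (1 / 2 : ℝ) ^ (j + 1) := by positivity
    obtain ⟨n, y, hyF, hy⟩ := exists_near_of_sqrt_bound (fun n => u (n :: s)) C
      (h3 s (by omega)) hF hpos
    refine ⟨y, hyF, ?_, n :: s, by simp [hs], ?_⟩
    · have h4 : κ ≤ ‖u (n :: s)‖ := h1 _ (by simp) (by simp; omega)
      have h5 : ‖u (n :: s)‖ ≤ ‖y‖ + ‖y - u (n :: s)‖ := by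
        have := norm_sub_le y (y - u (n :: s))
        simpa using this
      have h6 : δ * (1 / 2 : ℝ) ^ (j + 1) ≤ κ / 2 := by
        calc δ * (1 / 2 : ℝ) ^ (j + 1) ≤ δ * 1 := by
              gcongr
              exact pow_le_one₀ (by norm_num) (by norm_num)
          _ = δ := mul_one _
          _ ≤ κ / 2 := min_le_left _ _
      linarith
    · have h4 : x + y - branch u (n :: s) = (x - branch u s) + (y - u (n :: s)) := by
        simp only [branch]
        abel
      rw [h4]
      refine (norm_add_le _ _).trans ?_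
      have h5 : (1 / 2 : ℝ) ^ (j + 1) = (1 / 2 : ℝ) ^ j * (1 / 2) := pow_succ _ _
      have h6 : δ * (1 - (1 / 2 : ℝ) ^ (j + 1)) =
          δ * (1 - (1 / 2 : ℝ) ^ j) + δ * (1 / 2 : ℝ) ^ (j + 1) := by
        rw [h5]; ring
      rw [h6]
      linarith
  · rintro j hj x ⟨s, hs, hxs⟩
    have h4 : ‖branch u s‖ ≤ M := h2 s (by omega)
    have h5 : δ * (1 - (1 / 2 : ℝ) ^ j) ≤ 1 := by
      have h6 : δ ≤ 1 := min_le_right _ _
      have h7 : 0 < (1 / 2 : ℝ) ^ j := by positivity
      nlinarith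
    have h8 : ‖x‖ ≤ ‖x - branch u s‖ + ‖branch u s‖ := by
      have := norm_add_le (x - branch u s) (branch u s)
      simpa using this
    linarith

end Crest.Agent.AUCGame
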