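import Mathlib

/-!
Areas of triangles and parallelograms in three-space under the Euclidean Hausdorff measure `μHE[2]`.
-/

set_option autoImplicit false

open MeasureTheory Measure Set
open scoped ENNReal

namespace Crest.Agent.CylArea

abbrev E3 := EuclideanSpace ℝ (Fin 3)
abbrev E2 := EuclideanSpace ℝ (Fin 2)

/-- cross product -/
noncomputable def cross3 (a b : E3) : E3 :=
  !₂[a 1 * b 2 - a 2 * b 1, a 2 * b 0 - a 0 * b 2, a 0 * b 1 - a 1 * b 0]

@[simp] lemma cross3_zero (a b : E3) : cross3 a b 0 = a 1 * b 2 - a 2 * b 1 := by simp [cross3]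
@[simp] lemma cross3_one (a b : E3) : cross3 a b 1 = a 2 * b 0 - a 0 * b 2 := by simp [cross3]
@[simp] lemma cross3_two (a b : E3) : cross3 a b 2 = a 0 * b 1 - a 1 * b 0 := by simp [cross3]

lemma inner_eq (a b : E3) : inner ℝ a b = a 0 * b 0 + a 1 * b 1 + a 2 * b 2 := by
  simp [PiLp.inner_apply, Fin.sum_univ_three]; ring

lemma norm_sq_eq (a : E3) : ‖a‖ ^ 2 = a 0 ^ 2 + a 1 ^ 2 + a 2 ^ 2 := by
  rw [EuclideanSpace.norm_sq_eq]; simp [Fin.sum_univ_three]

lemma norm_sq_eq2 (a : E2) : ‖a‖ ^ 2 = a 0 ^ 2 + a 1 ^ 2 := by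
  rw [EuclideanSpace.norm_sq_eq]; simp [Fin.sum_univ_two]

lemma lagrange (a b : E3) :
    ‖cross3 a b‖ ^ 2 = ‖a‖ ^ 2 * ‖b‖ ^ 2 - (inner ℝ a b) ^ 2 := by
  rw [norm_sq_eq, norm_sq_eq, norm_sq_eq, inner_eq]
  simp only [cross3_zero, cross3_one, cross3_two]
  ring

/-- A line through the origin is `μHE[2]`-null. -/
lemma line_null (v : E3) : (μHE[2] : Measure E3) (Set.range fun t : ℝ => t • v) = 0 := by
  have hseg : ∀ n : ℕ, (μHE[2] : Measure E3) (segment ℝ ((-(n : ℝ)) • v) ((n : ℝ) • v)) = 0 := by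
    intro n
    rcases Measure.euclideanHausdorffMeasure_zero_or_top (X := E3) (d₁ := 1) (d₂ := 2) (by norm_num)
      (segment ℝ ((-(n : ℝ)) • v) ((n : ℝ) • v)) with h | h
    · exact h
    · exfalso
      rw [Measure.euclideanHausdorffMeasure_def, Measure.smul_apply] at h
      have h2 := hausdorffMeasure_segment ((-(n : ℝ)) • v) ((n : ℝ) • v)
      have h3 : (μH[((1 : ℕ) : ℝ)] : Measure E3) (segment ℝ ((-(n : ℝ)) • v) ((n : ℝ) • v)) =
          edist ((-(n : ℝ)) • v) ((n : ℝ) • v) := by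
        simp
      rw [h3] at h
      have : (addHaarScalarFactor (volume : Measure (EuclideanSpace ℝ (Fin 1))) μH[(1 : ℕ)]) •
          edist ((-(n : ℝ)) • v) ((n : ℝ) • v) ≠ ⊤ := by
        rw [ENNReal.smul_def]
        exact ENNReal.mul_ne_top (by simp) (edist_ne_top _ _)
      exact this h
  have hsub : (Set.range fun t : ℝ => t • v) ⊆ ⋃ n : ℕ, segment ℝ ((-(n : ℝ)) • v) ((n : ℝ) • v) := by
    rintro _ ⟨t, rfl⟩
    obtain ⟨n, hn⟩ := exists_nat_ge |t|
    refine mem_iUnion.2 ⟨n + 1, ?_⟩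
    have hn' : (0:ℝ) < (n : ℝ) + 1 := by positivity
    rw [segment_eq_image]
    refine ⟨(t + (n + 1)) / (2 * (n + 1)), ⟨?_, ?_⟩, ?_⟩
    · have := neg_abs_le t
      apply div_nonneg <;> linarith
    · have := le_abs_self t
      rw [div_le_one (by positivity)]
      linarith
    · simp only [Nat.cast_add, Nat.cast_one]
      rw [smul_smul, smul_smul, ← add_smul]
      congr 1
      field_simp
      ring
  exact measure_mono_null hsub (measure_iUnion_null hseg)

/-- the linear map `p ↦ p 0 • a + p 1 • b` -/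
noncomputable def linOf (a b : E3) (p : E2) : E3 := p 0 • a + p 1 • b

/-- Area formula for the linear map with columns `a`, `b`. -/
theorem measure_image_linOf (a b : E3) (S : Set E2) :
    (μHE[2] : Measure E3) (linOf a b '' S) = ENNReal.ofReal ‖cross3 a b‖ * volume S := by
  by_cases hc : ‖cross3 a b‖ = 0
  · -- degenerate case
    rw [hc]
    simp only [ENNReal.ofReal_zero, zero_mul]
    by_cases ha : a = 0
    · refine measure_mono_null ?_ (line_null b)
      rintro _ ⟨p, -, rfl⟩
      exact ⟨p 1, by simp [linOf, ha]⟩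
    · have hna : ‖a‖ ^ 2 ≠ 0 := pow_ne_zero _ (norm_ne_zero_iff.2 ha)
      set l : ℝ := inner ℝ a b / ‖a‖ ^ 2 with hl
      have hb : b = l • a := by
        have h0 := lagrange a b
        rw [hc] at h0
        have h1 : ‖b - l • a‖ ^ 2 = 0 := by
          rw [@norm_sub_sq_real, norm_smul, inner_smul_right, real_inner_comm]
          have : inner ℝ a b = l * ‖a‖ ^ 2 := by
            rw [hl]; field_simp
          have h2 : ‖l‖ ^ 2 = l ^ 2 := by simp
          have h3 : ‖b‖ ^ 2 * ‖a‖ ^ 2 = (l * ‖a‖ ^ 2) ^ 2 := by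
            rw [← this]; nlinarith
          have h4 : ‖b‖ ^ 2 = l ^ 2 * ‖a‖ ^ 2 := by
            have : (‖b‖ ^ 2 - l ^ 2 * ‖a‖ ^ 2) * ‖a‖ ^ 2 = 0 := by nlinarith
            rcases mul_eq_zero.1 this with h | h
            · linarith
            · exact absurd h hna
          rw [this, mul_pow, h2, h4]; ring
        have h2 : b - l • a = 0 := by
          simpa using h1
        exact sub_eq_zero.1 h2
      refine measure_mono_null ?_ (line_null a)
      rintro _ ⟨p, -, rfl⟩
      refine ⟨p 0 + l * p 1, ?_⟩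
      simp only [linOf]
      rw [hb, add_smul, smul_smul, mul_comm]
  · -- nondegenerate case: Gram-Schmidt
    have ha : a ≠ 0 := by
      rintro rfl
      apply hc
      have := lagrange 0 b
      simp at this
      simpa using this
    have hna : ‖a‖ ≠ 0 := norm_ne_zero_iff.2 ha
    set e1 : E3 := (‖a‖⁻¹) • a with he1
    have he1n : inner ℝ e1 e1 = (1:ℝ) := by
      rw [he1, inner_smul_left, inner_smul_right, real_inner_self_eq_norm_sq]
      simp; field_simp
    set β : ℝ := inner ℝ e1 b with hβ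
    set b' : E3 := b - β • e1 with hb'
    have hb'e1 : inner ℝ e1 b' = (0:ℝ) := by
      rw [hb', inner_sub_right, inner_smul_right, he1n, ← hβ]; ring
    have hnb' : ‖a‖ ^ 2 * ‖b'‖ ^ 2 = ‖cross3 a b‖ ^ 2 := by
      rw [lagrange]
      have h1 : ‖b'‖ ^ 2 = ‖b‖ ^ 2 - β ^ 2 := by
        rw [hb', @norm_sub_sq_real, norm_smul, inner_smul_right, real_inner_comm, ← hβ]
        have : ‖e1‖ ^ 2 = 1 := by
          rw [← real_inner_self_eq_norm_sq]; exact he1n
        have h2 : ‖β‖ ^ 2 = β ^ 2 := by simp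
        rw [mul_pow, this, h2]; ring
      have h2 : inner ℝ a b = ‖a‖ * β := by
        rw [hβ, he1, inner_smul_left]; simp; field_simp
      rw [h1, h2]; ring
    have hb'0 : b' ≠ 0 := by
      intro h0
      apply hc
      rw [h0] at hnb'
      simp at hnb'
      have := hnb'
      rcases eq_or_ne ‖cross3 a b‖ 0 with h | h
      · exact h
      · exfalso
        have h3 : ‖cross3 a b‖ ^ 2 ≠ 0 := pow_ne_zero _ h
        have h4 : cross3 a b = 0 := by
          simpa using hnb'.symm
        exact h (by simp [h4])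
    have hnb0 : ‖b'‖ ≠ 0 := norm_ne_zero_iff.2 hb'0
    set e2 : E3 := (‖b'‖⁻¹) • b' with he2
    have he2n : inner ℝ e2 e2 = (1:ℝ) := by
      rw [he2, inner_smul_left, inner_smul_right, real_inner_self_eq_norm_sq]
      simp; field_simp
    have he12 : inner ℝ e1 e2 = (0:ℝ) := by
      rw [he2, inner_smul_right, hb'e1]; simp
    -- the isometric embedding
    let ι : E2 → E3 := fun p => p 0 • e1 + p 1 • e2
    have hι_norm : ∀ p : E2, ‖ι p‖ = ‖p‖ := by
      intro p
      have he21 : inner ℝ e2 e1 = (0:ℝ) := by rw [real_inner_comm]; exact he12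
      have : ‖ι p‖ ^ 2 = ‖p‖ ^ 2 := by
        rw [norm_sq_eq2, ← real_inner_self_eq_norm_sq]
        simp only [ι, inner_add_left, inner_add_right, inner_smul_left, inner_smul_right, he1n, he2n,
          he12, he21]
        simp; ring
      have h1 := norm_nonneg (ι p)
      have h2 := norm_nonneg p
      nlinarith [sq_nonneg (‖ι p‖ - ‖p‖), sq_nonneg (‖ι p‖ + ‖p‖)]
    have hι_iso : Isometry ι := by
      refine Isometry.of_dist_eq fun p q => ?_
      rw [dist_eq_norm, dist_eq_norm, ← hι_norm]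
      congr 1
      simp only [ι, PiLp.sub_apply, sub_smul]
      abel
    -- the square matrix
    let M : Matrix (Fin 2) (Fin 2) ℝ := !![‖a‖, β; 0, ‖b'‖]
    let G : E2 →ₗ[ℝ] E2 := Matrix.toEuclideanLin M
    have hGdet : LinearMap.det G = ‖a‖ * ‖b'‖ := by
      have : LinearMap.det G = M.det := by
        simp only [G, Matrix.toLpLin_eq_toLin]
        exact LinearMap.det_toLin _ _
      rw [this]
      simp [M, Matrix.det_fin_two]
    have hG0 : ∀ p : E2, G p 0 = ‖a‖ * p 0 + β * p 1 := by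
      intro p
      simp [G, M, Matrix.toLpLin_apply, dotProduct, Fin.sum_univ_two]
    have hG1 : ∀ p : E2, G p 1 = ‖b'‖ * p 1 := by
      intro p
      simp [G, M, Matrix.toLpLin_apply, dotProduct, Fin.sum_univ_two]
    have hfac : linOf a b = ι ∘ G := by
      funext p
      simp only [Function.comp, ι, hG0, hG1, linOf]
      have ha' : a = ‖a‖ • e1 := by
        rw [he1, smul_smul, mul_inv_cancel₀ hna, one_smul]
      have hb2 : b = β • e1 + ‖b'‖ • e2 := by
        have h0 : ‖b'‖ • e2 = b' := by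
          rw [he2, smul_smul, mul_inv_cancel₀ hnb0, one_smul]
        rw [h0, hb']; abel
      calc p 0 • a + p 1 • b = p 0 • (‖a‖ • e1) + p 1 • (β • e1 + ‖b'‖ • e2) := by
            rw [← ha', ← hb2]
        _ = (‖a‖ * p 0 + β * p 1) • e1 + (‖b'‖ * p 1) • e2 := by module
    have hcross : |LinearMap.det G| = ‖cross3 a b‖ := by
      rw [hGdet, abs_of_nonneg (by positivity)]
      have h1 : (‖a‖ * ‖b'‖) ^ 2 = ‖cross3 a b‖ ^ 2 := by rw [mul_pow, hnb']
      have h2 : 0 ≤ ‖a‖ * ‖b'‖ := by positivity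
      have h3 := norm_nonneg (cross3 a b)
      nlinarith [sq_nonneg (‖a‖ * ‖b'‖ - ‖cross3 a b‖), sq_nonneg (‖a‖ * ‖b'‖ + ‖cross3 a b‖)]
    rw [hfac, image_comp, hι_iso.euclideanHausdorffMeasure_image,
      EuclideanSpace.euclideanHausdorffMeasure_eq_volume, Measure.addHaar_image_linearMap, hcross]


/-! ### The unit square and the unit triangle in the plane -/

/-- the unit square -/
def unitSq : Set E2 := {p | p 0 ∈ Icc (0:ℝ) 1 ∧ p 1 ∈ Icc (0:ℝ) 1}

/-- the unit triangle -/
def unitTri : Set E2 := {p | 0 ≤ p 0 ∧ 0 ≤ p 1 ∧ p 0 + p 1 ≤ 1}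

lemma volume_unitSq : volume unitSq = 1 := by
  have h := (EuclideanSpace.basisFun (Fin 2) ℝ).volume_parallelepiped
  convert h using 2
  ext x
  rw [mem_parallelepiped_iff]
  constructor
  · rintro ⟨h0, h1⟩
    refine ⟨x.ofLp, ⟨?_, ?_⟩, ?_⟩
    · intro i; fin_cases i
      · exact h0.1
      · exact h1.1
    · intro i; fin_cases i
      · exact h0.2
      · exact h1.2
    · ext i
      fin_cases i <;> simp [Fin.sum_univ_two]
  · rintro ⟨t, ht, rfl⟩
    have h0 := ht.1 0
    have h1 := ht.1 1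
    have h0' := ht.2 0
    have h1' := ht.2 1
    simp only [Pi.zero_apply, Pi.one_apply] at h0 h1 h0' h1'
    constructor
    · simpa [Fin.sum_univ_two, unitSq] using ⟨h0, h0'⟩
    · simpa [Fin.sum_univ_two, unitSq] using ⟨h1, h1'⟩

/-- the anti-diagonal line is null -/
lemma volume_antidiag : volume {p : E2 | p 0 + p 1 = 1} = 0 := by
  let f : E2 →ₗ[ℝ] ℝ :=
    { toFun := fun p => p 0 + p 1
      map_add' := by intros; simp; ring
      map_smul' := by intros; simp; ring }
  have hf : ∀ p : E2, f p = p 0 + p 1 := fun p => rfl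
  let c0 : E2 := !₂[1, 0]
  let A : AffineSubspace ℝ E2 := AffineSubspace.mk' c0 (LinearMap.ker f)
  have hA : (A : Set E2) = {p : E2 | p 0 + p 1 = 1} := by
    ext p
    simp only [A, SetLike.mem_coe, AffineSubspace.mem_mk', vsub_eq_sub, LinearMap.mem_ker, hf]
    simp [c0]
    constructor <;> intro h <;> linarith
  rw [← hA]
  apply Measure.addHaar_affineSubspace
  intro htop
  have : (0 : E2) ∈ A := by rw [htop]; exact AffineSubspace.mem_top _ _ _
  have h2 : (0 : E2) ∈ (A : Set E2) := this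
  rw [hA] at h2
  simp at h2

lemma volume_unitTri : volume unitTri = 1 / 2 := by
  let c : E2 := !₂[1, 1]
  let T1 : Set E2 := (fun p => c - p) '' unitTri
  have hiso : Isometry (fun p : E2 => c - p) := (IsometryEquiv.subLeft c).isometry
  have hT1 : volume T1 = volume unitTri := by
    simp only [T1]
    rw [← EuclideanSpace.euclideanHausdorffMeasure_eq_volume,
      hiso.euclideanHausdorffMeasure_image]
  have hmem1 : ∀ p : E2, p ∈ T1 ↔ p 0 ≤ 1 ∧ p 1 ≤ 1 ∧ 1 ≤ p 0 + p 1 := by
    intro p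
    constructor
    · rintro ⟨u, ⟨h0, h1, h2⟩, rfl⟩
      simp [c]
      refine ⟨h0, h1, ?_⟩
      linarith
    · rintro ⟨h0, h1, h2⟩
      refine ⟨c - p, ⟨?_, ?_, ?_⟩, by simp⟩
      · simp [c]; linarith
      · simp [c]; linarith
      · simp [c]; linarith
  have hU : unitSq = unitTri ∪ T1 := by
    ext p
    rw [mem_union, hmem1]
    simp only [unitSq, unitTri, mem_ofPred_eq, mem_Icc]
    constructor
    · rintro ⟨⟨h0, h1⟩, h2, h3⟩
      rcases le_total (p 0 + p 1) 1 with h | h
      · exact Or.inl ⟨h0, h2, h⟩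
      · exact Or.inr ⟨h1, h3, h⟩
    · rintro (⟨h0, h1, h2⟩ | ⟨h0, h1, h2⟩)
      · exact ⟨⟨h0, by linarith⟩, h1, by linarith⟩
      · exact ⟨⟨by linarith, h0⟩, by linarith, h1⟩
  have hinter : unitTri ∩ T1 ⊆ {p : E2 | p 0 + p 1 = 1} := by
    rintro p ⟨⟨-, -, h2⟩, h3⟩
    rw [hmem1] at h3
    exact le_antisymm h2 h3.2.2
  have hT1meas : MeasurableSet T1 := by
    have : T1 = {p : E2 | p 0 ≤ 1 ∧ p 1 ≤ 1 ∧ 1 ≤ p 0 + p 1} := by
      ext p; exact hmem1 p
    rw [this]
    apply IsClosed.measurableSet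
    have c0 : Continuous fun p : E2 => p 0 := by fun_prop
    have c1 : Continuous fun p : E2 => p 1 := by fun_prop
    exact (isClosed_le c0 continuous_const).inter
      ((isClosed_le c1 continuous_const).inter (isClosed_le continuous_const (c0.add c1)))
  have hsum : volume (unitTri ∪ T1) = volume unitTri + volume T1 :=
    measure_union₀ hT1meas.nullMeasurableSet
      (measure_mono_null hinter volume_antidiag)
  rw [← hU, volume_unitSq, hT1] at hsum
  -- `1 = x + x`
  have hne : volume unitTri ≠ ⊤ := by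
    intro h
    rw [h] at hsum
    simp at hsum
  have : (volume unitTri).toReal = 1 / 2 := by
    have h1 := congrArg ENNReal.toReal hsum
    rw [ENNReal.toReal_add hne hne] at h1
    simp at h1
    linarith
  rw [← ENNReal.ofReal_toReal hne, this]
  rw [ENNReal.ofReal_div_of_pos (by norm_num)]
  simp

/-! ### Parallelograms and triangles in space -/

lemma par_eq (c a b : E3) :
    {x : E3 | ∃ s ∈ Icc (0:ℝ) 1, ∃ t ∈ Icc (0:ℝ) 1, x = c + s • a + t • b} =
      (fun y => c + y) '' (linOf a b '' unitSq) := by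
  ext x
  constructor
  · rintro ⟨s, hs, t, ht, rfl⟩
    refine ⟨linOf a b !₂[s, t], ⟨!₂[s, t], ⟨?_, ?_⟩, rfl⟩, ?_⟩
    · simpa using hs
    · simpa using ht
    · simp [linOf, add_assoc]
  · rintro ⟨_, ⟨u, ⟨h0, h1⟩, rfl⟩, rfl⟩
    exact ⟨u 0, h0, u 1, h1, by simp [linOf, add_assoc]⟩

/-- area of a parallelogram -/
theorem par_area (c a b : E3) :
    (μHE[2] : Measure E3) {x : E3 | ∃ s ∈ Icc (0:ℝ) 1, ∃ t ∈ Icc (0:ℝ) 1, x = c + s • a + t • b} =
      ENNReal.ofReal ‖cross3 a b‖ := by
  have hiso : Isometry (fun y : E3 => c + y) := (IsometryEquiv.addLeft c).isometry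
  rw [par_eq, hiso.euclideanHausdorffMeasure_image, measure_image_linOf, volume_unitSq, mul_one]

lemma mem_triangle_iff {p q r x : E3} :
    x ∈ convexHull ℝ {p, q, r} ↔
      ∃ s t : ℝ, 0 ≤ s ∧ 0 ≤ t ∧ s + t ≤ 1 ∧ x = p + s • (q - p) + t • (r - p) := by
  constructor
  · intro hx
    have hconv : Convex ℝ {x : E3 | ∃ s t : ℝ, 0 ≤ s ∧ 0 ≤ t ∧ s + t ≤ 1 ∧
        x = p + s • (q - p) + t • (r - p)} := by
      rintro _ ⟨s, t, hs, ht, hst, rfl⟩ _ ⟨s', t', hs', ht', hst', rfl⟩ a b ha hb hab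
      refine ⟨a * s + b * s', a * t + b * t', by positivity, by positivity, ?_, ?_⟩
      · nlinarith
      · have hb' : b = 1 - a := by linarith
        subst hb'
        module
    refine convexHull_min ?_ hconv hx
    intro y hy
    simp only [mem_insert_iff, mem_singleton_iff] at hy
    rcases hy with rfl | rfl | rfl
    · exact ⟨0, 0, le_rfl, le_rfl, by norm_num, by simp⟩
    · exact ⟨1, 0, by norm_num, le_rfl, by norm_num, by simp⟩
    · exact ⟨0, 1, le_rfl, by norm_num, by norm_num, by simp⟩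
  · rintro ⟨s, t, hs, ht, hst, rfl⟩
    have hz : ∀ i ∈ (Finset.univ : Finset (Fin 3)), (![p, q, r] : Fin 3 → E3) i ∈
        convexHull ℝ ({p, q, r} : Set E3) := by
      intro i _
      apply subset_convexHull
      fin_cases i <;> simp
    have h := (convex_convexHull ℝ ({p, q, r} : Set E3)).sum_mem
      (t := Finset.univ) (w := ![1 - s - t, s, t]) (z := ![p, q, r]) ?_ ?_ hz
    · simp only [Fin.sum_univ_three] at h
      simp only [Matrix.cons_val_zero, Matrix.cons_val_one, Matrix.cons_val] at h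
      convert h using 1
      module
    · intro i _
      fin_cases i
      · simp; linarith
      · simpa using hs
      · simpa using ht
    · simp [Fin.sum_univ_three]; ring

lemma triangle_eq (p q r : E3) :
    convexHull ℝ {p, q, r} = (fun y => p + y) '' (linOf (q - p) (r - p) '' unitTri) := by
  ext x
  rw [mem_triangle_iff]
  constructor
  · rintro ⟨s, t, hs, ht, hst, rfl⟩
    refine ⟨linOf (q - p) (r - p) !₂[s, t], ⟨!₂[s, t], ⟨?_, ?_, ?_⟩, rfl⟩, ?_⟩
    · simpa using hs
    · simpa using ht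
    · simpa using hst
    · simp [linOf, add_assoc]
  · rintro ⟨_, ⟨u, ⟨h0, h1, h2⟩, rfl⟩, rfl⟩
    exact ⟨u 0, u 1, h0, h1, h2, by simp [linOf, add_assoc]⟩

/-- area of a triangle -/
theorem tri_area (p q r : E3) :
    (μHE[2] : Measure E3) (convexHull ℝ {p, q, r}) =
      ENNReal.ofReal (‖cross3 (q - p) (r - p)‖ / 2) := by
  have hiso : Isometry (fun y : E3 => p + y) := (IsometryEquiv.addLeft p).isometry
  rw [triangle_eq, hiso.euclideanHausdorffMeasure_image, measure_image_linOf, volume_unitTri]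
  rw [ENNReal.ofReal_div_of_pos (by norm_num)]
  simp [div_eq_mul_inv]

lemma tri_area_toReal (p q r : E3) :
    ((μHE[2] : Measure E3) (convexHull ℝ {p, q, r})).toReal = ‖cross3 (q - p) (r - p)‖ / 2 := by
  rw [tri_area, ENNReal.toReal_ofReal (by positivity)]

lemma par_area_toReal (c a b : E3) :
    ((μHE[2] : Measure E3)
      {x : E3 | ∃ s ∈ Icc (0:ℝ) 1, ∃ t ∈ Icc (0:ℝ) 1, x = c + s • a + t • b}).toReal = ‖cross3 a b‖ := by
  rw [par_area, ENNReal.toReal_ofReal (by positivity)]

/-! ### Orthogonal projections -/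

/-- orthogonal projection along a unit vector -/
noncomputable def proj (u y : E3) : E3 := y - inner ℝ y u • u

lemma proj_sub (u a b : E3) : proj u a - proj u b = proj u (a - b) := by
  simp only [proj, inner_sub_left, sub_smul]
  abel

lemma cross3_proj (u a b : E3) (hu : ‖u‖ = 1) :
    cross3 (proj u a) (proj u b) = inner ℝ (cross3 a b) u • u := by
  have h1 : u 0 ^ 2 + u 1 ^ 2 + u 2 ^ 2 = 1 := by
    rw [← norm_sq_eq, hu]; norm_num
  ext i
  fin_cases i
  · simp [proj, inner_eq]
    linear_combination (-(a 1 * b 2 - a 2 * b 1)) * h1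
  · simp [proj, inner_eq]
    linear_combination (-(a 2 * b 0 - a 0 * b 2)) * h1
  · simp [proj, inner_eq]
    linear_combination (-(a 0 * b 1 - a 1 * b 0)) * h1

lemma norm_cross3_proj (u a b : E3) (hu : ‖u‖ = 1) :
    ‖cross3 (proj u a) (proj u b)‖ = |inner ℝ (cross3 a b) u| := by
  rw [cross3_proj u a b hu, norm_smul, hu, mul_one, Real.norm_eq_abs]

lemma inner_proj (u y : E3) (hu : ‖u‖ = 1) : inner ℝ (proj u y) u = (0:ℝ) := by
  simp only [proj, inner_sub_left, inner_smul_left]
  rw [real_inner_self_eq_norm_sq, hu]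
  simp

/-- area of a projected triangle -/
theorem proj_tri_area_toReal (u p q r : E3) (hu : ‖u‖ = 1) :
    ((μHE[2] : Measure E3) (convexHull ℝ {proj u p, proj u q, proj u r})).toReal =
      |inner ℝ (cross3 (q - p) (r - p)) u| / 2 := by
  rw [tri_area_toReal, proj_sub, proj_sub, norm_cross3_proj u _ _ hu]

end Crest.Agent.CylArea
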