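import Crest.Agent.Lib.CylArea

/-! The standard regular tetrahedron of the row S0324-S0329. -/

set_option autoImplicit false

namespace Crest.Agent.CylArea

/-- The regular tetrahedron with vertices `(±1,0,0)`, `(0,±1,√2)`. -/
noncomputable abbrev stdK : Set E3 :=
  convexHull ℝ {!₂[1, 0, 0], !₂[-1, 0, 0], !₂[0, 1, Real.sqrt 2], !₂[0, -1, Real.sqrt 2]}

end Crest.Agent.CylArea
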