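import Crest.Agent.Lib.CylDataSpec

/-! The explicit cover of the regular tetrahedron by cylinders of small total base area. -/

set_option autoImplicit false

namespace Crest.Agent.CylData

open Crest.Agent.CylArea Crest.Agent.CylCover

/-- the `i`-th wedge, `1 ≤ i ≤ 320` -/
def wd (i : ℕ) : Wd := L.getD (i - 1) dflt

theorem L_length : L.length = 320 := by decide +kernel

theorem wd_mem (i : ℕ) (hi : 1 ≤ i) (hi' : i ≤ 320) : wd i ∈ L := by
  unfold wd
  rw [List.getD_eq_getElem _ _ (by rw [L_length]; omega)]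
  exact List.getElem_mem _

/-- the checks on one wedge -/
def seq1 : Bool := (List.range 320).all fun k =>
  (T0 (L.getD k dflt) == (k : ℤ) - 160) && (T1 (L.getD k dflt) == (k : ℤ) + 1 - 160) &&
    Nat.ble (L.getD k dflt).mn (L.getD k dflt).mx && Nat.blt 0 (L.getD k dflt).H &&
    Nat.blt 0 (L.getD k dflt).S

/-- compatibility of consecutive wedges -/
def seq2 : Bool := (List.range 319).all fun k =>
  (((L.getD (k + 1) dflt).Y : ℤ) - (L.getD k dflt).Y) * 1024000 ==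
    ((k : ℤ) + 1 - 160) * (Zi (L.getD (k + 1) dflt) - Zi (L.getD k dflt)) * 512000

/-- the bound `S` of the density -/
def seq3 : Bool := L.all fun w =>
  Nat.ble (1000000000000000000 * (262144000000 * 40960000))
    (w.S * w.S * (262144000000 * 40960000 + w.Y * w.Y * 40960000 + 2 * (w.z * w.z) * 262144000000))

/-- the total cost -/
def costSum : ℕ := (L.map fun w => w.H * w.H * w.S).sum

theorem seq1_true : seq1 = true := by decide +kernel
theorem seq2_true : seq2 = true := by decide +kernel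
theorem seq3_true : seq3 = true := by decide +kernel
theorem cost_le : costSum * 100000 ≤ 49999 * 160 * 1000000000000000000000000000 := by decide +kernel
theorem end0 : ((L.getD 0 dflt).Y : ℤ) * 6400 + Zi (L.getD 0 dflt) * 512000 = 0 := by decide +kernel
theorem end1 : ((L.getD 319 dflt).Y : ℤ) * 6400 - Zi (L.getD 319 dflt) * 512000 = 0 := by decide +kernel

theorem seq1_spec (i : ℕ) (hi : 1 ≤ i) (hi' : i ≤ 320) :
    T0 (wd i) = (i : ℤ) - 1 - 160 ∧ T1 (wd i) = (i : ℤ) - 160 ∧ (wd i).mn ≤ (wd i).mx ∧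
      0 < (wd i).H ∧ 0 < (wd i).S := by
  have h := List.all_eq_true.1 seq1_true (i - 1) (List.mem_range.2 (by omega))
  simp only [Bool.and_eq_true, beq_iff_eq, Nat.ble_eq, Nat.blt_eq] at h
  obtain ⟨⟨⟨⟨h1, h2⟩, h3⟩, h4⟩, h5⟩ := h
  have hc : ((i - 1 : ℕ) : ℤ) = (i : ℤ) - 1 := by push_cast [Nat.cast_sub hi]; ring
  rw [hc] at h1 h2
  refine ⟨h1, ?_, h3, h4, h5⟩
  rw [show T1 (wd i) = T1 (L.getD (i - 1) dflt) from rfl, h2]; ring

theorem seq2_spec (k : ℕ) (hk : 1 ≤ k) (hk' : k < 320) :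
    (((wd (k + 1)).Y : ℤ) - (wd k).Y) * 1024000 =
      ((k : ℤ) - 160) * (Zi (wd (k + 1)) - Zi (wd k)) * 512000 := by
  have h := List.all_eq_true.1 seq2_true (k - 1) (List.mem_range.2 (by omega))
  simp only [beq_iff_eq] at h
  have hc : ((k - 1 : ℕ) : ℤ) = (k : ℤ) - 1 := by push_cast [Nat.cast_sub hk]; ring
  have he : k - 1 + 1 = k := by omega
  rw [hc, he] at h
  have e1 : wd (k + 1) = L.getD k dflt := rfl
  have e2 : wd k = L.getD (k - 1) dflt := rfl
  rw [e1, e2, h]; ring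

/-! ### real numbers -/

noncomputable def tauR (k : ℕ) : ℝ := ((k : ℝ) - 160) / 160
noncomputable def wyR (i : ℕ) : ℝ := ((wd i).Y : ℝ) / 512000
noncomputable def wzR (i : ℕ) : ℝ := ((Zi (wd i) : ℤ) : ℝ) / 6400
noncomputable def HR (i : ℕ) : ℝ := ((wd i).H : ℝ) / 1000000000
noncomputable def sR (i : ℕ) : ℝ := ((wd i).S : ℝ) / 1000000000

lemma tau_pred (i : ℕ) (hi : 1 ≤ i) (hi' : i ≤ 320) : tauR (i - 1) = ((T0 (wd i) : ℤ) : ℝ) / 160 := by
  rw [(seq1_spec i hi hi').1, tauR]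
  push_cast [Nat.cast_sub hi]
  ring

lemma tau_self (i : ℕ) (hi : 1 ≤ i) (hi' : i ≤ 320) : tauR i = ((T1 (wd i) : ℤ) : ℝ) / 160 := by
  rw [(seq1_spec i hi hi').2.1, tauR]
  push_cast
  ring

/-- the algebra of the quantities `A` -/
lemma A_form (Yi Yj Zi' Zj T : ℤ) :
    (1 + ((Yi : ℝ) / 512000) * ((Yj : ℝ) / 512000)) -
      (((Zi' : ℝ) / 6400) * ((Yj : ℝ) / 512000) - (Zj : ℝ) / 6400) * ((T : ℝ) / 160) =
    ((((262144000000 : ℤ) + Yi * Yj) * 1024000 - ((Zi' * Yj - Zj * 512000) * 512000) * T : ℤ) : ℝ) /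
      (262144000000 * 1024000) := by
  push_cast
  field_simp
  ring

/-- the algebra of the quantities `B` -/
lemma B_form (Yi Yj Zi' Zj T : ℤ) :
    (1 + ((Yi : ℝ) / 512000) * ((Yj : ℝ) / 512000)) -
      (((Zi' : ℝ) / 6400) + ((Zj : ℝ) / 6400) * ((Yi : ℝ) / 512000)) * ((T : ℝ) / 160) =
    ((((262144000000 : ℤ) + Yi * Yj) * 1024000 - ((Zi' * 512000 + Zj * Yi) * 512000) * T : ℤ) : ℝ) /
      (262144000000 * 1024000) := by
  push_cast
  field_simp
  ring

/-- the algebra of the quantities `D` -/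
lemma D_form (Yi Yj : ℤ) :
    (1 + ((Yi : ℝ) / 512000) * ((Yj : ℝ) / 512000)) =
    ((((262144000000 : ℤ) + Yi * Yj) * 1024000 : ℤ) : ℝ) / (262144000000 * 1024000) := by
  push_cast
  field_simp
  ring

/-- the conclusion of `chk_spec` in real numbers -/
lemma real_pair (i j : ℕ) (hi : 1 ≤ i) (hi' : i ≤ 320) (hj : 1 ≤ j) (hj' : j ≤ 320)
    (Ta Tb : ℤ) (hTa : Ta = T0 (wd i) ∨ Ta = T1 (wd i)) (hTb : Tb = T0 (wd j) ∨ Tb = T1 (wd j)) :
    0 < (1 + wyR i * wyR j) - (wzR i * wyR j - wzR j) * ((Ta : ℝ) / 160) ∧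
    0 < (1 + wyR i * wyR j) - (wzR i + wzR j * wyR i) * ((Tb : ℝ) / 160) ∧
    1 + wyR i * wyR j ≤ ((1 + wyR i * wyR j) - (wzR i * wyR j - wzR j) * ((Ta : ℝ) / 160)) * HR i +
      ((1 + wyR i * wyR j) - (wzR i + wzR j * wyR i) * ((Tb : ℝ) / 160)) * HR j := by
  have hchk : chk (wd i) (wd j) = true :=
    List.all_eq_true.1 (List.all_eq_true.1 pairCheck_true (wd i) (wd_mem i hi hi')) (wd j)
      (wd_mem j hj hj')
  obtain ⟨-, -, hmna, -, -⟩ := seq1_spec i hi hi'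
  obtain ⟨-, -, hmnb, -, -⟩ := seq1_spec j hj hj'
  have hmna' : ((wd i).mn : ℤ) ≤ (wd i).mx := by exact_mod_cast hmna
  have hmnb' : ((wd j).mn : ℤ) ≤ (wd j).mx := by exact_mod_cast hmnb
  -- the sign-free values
  obtain ⟨ta, hta, hta0, hta1⟩ : ∃ ta : ℤ, Ta = sgn (wd i) * ta ∧ ((wd i).mn : ℤ) ≤ ta ∧ ta ≤ (wd i).mx := by
    rcases hTa with rfl | rfl
    · refine ⟨((cond (wd i).sg (wd i).mn (wd i).mx : ℕ) : ℤ), rfl, ?_, ?_⟩ <;>
        cases (wd i).sg <;> simp [hmna']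
    · refine ⟨((cond (wd i).sg (wd i).mx (wd i).mn : ℕ) : ℤ), rfl, ?_, ?_⟩ <;>
        cases (wd i).sg <;> simp [hmna']
  obtain ⟨tb, htb, htb0, htb1⟩ : ∃ tb : ℤ, Tb = sgn (wd j) * tb ∧ ((wd j).mn : ℤ) ≤ tb ∧ tb ≤ (wd j).mx := by
    rcases hTb with rfl | rfl
    · refine ⟨((cond (wd j).sg (wd j).mn (wd j).mx : ℕ) : ℤ), rfl, ?_, ?_⟩ <;>
        cases (wd j).sg <;> simp [hmnb']
    · refine ⟨((cond (wd j).sg (wd j).mx (wd j).mn : ℕ) : ℤ), rfl, ?_, ?_⟩ <;>
        cases (wd j).sg <;> simp [hmnb']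
  obtain ⟨h1, h2, h3⟩ := chk_spec _ _ hchk ta tb hta0 hta1 htb0 htb1
  rw [← hta] at h1 h3
  rw [← htb] at h2 h3
  have eY : ∀ i, wyR i = ((((wd i).Y : ℕ) : ℤ) : ℝ) / 512000 := fun i => by simp [wyR]
  have eHi : HR i = ((wd i).H : ℝ) / 1000000000 := rfl
  have eHj : HR j = ((wd j).H : ℝ) / 1000000000 := rfl
  have eZ : ∀ i, wzR i = ((Zi (wd i) : ℤ) : ℝ) / 6400 := fun i => rfl
  simp only [eY, eZ]
  rw [A_form, B_form, D_form, eHi, eHj]
  have hK : (0 : ℝ) < 262144000000 * 1024000 := by norm_num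
  set C : ℤ := (262144000000 + ((wd i).Y : ℤ) * (wd j).Y) * 1024000 with hC
  set A : ℤ := C - (Zi (wd i) * (wd j).Y - Zi (wd j) * 512000) * 512000 * Ta with hA
  set B : ℤ := C - (Zi (wd i) * 512000 + Zi (wd j) * (wd i).Y) * 512000 * Tb with hB
  have h1' : (0 : ℝ) < (A : ℝ) := by exact_mod_cast h1
  have h2' : (0 : ℝ) < (B : ℝ) := by exact_mod_cast h2
  have h3' : (C : ℝ) * 1000000000 ≤ (A : ℝ) * ((wd i).H : ℝ) + (B : ℝ) * ((wd j).H : ℝ) := by
    exact_mod_cast h3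
  refine ⟨by positivity, by positivity, ?_⟩
  have e : (A : ℝ) / (262144000000 * 1024000) * (((wd i).H : ℝ) / 1000000000) +
      (B : ℝ) / (262144000000 * 1024000) * (((wd j).H : ℝ) / 1000000000) =
      ((A : ℝ) * ((wd i).H : ℝ) + (B : ℝ) * ((wd j).H : ℝ)) / 1000000000 / (262144000000 * 1024000) := by
    field_simp
  rw [e]
  apply div_le_div_of_nonneg_right _ hK.le
  rw [le_div_iff₀ (by norm_num)]
  exact h3'

lemma sum_getD {α : Type*} (f : α → ℕ) (d : α) (l : List α) :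
    ∑ i ∈ Finset.range l.length, f (l.getD i d) = (l.map f).sum := by
  induction l with
  | nil => simp
  | cons a t ih =>
    rw [List.length_cons, Finset.sum_range_succ', List.map_cons, List.sum_cons, ← ih]
    simp [add_comm]

theorem fanHyp : FanHyp 320 tauR wyR wzR HR where
  hN := by norm_num
  h0 := by simp [tauR]
  hlast := by norm_num [tauR]
  hmono := fun k _ => by
    simp only [tauR]
    push_cast
    apply div_lt_div_of_pos_right _ (by norm_num)
    linarith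
  hb0 := by
    have h := end0
    have h' : ((((L.getD 0 dflt).Y : ℕ) : ℝ)) * 6400 + ((Zi (L.getD 0 dflt) : ℤ) : ℝ) * 512000 = 0 := by
      exact_mod_cast h
    simp only [wyR, wzR]
    show (((L.getD 0 dflt).Y : ℕ) : ℝ) / 512000 + ((Zi (L.getD 0 dflt) : ℤ) : ℝ) / 6400 = 0
    field_simp
    linear_combination h' / 1
  hbN := by
    have h := end1
    have h' : ((((L.getD 319 dflt).Y : ℕ) : ℝ)) * 6400 - ((Zi (L.getD 319 dflt) : ℤ) : ℝ) * 512000 = 0 := by
      exact_mod_cast h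
    simp only [wyR, wzR]
    show (((L.getD 319 dflt).Y : ℕ) : ℝ) / 512000 - ((Zi (L.getD 319 dflt) : ℤ) : ℝ) / 6400 = 0
    field_simp
    linear_combination h' / 1
  hcompat := fun k hk hk' => by
    have h := seq2_spec k hk hk'
    have h' : ((((wd (k + 1)).Y : ℕ) : ℝ) - ((wd k).Y : ℕ)) * 1024000 =
        ((k : ℝ) - 160) * (((Zi (wd (k + 1)) : ℤ) : ℝ) - ((Zi (wd k) : ℤ) : ℝ)) * 512000 := by
      exact_mod_cast h
    simp only [wyR, wzR, tauR]
    field_simp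
    linear_combination h' / 1
  hHpos := fun i hi hi' => by
    have h := (seq1_spec i hi hi').2.2.2.1
    have : (0 : ℝ) < ((wd i).H : ℝ) := by exact_mod_cast h
    simp only [HR]
    positivity
  hD := fun i j _ _ _ _ => by
    simp only [wyR]
    positivity
  hA0 := fun i j hi hi' hj hj' => by
    rw [tau_pred i hi hi']
    exact (real_pair i j hi hi' hj hj' _ (T0 (wd j)) (Or.inl rfl) (Or.inl rfl)).1
  hA1 := fun i j hi hi' hj hj' => by
    rw [tau_self i hi hi']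
    exact (real_pair i j hi hi' hj hj' _ (T0 (wd j)) (Or.inr rfl) (Or.inl rfl)).1
  hB0 := fun i j hi hi' hj hj' => by
    rw [tau_pred j hj hj']
    exact (real_pair i j hi hi' hj hj' (T0 (wd i)) _ (Or.inl rfl) (Or.inl rfl)).2.1
  hB1 := fun i j hi hi' hj hj' => by
    rw [tau_self j hj hj']
    exact (real_pair i j hi hi' hj hj' (T0 (wd i)) _ (Or.inl rfl) (Or.inr rfl)).2.1
  h00 := fun i j hi hi' hj hj' => by
    rw [tau_pred i hi hi', tau_pred j hj hj']
    exact (real_pair i j hi hi' hj hj' _ _ (Or.inl rfl) (Or.inl rfl)).2.2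
  h01 := fun i j hi hi' hj hj' => by
    rw [tau_pred i hi hi', tau_self j hj hj']
    exact (real_pair i j hi hi' hj hj' _ _ (Or.inl rfl) (Or.inr rfl)).2.2
  h10 := fun i j hi hi' hj hj' => by
    rw [tau_self i hi hi', tau_pred j hj hj']
    exact (real_pair i j hi hi' hj hj' _ _ (Or.inr rfl) (Or.inl rfl)).2.2
  h11 := fun i j hi hi' hj hj' => by
    rw [tau_self i hi hi', tau_self j hj hj']
    exact (real_pair i j hi hi' hj hj' _ _ (Or.inr rfl) (Or.inr rfl)).2.2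

lemma hs_data (i : ℕ) (hi : 1 ≤ i) (hi' : i ≤ 320) :
    0 < sR i ∧ 1 ≤ sR i ^ 2 * (1 + wyR i ^ 2 + 2 * wzR i ^ 2) := by
  have hS := (seq1_spec i hi hi').2.2.2.2
  have hS' : (0 : ℝ) < ((wd i).S : ℝ) := by exact_mod_cast hS
  refine ⟨by simp only [sR]; positivity, ?_⟩
  have h := Nat.le_of_ble_eq_true (List.all_eq_true.1 seq3_true (wd i) (wd_mem i hi hi'))
  have h' : (1000000000000000000 * (262144000000 * 40960000) : ℝ) ≤
      ((wd i).S : ℝ) * (wd i).S * (262144000000 * 40960000 + ((wd i).Y : ℝ) * (wd i).Y * 40960000 +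
        2 * (((wd i).z : ℝ) * (wd i).z) * 262144000000) := by
    exact_mod_cast h
  have hZ : ((Zi (wd i) : ℤ) : ℝ) ^ 2 = ((wd i).z : ℝ) * (wd i).z := by
    simp only [Zi, sgn]
    cases (wd i).sg <;> simp <;> ring
  simp only [sR, wyR, wzR]
  have e : (((wd i).S : ℝ) / 1000000000) ^ 2 * (1 + (((wd i).Y : ℝ) / 512000) ^ 2 +
      2 * (((Zi (wd i) : ℤ) : ℝ) / 6400) ^ 2) =
      (((wd i).S : ℝ) * (wd i).S * (262144000000 * 40960000 + ((wd i).Y : ℝ) * (wd i).Y * 40960000 +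
        2 * (((wd i).z : ℝ) * (wd i).z) * 262144000000)) /
        (1000000000000000000 * (262144000000 * 40960000)) := by
    rw [div_pow ((Zi (wd i) : ℤ) : ℝ), hZ]
    field_simp
    ring
  rw [e, le_div_iff₀ (by norm_num)]
  linarith

lemma hsum_data :
    ∑ i ∈ Finset.range 320, HR (i + 1) ^ 2 * (tauR (i + 1) - tauR i) * sR (i + 1) ≤
      1 / 2 - 1 / 100000 := by
  have e : ∀ i, HR (i + 1) ^ 2 * (tauR (i + 1) - tauR i) * sR (i + 1) =
      (((L.getD i dflt).H * (L.getD i dflt).H * (L.getD i dflt).S : ℕ) : ℝ) /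
        (160 * 1000000000000000000000000000) := by
    intro i
    simp only [HR, sR, tauR, wd, Nat.add_sub_cancel]
    push_cast
    field_simp
    ring
  simp only [e]
  rw [← Finset.sum_div, ← Nat.cast_sum]
  have h1 := sum_getD (fun w : Wd => w.H * w.H * w.S) dflt L
  rw [L_length] at h1
  rw [h1]
  have h2 : ((costSum : ℕ) : ℝ) * 100000 ≤
      49999 * 160 * 1000000000000000000000000000 := by
    exact_mod_cast cost_le
  have h3 : (L.map fun w => w.H * w.H * w.S).sum = costSum := rfl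
  rw [h3, div_le_iff₀ (by norm_num)]
  linarith

end Crest.Agent.CylData

namespace Crest.Agent.CylCover

open Crest.Agent.CylArea

/-- The explicit finite cover of the standard tetrahedron by `640` cylinders, of total base area
strictly below half the minimal shadow. -/
theorem stdCover640 :
    ∃ (u p q r : Fin 640 → E3),
      (∀ i, ‖u i‖ = 1) ∧
      (∀ i, inner ℝ (p i) (u i) = (0:ℝ) ∧ inner ℝ (q i) (u i) = (0:ℝ) ∧ inner ℝ (r i) (u i) = (0:ℝ)) ∧
      stdK ⊆ ⋃ i, {x : E3 | ∃ b ∈ convexHull ℝ {p i, q i, r i}, ∃ t : ℝ, x = b + t • u i} ∧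
      ∑ i, ‖cross3 (q i - p i) (r i - p i)‖ / 2 ≤ Real.sqrt 2 * (1 / 2 - 1 / 100000) :=
  cover_of_fan CylData.fanHyp CylData.sR (1 / 100000) CylData.hs_data CylData.hsum_data

/-- The explicit finite cover of the standard tetrahedron, of total base area strictly below half
the minimal shadow. -/
theorem stdCover :
    ∃ (m : ℕ) (u p q r : Fin m → E3),
      (∀ i, ‖u i‖ = 1) ∧
      (∀ i, inner ℝ (p i) (u i) = (0:ℝ) ∧ inner ℝ (q i) (u i) = (0:ℝ) ∧ inner ℝ (r i) (u i) = (0:ℝ)) ∧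
      stdK ⊆ ⋃ i, {x : E3 | ∃ b ∈ convexHull ℝ {p i, q i, r i}, ∃ t : ℝ, x = b + t • u i} ∧
      ∑ i, ‖cross3 (q i - p i) (r i - p i)‖ / 2 ≤ Real.sqrt 2 * (1 / 2 - 1 / 100000) :=
  ⟨640, stdCover640⟩

end Crest.Agent.CylCover
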