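import Crest.Agent.Lib.CylBasic

/-!
The fan cover of the regular tetrahedron, from abstract data `tau wy wz H`.

In the coordinates `(x, y, ζ)`, `ζ = z / √2`, the tetrahedron is `|y| ≤ ζ`, `|x| ≤ 1 - ζ`.
The lower family: cylinder `i` (`1 ≤ i ≤ N`) has direction `(1, wy i, √2 wz i)` and section at `x = 0`
the triangle `(y, ζ) = (0,0), (tau (i-1) H i, H i), (tau i H i, H i)`.
The upper family is the image of the lower one under the symmetry `Φ (x,y,z) = (-y, x, √2 - z)`.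
-/

set_option autoImplicit false

open Set MeasureTheory Crest.Agent.CylArea

namespace Crest.Agent.CylCover

lemma proj_add (u a b : E3) : proj u (a + b) = proj u a + proj u b := by
  simp only [proj, inner_add_left, add_smul]
  abel

lemma proj_smul (u a : E3) (c : ℝ) : proj u (c • a) = c • proj u a := by
  simp only [proj, inner_smul_left, smul_sub, smul_smul]
  simp

lemma proj_sub' (u a b : E3) : proj u (a - b) = proj u a - proj u b := (proj_sub u a b).symm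

lemma norm_unit (d : E3) (hd : d ≠ 0) : ‖(‖d‖⁻¹ • d : E3)‖ = 1 := by
  rw [norm_smul, norm_inv, norm_norm, inv_mul_cancel₀ (norm_ne_zero_iff.2 hd)]

lemma proj_unit (d : E3) (hd : d ≠ 0) : proj (‖d‖⁻¹ • d) d = 0 := by
  have hn : ‖d‖ ≠ 0 := norm_ne_zero_iff.2 hd
  simp only [proj, inner_smul_right, real_inner_self_eq_norm_sq, smul_smul]
  have : ‖d‖⁻¹ * ‖d‖ ^ 2 * ‖d‖⁻¹ = 1 := by field_simp
  rw [this, one_smul, sub_self]

/-- A point of the (non orthogonal) prism over a triangle along `d` lies in the cylinder over the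
projected triangle. -/
lemma cyl_mem (O A B d x : E3) (a b s : ℝ) (ha : 0 ≤ a) (hb : 0 ≤ b) (hab : a + b ≤ 1) (hd : d ≠ 0)
    (hx : x = O + a • (A - O) + b • (B - O) + s • d) :
    ∃ c ∈ convexHull ℝ {proj (‖d‖⁻¹ • d) O, proj (‖d‖⁻¹ • d) A, proj (‖d‖⁻¹ • d) B}, ∃ t : ℝ,
      x = c + t • (‖d‖⁻¹ • d) := by
  set u : E3 := ‖d‖⁻¹ • d with hu
  refine ⟨proj u x, ?_, inner ℝ x u, ?_⟩
  · rw [mem_triangle_iff]
    refine ⟨a, b, ha, hb, hab, ?_⟩
    rw [hx, proj_add, proj_add, proj_add, proj_smul, proj_smul, proj_smul, proj_unit d hd,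
      proj_sub', proj_sub', smul_zero, add_zero]
  · simp [proj]

/-- Coordinates of a point of the tetrahedron. -/
lemma stdK_bounds {P : E3} (hP : P ∈ stdK) :
    |P 1| ≤ P 2 / Real.sqrt 2 ∧ |P 0| ≤ 1 - P 2 / Real.sqrt 2 := by
  have hs : Real.sqrt 2 > 0 := by positivity
  have hconv : Convex ℝ {P : E3 | P 1 ≤ P 2 / Real.sqrt 2 ∧ -P 1 ≤ P 2 / Real.sqrt 2 ∧
      P 0 ≤ 1 - P 2 / Real.sqrt 2 ∧ -P 0 ≤ 1 - P 2 / Real.sqrt 2} := by
    rintro x ⟨h1, h2, h3, h4⟩ y ⟨h5, h6, h7, h8⟩ a b ha hb hab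
    have hb' : b = 1 - a := by linarith
    subst hb'
    simp only [mem_ofPred_eq, PiLp.add_apply, PiLp.smul_apply, smul_eq_mul]
    set r := (Real.sqrt 2)⁻¹ with hr
    simp only [div_eq_mul_inv, ← hr] at *
    refine ⟨?_, ?_, ?_, ?_⟩ <;> nlinarith
  have hsub : ({!₂[1, 0, 0], !₂[-1, 0, 0], !₂[0, 1, Real.sqrt 2], !₂[0, -1, Real.sqrt 2]} : Set E3) ⊆
      {P : E3 | P 1 ≤ P 2 / Real.sqrt 2 ∧ -P 1 ≤ P 2 / Real.sqrt 2 ∧
      P 0 ≤ 1 - P 2 / Real.sqrt 2 ∧ -P 0 ≤ 1 - P 2 / Real.sqrt 2} := by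
    have h1 : Real.sqrt 2 / Real.sqrt 2 = 1 := div_self hs.ne'
    intro y hy
    simp only [mem_insert_iff, mem_singleton_iff] at hy
    rcases hy with rfl | rfl | rfl | rfl <;> simp
  obtain ⟨h1, h2, h3, h4⟩ := convexHull_min hsub hconv hP
  exact ⟨abs_le.2 ⟨by linarith, h1⟩, abs_le.2 ⟨by linarith, h3⟩⟩

/-- The arithmetic heart: the caps of the two families overlap. -/
lemma pair_lemma (wyi wzi wyj wzj ti0 ti1 tj0 tj1 Hi Hj x y zeta : ℝ)
    (_hD : 0 < 1 + wyi * wyj)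
    (hA0 : 0 < (1 + wyi * wyj) - (wzi * wyj - wzj) * ti0)
    (hA1 : 0 < (1 + wyi * wyj) - (wzi * wyj - wzj) * ti1)
    (hB0 : 0 < (1 + wyi * wyj) - (wzi + wzj * wyi) * tj0)
    (hB1 : 0 < (1 + wyi * wyj) - (wzi + wzj * wyi) * tj1)
    (hHi : 0 < Hi) (hHj : 0 < Hj)
    (h00 : 1 + wyi * wyj ≤ ((1 + wyi * wyj) - (wzi * wyj - wzj) * ti0) * Hi +
      ((1 + wyi * wyj) - (wzi + wzj * wyi) * tj0) * Hj)
    (h01 : 1 + wyi * wyj ≤ ((1 + wyi * wyj) - (wzi * wyj - wzj) * ti0) * Hi +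
      ((1 + wyi * wyj) - (wzi + wzj * wyi) * tj1) * Hj)
    (h10 : 1 + wyi * wyj ≤ ((1 + wyi * wyj) - (wzi * wyj - wzj) * ti1) * Hi +
      ((1 + wyi * wyj) - (wzi + wzj * wyi) * tj0) * Hj)
    (h11 : 1 + wyi * wyj ≤ ((1 + wyi * wyj) - (wzi * wyj - wzj) * ti1) * Hi +
      ((1 + wyi * wyj) - (wzi + wzj * wyi) * tj1) * Hj)
    (hp0 : ti0 * (zeta - x * wzi) ≤ y - x * wyi) (hp1 : y - x * wyi ≤ ti1 * (zeta - x * wzi))
    (hq0 : tj0 * ((1 - zeta) - y * wzj) ≤ -x - y * wyj)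
    (hq1 : -x - y * wyj ≤ tj1 * ((1 - zeta) - y * wzj)) :
    zeta - x * wzi ≤ Hi ∨ (1 - zeta) - y * wzj ≤ Hj := by
  by_contra hcon
  rw [not_or, not_le, not_le] at hcon
  obtain ⟨hZ1, hZ2⟩ := hcon
  set D := 1 + wyi * wyj with hDdef
  set Ep := wzi * wyj - wzj with hEp
  set Eq := wzi + wzj * wyi with hEq
  set Z1 := zeta - x * wzi with hZ1def
  set Z2 := (1 - zeta) - y * wzj with hZ2def
  set p := y - x * wyi with hp
  set q := -x - y * wyj with hq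
  have hid : D * (Z1 + Z2) = D + Ep * p + Eq * q := by
    simp only [hDdef, hEp, hEq, hZ1def, hZ2def, hp, hq]
    ring
  have hZ1pos : 0 < Z1 := lt_trans hHi hZ1
  have hZ2pos : 0 < Z2 := lt_trans hHj hZ2
  -- bound for `p`
  have hbp : (∃ a, (a = ti0 ∨ a = ti1) ∧ (D - Ep * a) * Z1 ≤ D * Z1 - Ep * p) := by
    rcases le_total 0 Ep with h | h
    · refine ⟨ti1, Or.inr rfl, ?_⟩
      have := mul_le_mul_of_nonneg_left hp1 h
      nlinarith
    · refine ⟨ti0, Or.inl rfl, ?_⟩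
      have := mul_le_mul_of_nonpos_left hp0 h
      nlinarith
  have hbq : (∃ b, (b = tj0 ∨ b = tj1) ∧ (D - Eq * b) * Z2 ≤ D * Z2 - Eq * q) := by
    rcases le_total 0 Eq with h | h
    · refine ⟨tj1, Or.inr rfl, ?_⟩
      have := mul_le_mul_of_nonneg_left hq1 h
      nlinarith
    · refine ⟨tj0, Or.inl rfl, ?_⟩
      have := mul_le_mul_of_nonpos_left hq0 h
      nlinarith
  obtain ⟨a, ha, hA⟩ := hbp
  obtain ⟨b, hb, hB⟩ := hbq
  have haPos : 0 < D - Ep * a := by rcases ha with rfl | rfl <;> assumption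
  have hbPos : 0 < D - Eq * b := by rcases hb with rfl | rfl <;> assumption
  have hlow : D ≤ (D - Ep * a) * Hi + (D - Eq * b) * Hj := by
    rcases ha with rfl | rfl <;> rcases hb with rfl | rfl <;> assumption
  have h1 : (D - Ep * a) * Hi < (D - Ep * a) * Z1 := mul_lt_mul_of_pos_left hZ1 haPos
  have h2 : (D - Eq * b) * Hj < (D - Eq * b) * Z2 := mul_lt_mul_of_pos_left hZ2 hbPos
  nlinarith

/-- Abstract data of the fan. -/
structure FanHyp (N : ℕ) (tau wy wz H : ℕ → ℝ) : Prop where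
  hN : 1 ≤ N
  h0 : tau 0 = -1
  hlast : tau N = 1
  hmono : ∀ k, k < N → tau k < tau (k + 1)
  hb0 : wy 1 + wz 1 = 0
  hbN : wy N - wz N = 0
  hcompat : ∀ k, 1 ≤ k → k < N → wy (k + 1) - tau k * wz (k + 1) = wy k - tau k * wz k
  hHpos : ∀ i, 1 ≤ i → i ≤ N → 0 < H i
  hD : ∀ i j, 1 ≤ i → i ≤ N → 1 ≤ j → j ≤ N → 0 < 1 + wy i * wy j
  hA0 : ∀ i j, 1 ≤ i → i ≤ N → 1 ≤ j → j ≤ N →
    0 < (1 + wy i * wy j) - (wz i * wy j - wz j) * tau (i - 1)
  hA1 : ∀ i j, 1 ≤ i → i ≤ N → 1 ≤ j → j ≤ N →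
    0 < (1 + wy i * wy j) - (wz i * wy j - wz j) * tau i
  hB0 : ∀ i j, 1 ≤ i → i ≤ N → 1 ≤ j → j ≤ N →
    0 < (1 + wy i * wy j) - (wz i + wz j * wy i) * tau (j - 1)
  hB1 : ∀ i j, 1 ≤ i → i ≤ N → 1 ≤ j → j ≤ N →
    0 < (1 + wy i * wy j) - (wz i + wz j * wy i) * tau j
  h00 : ∀ i j, 1 ≤ i → i ≤ N → 1 ≤ j → j ≤ N →
    1 + wy i * wy j ≤ ((1 + wy i * wy j) - (wz i * wy j - wz j) * tau (i - 1)) * H i +
      ((1 + wy i * wy j) - (wz i + wz j * wy i) * tau (j - 1)) * H j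
  h01 : ∀ i j, 1 ≤ i → i ≤ N → 1 ≤ j → j ≤ N →
    1 + wy i * wy j ≤ ((1 + wy i * wy j) - (wz i * wy j - wz j) * tau (i - 1)) * H i +
      ((1 + wy i * wy j) - (wz i + wz j * wy i) * tau j) * H j
  h10 : ∀ i j, 1 ≤ i → i ≤ N → 1 ≤ j → j ≤ N →
    1 + wy i * wy j ≤ ((1 + wy i * wy j) - (wz i * wy j - wz j) * tau i) * H i +
      ((1 + wy i * wy j) - (wz i + wz j * wy i) * tau (j - 1)) * H j
  h11 : ∀ i j, 1 ≤ i → i ≤ N → 1 ≤ j → j ≤ N →
    1 + wy i * wy j ≤ ((1 + wy i * wy j) - (wz i * wy j - wz j) * tau i) * H i +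
      ((1 + wy i * wy j) - (wz i + wz j * wy i) * tau j) * H j

variable {N : ℕ} {tau wy wz H : ℕ → ℝ}

/-- Discrete intermediate value: every point of the wedge lies in one sheared cone. -/
lemma fan_pick (h : FanHyp N tau wy wz H) (x y zeta : ℝ) (hy : |y| ≤ zeta) :
    ∃ i, 1 ≤ i ∧ i ≤ N ∧ tau (i - 1) * (zeta - x * wz i) ≤ y - x * wy i ∧
      y - x * wy i ≤ tau i * (zeta - x * wz i) := by
  have hy1 := abs_le.1 hy
  -- `g k`: the point is to the left of the `k`-th plane, expressed with wedge `k`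
  have hex : ∃ k, 1 ≤ k ∧ k ≤ N ∧ y - x * wy k ≤ tau k * (zeta - x * wz k) := by
    refine ⟨N, h.hN, le_rfl, ?_⟩
    rw [h.hlast]
    have := h.hbN
    have h2 : wy N = wz N := by linarith
    rw [h2]
    linarith [hy1.2]
  classical
  let i := Nat.find hex
  obtain ⟨hi1, hiN, hi⟩ := Nat.find_spec hex
  refine ⟨i, hi1, hiN, ?_, hi⟩
  by_cases hi2 : i = 1
  · rw [hi2]
    simp only [Nat.sub_self, h.h0]
    have hb := h.hb0
    have h3 : wy 1 = - wz 1 := by linarith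
    rw [h3]
    linarith [hy1.1]
  · have hlt : i - 1 < i := by omega
    have hnot := Nat.find_min hex hlt
    have h1' : 1 ≤ i - 1 := by omega
    have hN' : i - 1 ≤ N := by omega
    have hfail : tau (i - 1) * (zeta - x * wz (i - 1)) < y - x * wy (i - 1) := by
      by_contra hc
      exact hnot ⟨h1', hN', not_lt.1 hc⟩
    have hcomp := h.hcompat (i - 1) h1' (by omega)
    have hsucc : i - 1 + 1 = i := by omega
    rw [hsucc] at hcomp
    -- compare wedge `i` and wedge `i-1` at the plane `i-1`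
    have : (y - x * wy i) - tau (i - 1) * (zeta - x * wz i) =
        (y - x * wy (i - 1)) - tau (i - 1) * (zeta - x * wz (i - 1)) := by
      have e1 : wy i = wy (i - 1) + tau (i - 1) * (wz i - wz (i - 1)) := by linarith
      rw [e1]; ring
    linarith

/-- The sheared cone point lies in the prism over the triangle. -/
lemma wedge_coeffs (t0 t1 Hi Z p : ℝ) (ht : t0 < t1) (hH : 0 < Hi) (hZ : Z ≤ Hi)
    (h0 : t0 * Z ≤ p) (h1 : p ≤ t1 * Z) :
    ∃ a b : ℝ, 0 ≤ a ∧ 0 ≤ b ∧ a + b ≤ 1 ∧ a * (t0 * Hi) + b * (t1 * Hi) = p ∧ a * Hi + b * Hi = Z := by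
  have hd : 0 < t1 - t0 := by linarith
  have hd' : (t1 - t0) * Hi ≠ 0 := (mul_pos hd hH).ne'
  refine ⟨(t1 * Z - p) / ((t1 - t0) * Hi), (p - t0 * Z) / ((t1 - t0) * Hi), ?_, ?_, ?_, ?_, ?_⟩
  · exact div_nonneg (by linarith) (mul_pos hd hH).le
  · exact div_nonneg (by linarith) (mul_pos hd hH).le
  · rw [← add_div, div_le_one (mul_pos hd hH)]
    nlinarith
  · field_simp
    ring
  · field_simp
    ring

/-- lower direction -/
noncomputable def dL (wy wz : ℕ → ℝ) (i : ℕ) : E3 := !₂[1, wy i, Real.sqrt 2 * wz i]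
/-- lower triangle vertex -/
noncomputable def AL (tau H : ℕ → ℝ) (i : ℕ) : E3 := !₂[0, tau (i - 1) * H i, Real.sqrt 2 * H i]
/-- lower triangle vertex -/
noncomputable def BL (tau H : ℕ → ℝ) (i : ℕ) : E3 := !₂[0, tau i * H i, Real.sqrt 2 * H i]
/-- upper direction -/
noncomputable def dU (wy wz : ℕ → ℝ) (i : ℕ) : E3 := !₂[-wy i, 1, -(Real.sqrt 2 * wz i)]
/-- upper apex -/
noncomputable def OU : E3 := !₂[0, 0, Real.sqrt 2]
/-- upper triangle vertex -/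
noncomputable def AU (tau H : ℕ → ℝ) (i : ℕ) : E3 :=
  !₂[-(tau (i - 1) * H i), 0, Real.sqrt 2 - Real.sqrt 2 * H i]
/-- upper triangle vertex -/
noncomputable def BU (tau H : ℕ → ℝ) (i : ℕ) : E3 :=
  !₂[-(tau i * H i), 0, Real.sqrt 2 - Real.sqrt 2 * H i]

lemma dL_ne (wy wz : ℕ → ℝ) (i : ℕ) : dL wy wz i ≠ 0 := by
  intro h
  have := congrArg (fun v : E3 => v 0) h
  simp [dL] at this

lemma dU_ne (wy wz : ℕ → ℝ) (i : ℕ) : dU wy wz i ≠ 0 := by
  intro h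
  have := congrArg (fun v : E3 => v 1) h
  simp [dU] at this

lemma norm_dL_sq (wy wz : ℕ → ℝ) (i : ℕ) :
    ‖dL wy wz i‖ ^ 2 = 1 + wy i ^ 2 + 2 * wz i ^ 2 := by
  rw [norm_sq_eq]
  simp [dL, mul_pow]

lemma norm_dU_sq (wy wz : ℕ → ℝ) (i : ℕ) :
    ‖dU wy wz i‖ ^ 2 = 1 + wy i ^ 2 + 2 * wz i ^ 2 := by
  rw [norm_sq_eq]
  simp [dU, mul_pow]
  ring

/-- the main covering statement -/
theorem fan_cover (h : FanHyp N tau wy wz H) (P : E3) (hP : P ∈ stdK) :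
    (∃ i, 1 ≤ i ∧ i ≤ N ∧ ∃ a b s : ℝ, 0 ≤ a ∧ 0 ≤ b ∧ a + b ≤ 1 ∧
      P = (0 : E3) + a • (AL tau H i - 0) + b • (BL tau H i - 0) + s • dL wy wz i) ∨
    (∃ j, 1 ≤ j ∧ j ≤ N ∧ ∃ a b s : ℝ, 0 ≤ a ∧ 0 ≤ b ∧ a + b ≤ 1 ∧
      P = OU + a • (AU tau H j - OU) + b • (BU tau H j - OU) + s • dU wy wz j) := by
  obtain ⟨hy, hx⟩ := stdK_bounds hP
  have hs : Real.sqrt 2 ≠ 0 := by positivity
  have hss : Real.sqrt 2 * Real.sqrt 2 = 2 := Real.mul_self_sqrt (by norm_num)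
  set x := P 0 with hxdef
  set y := P 1 with hydef
  set zeta := P 2 / Real.sqrt 2 with hzeta
  have hz : P 2 = Real.sqrt 2 * zeta := by rw [hzeta]; field_simp
  have hy' : |(-x : ℝ)| ≤ 1 - zeta := by rwa [abs_neg]
  obtain ⟨i, hi1, hiN, hp0, hp1⟩ := fan_pick h x y zeta hy
  obtain ⟨j, hj1, hjN, hq0, hq1⟩ := fan_pick h y (-x) (1 - zeta) hy'
  have hcases := pair_lemma (wy i) (wz i) (wy j) (wz j) (tau (i - 1)) (tau i) (tau (j - 1)) (tau j)
    (H i) (H j) x y zeta (h.hD i j hi1 hiN hj1 hjN) (h.hA0 i j hi1 hiN hj1 hjN)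
    (h.hA1 i j hi1 hiN hj1 hjN) (h.hB0 i j hi1 hiN hj1 hjN) (h.hB1 i j hi1 hiN hj1 hjN)
    (h.hHpos i hi1 hiN) (h.hHpos j hj1 hjN) (h.h00 i j hi1 hiN hj1 hjN) (h.h01 i j hi1 hiN hj1 hjN)
    (h.h10 i j hi1 hiN hj1 hjN) (h.h11 i j hi1 hiN hj1 hjN) hp0 hp1 hq0 hq1
  have hmonoi : tau (i - 1) < tau i := by
    have := h.hmono (i - 1) (by omega)
    rwa [show i - 1 + 1 = i by omega] at this
  have hmonoj : tau (j - 1) < tau j := by
    have := h.hmono (j - 1) (by omega)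
    rwa [show j - 1 + 1 = j by omega] at this
  rcases hcases with hc | hc
  · left
    obtain ⟨a, b, ha, hb, hab, e1, e2⟩ := wedge_coeffs (tau (i - 1)) (tau i) (H i) _ _ hmonoi
      (h.hHpos i hi1 hiN) hc hp0 hp1
    refine ⟨i, hi1, hiN, a, b, x, ha, hb, hab, ?_⟩
    ext k
    fin_cases k
    · simp [AL, BL, dL, ← hxdef]
    · simp [AL, BL, dL]
      rw [← hydef]
      linarith
    · simp [AL, BL, dL]
      rw [hz]
      have : Real.sqrt 2 * zeta = Real.sqrt 2 * (a * H i + b * H i + x * wz i) := by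
        rw [e2]; ring
      rw [this]; ring
  · right
    obtain ⟨a, b, ha, hb, hab, e1, e2⟩ := wedge_coeffs (tau (j - 1)) (tau j) (H j) _ _ hmonoj
      (h.hHpos j hj1 hjN) hc hq0 hq1
    refine ⟨j, hj1, hjN, a, b, y, ha, hb, hab, ?_⟩
    ext k
    fin_cases k
    · simp [AU, BU, dU, OU]
      rw [← hxdef]
      linarith
    · simp [AU, BU, dU, OU, ← hydef]
    · simp [AU, BU, dU, OU]
      rw [hz]
      have : Real.sqrt 2 * zeta = Real.sqrt 2 * (1 - (a * H j + b * H j) - y * wz j) := by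
        rw [e2]; ring
      rw [this]; ring


/-- inverse norm bound from a rational certificate -/
lemma inv_norm_le (d : E3) (hd : d ≠ 0) (s : ℝ) (hs : 0 < s) (h : 1 ≤ s ^ 2 * ‖d‖ ^ 2) : ‖d‖⁻¹ ≤ s := by
  have hn : 0 < ‖d‖ := norm_pos_iff.2 hd
  rw [inv_le_iff_one_le_mul₀ hn]
  have h1 : 0 < ‖d‖ * s := by positivity
  nlinarith [mul_pos hn hs]

/-- area of a lower triangle -/
lemma areaL (tau H wy wz : ℕ → ℝ) (i : ℕ) (hm : tau (i - 1) ≤ tau i) :
    ‖cross3 (proj (‖dL wy wz i‖⁻¹ • dL wy wz i) (AL tau H i) - proj (‖dL wy wz i‖⁻¹ • dL wy wz i) 0)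
      (proj (‖dL wy wz i‖⁻¹ • dL wy wz i) (BL tau H i) - proj (‖dL wy wz i‖⁻¹ • dL wy wz i) 0)‖ / 2 =
    Real.sqrt 2 * H i ^ 2 * (tau i - tau (i - 1)) * ‖dL wy wz i‖⁻¹ / 2 := by
  rw [proj_sub, proj_sub, norm_cross3_proj _ _ _ (norm_unit _ (dL_ne wy wz i)), inner_smul_right,
    inner_eq]
  have h1 : (cross3 (AL tau H i - 0) (BL tau H i - 0)) 0 * (dL wy wz i) 0 +
      (cross3 (AL tau H i - 0) (BL tau H i - 0)) 1 * (dL wy wz i) 1 +
      (cross3 (AL tau H i - 0) (BL tau H i - 0)) 2 * (dL wy wz i) 2 =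
      - (Real.sqrt 2 * H i ^ 2 * (tau i - tau (i - 1))) := by
    simp [AL, BL, dL]
    ring
  rw [h1, abs_mul, abs_neg, abs_of_nonneg (a := ‖dL wy wz i‖⁻¹) (by positivity),
    abs_of_nonneg (a := Real.sqrt 2 * H i ^ 2 * (tau i - tau (i - 1)))]
  · ring
  · have : 0 ≤ tau i - tau (i - 1) := by linarith
    positivity

/-- area of an upper triangle -/
lemma areaU (tau H wy wz : ℕ → ℝ) (i : ℕ) (hm : tau (i - 1) ≤ tau i) :
    ‖cross3 (proj (‖dU wy wz i‖⁻¹ • dU wy wz i) (AU tau H i) - proj (‖dU wy wz i‖⁻¹ • dU wy wz i) OU)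
      (proj (‖dU wy wz i‖⁻¹ • dU wy wz i) (BU tau H i) - proj (‖dU wy wz i‖⁻¹ • dU wy wz i) OU)‖ / 2 =
    Real.sqrt 2 * H i ^ 2 * (tau i - tau (i - 1)) * ‖dU wy wz i‖⁻¹ / 2 := by
  rw [proj_sub, proj_sub, norm_cross3_proj _ _ _ (norm_unit _ (dU_ne wy wz i)), inner_smul_right,
    inner_eq]
  have h1 : (cross3 (AU tau H i - OU) (BU tau H i - OU)) 0 * (dU wy wz i) 0 +
      (cross3 (AU tau H i - OU) (BU tau H i - OU)) 1 * (dU wy wz i) 1 +
      (cross3 (AU tau H i - OU) (BU tau H i - OU)) 2 * (dU wy wz i) 2 =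
      (Real.sqrt 2 * H i ^ 2 * (tau i - tau (i - 1))) := by
    simp [AU, BU, dU, OU]
    ring
  rw [h1, abs_mul, abs_of_nonneg (a := ‖dU wy wz i‖⁻¹) (by positivity),
    abs_of_nonneg (a := Real.sqrt 2 * H i ^ 2 * (tau i - tau (i - 1)))]
  · ring
  · have : 0 ≤ tau i - tau (i - 1) := by linarith
    positivity

/-- The cover with its area bound, from abstract data. -/
theorem cover_of_fan (h : FanHyp N tau wy wz H) (s : ℕ → ℝ) (margin : ℝ)
    (hs : ∀ i, 1 ≤ i → i ≤ N → 0 < s i ∧ 1 ≤ s i ^ 2 * (1 + wy i ^ 2 + 2 * wz i ^ 2))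
    (hsum : ∑ i ∈ Finset.range N, H (i + 1) ^ 2 * (tau (i + 1) - tau i) * s (i + 1) ≤ 1 / 2 - margin) :
    ∃ (u p q r : Fin (N + N) → E3),
      (∀ i, ‖u i‖ = 1) ∧
      (∀ i, inner ℝ (p i) (u i) = (0:ℝ) ∧ inner ℝ (q i) (u i) = (0:ℝ) ∧ inner ℝ (r i) (u i) = (0:ℝ)) ∧
      stdK ⊆ ⋃ i, {x : E3 | ∃ b ∈ convexHull ℝ {p i, q i, r i}, ∃ t : ℝ, x = b + t • u i} ∧
      ∑ i, ‖cross3 (q i - p i) (r i - p i)‖ / 2 ≤ Real.sqrt 2 * (1 / 2 - margin) := by
  let uL : ℕ → E3 := fun i => ‖dL wy wz i‖⁻¹ • dL wy wz i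
  let uU : ℕ → E3 := fun i => ‖dU wy wz i‖⁻¹ • dU wy wz i
  have huL : ∀ i, ‖uL i‖ = 1 := fun i => norm_unit _ (dL_ne wy wz i)
  have huU : ∀ i, ‖uU i‖ = 1 := fun i => norm_unit _ (dU_ne wy wz i)
  refine ⟨Fin.addCases (fun a => uL (a + 1)) (fun a => uU (a + 1)),
    Fin.addCases (fun a => proj (uL (a + 1)) 0) (fun a => proj (uU (a + 1)) OU),
    Fin.addCases (fun a => proj (uL (a + 1)) (AL tau H (a + 1)))
      (fun a => proj (uU (a + 1)) (AU tau H (a + 1))),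
    Fin.addCases (fun a => proj (uL (a + 1)) (BL tau H (a + 1)))
      (fun a => proj (uU (a + 1)) (BU tau H (a + 1))), ?_, ?_, ?_, ?_⟩
  · intro i
    refine Fin.addCases (fun a => ?_) (fun a => ?_) i
    · simp only [Fin.addCases_left]
      exact huL _
    · simp only [Fin.addCases_right]
      exact huU _
  · intro i
    refine Fin.addCases (fun a => ?_) (fun a => ?_) i
    · simp only [Fin.addCases_left]
      exact ⟨inner_proj _ _ (huL _), inner_proj _ _ (huL _), inner_proj _ _ (huL _)⟩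
    · simp only [Fin.addCases_right]
      exact ⟨inner_proj _ _ (huU _), inner_proj _ _ (huU _), inner_proj _ _ (huU _)⟩
  · intro P hP
    rw [mem_iUnion]
    rcases fan_cover h P hP with ⟨i, hi1, hiN, a, b, t, ha, hb, hab, he⟩ | ⟨i, hi1, hiN, a, b, t, ha, hb, hab, he⟩
    · have hidx : i - 1 < N := by omega
      refine ⟨Fin.castAdd N ⟨i - 1, hidx⟩, ?_⟩
      simp only [Fin.addCases_left, mem_ofPred_eq]
      have hi' : i - 1 + 1 = i := by omega
      rw [hi']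
      exact cyl_mem 0 _ _ _ P a b t ha hb hab (dL_ne wy wz i) he
    · have hidx : i - 1 < N := by omega
      refine ⟨Fin.natAdd N ⟨i - 1, hidx⟩, ?_⟩
      simp only [Fin.addCases_right, mem_ofPred_eq]
      have hi' : i - 1 + 1 = i := by omega
      rw [hi']
      exact cyl_mem OU _ _ _ P a b t ha hb hab (dU_ne wy wz i) he
  · rw [Fin.sum_univ_add]
    simp only [Fin.addCases_left, Fin.addCases_right]
    have hL : ∀ a : Fin N, ‖cross3 (proj (uL (a + 1)) (AL tau H (a + 1)) - proj (uL (a + 1)) 0)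
        (proj (uL (a + 1)) (BL tau H (a + 1)) - proj (uL (a + 1)) 0)‖ / 2 ≤
        Real.sqrt 2 / 2 * (H (a + 1) ^ 2 * (tau (a + 1) - tau a) * s (a + 1)) := by
      intro a
      have ha1 := a.2
      have hm := h.hmono a ha1
      have harea := areaL tau H wy wz (a + 1) (by simpa using hm.le)
      simp only [Nat.add_sub_cancel] at harea
      simp only [uL]
      rw [harea]
      obtain ⟨hs0, hs1⟩ := hs (a + 1) (by omega) (by omega)
      have hinv := inv_norm_le (dL wy wz (a + 1)) (dL_ne _ _ _) (s (a + 1)) hs0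
        (by rw [norm_dL_sq]; exact hs1)
      have hnn : 0 ≤ Real.sqrt 2 * H (a + 1) ^ 2 * (tau (a + 1) - tau a) := by
        have : 0 ≤ tau (a + 1) - tau a := by linarith
        positivity
      have := mul_le_mul_of_nonneg_left hinv hnn
      linarith
    have hU : ∀ a : Fin N, ‖cross3 (proj (uU (a + 1)) (AU tau H (a + 1)) - proj (uU (a + 1)) OU)
        (proj (uU (a + 1)) (BU tau H (a + 1)) - proj (uU (a + 1)) OU)‖ / 2 ≤
        Real.sqrt 2 / 2 * (H (a + 1) ^ 2 * (tau (a + 1) - tau a) * s (a + 1)) := by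
      intro a
      have ha1 := a.2
      have hm := h.hmono a ha1
      have harea := areaU tau H wy wz (a + 1) (by simpa using hm.le)
      simp only [Nat.add_sub_cancel] at harea
      simp only [uU]
      rw [harea]
      obtain ⟨hs0, hs1⟩ := hs (a + 1) (by omega) (by omega)
      have hinv := inv_norm_le (dU wy wz (a + 1)) (dU_ne _ _ _) (s (a + 1)) hs0
        (by rw [norm_dU_sq]; exact hs1)
      have hnn : 0 ≤ Real.sqrt 2 * H (a + 1) ^ 2 * (tau (a + 1) - tau a) := by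
        have : 0 ≤ tau (a + 1) - tau a := by linarith
        positivity
      have := mul_le_mul_of_nonneg_left hinv hnn
      linarith
    have hcast : ∀ g : ℕ → ℝ, ∑ a : Fin N, g a = ∑ i ∈ Finset.range N, g i :=
      fun g => Fin.sum_univ_eq_sum_range g N
    have h1 := Finset.sum_le_sum (fun a (_ : a ∈ Finset.univ) => hL a)
    have h2 := Finset.sum_le_sum (fun a (_ : a ∈ Finset.univ) => hU a)
    rw [← Finset.mul_sum] at h1 h2
    rw [hcast (fun i => H (i + 1) ^ 2 * (tau (i + 1) - tau i) * s (i + 1))] at h1 h2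
    have hsq : 0 ≤ Real.sqrt 2 := by positivity
    have := mul_le_mul_of_nonneg_left hsum hsq
    linarith

end Crest.Agent.CylCover
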