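import Crest.Agent.Lib.CylDataTable

/-! The quadratically many kernel checks of the fan cover: the caps of any two wedges overlap. -/

set_option autoImplicit false

namespace Crest.Agent.CylData

/-- the check for two wedges, expressed for speed with the primitive functions of `Nat` -/
def chkSame (SY SY2 SZA SH Yi Yj zi zj mni mxi mxj Hi Hj : Nat) : Bool :=
  (fun C =>
    (fun A B =>
      and (and (Nat.blt 0 A) (Nat.blt 0 B))
        (and (and (Nat.ble (Nat.mul (Nat.mul (Nat.add (Nat.mul zi SY) (Nat.mul zj Yi)) SY) mxj) C)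
              (cond (Nat.ble (Nat.mul zj SY) (Nat.mul zi Yj))
                (Nat.ble (Nat.mul (Nat.mul (Nat.sub (Nat.mul zi Yj) (Nat.mul zj SY)) SY) mxi) C) true))
          (Nat.ble (Nat.mul C SH) (Nat.add (Nat.mul A Hi) (Nat.mul B Hj)))))
      (cond (Nat.ble (Nat.mul zj SY) (Nat.mul zi Yj))
        (Nat.sub C (Nat.mul (Nat.mul (Nat.sub (Nat.mul zi Yj) (Nat.mul zj SY)) SY) mxi))
        (Nat.add C (Nat.mul (Nat.mul (Nat.sub (Nat.mul zj SY) (Nat.mul zi Yj)) SY) mni)))
      (Nat.sub C (Nat.mul (Nat.mul (Nat.add (Nat.mul zi SY) (Nat.mul zj Yi)) SY) mxj)))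
   (Nat.mul (Nat.add SY2 (Nat.mul Yi Yj)) SZA)

/-- the check for two wedges -/
def chk (a b : Wd) : Bool :=
  match a, b with
  | ⟨sa, mna, mxa, Ya, za, Ha, _⟩, ⟨sb, mnb, mxb, Yb, zb, Hb, _⟩ =>
    cond (Bool.xor sa sb)
      (chkSame 512000 262144000000 1024000 1000000000 Yb Ya zb za mnb mxb mxa Hb Ha)
      (chkSame 512000 262144000000 1024000 1000000000 Ya Yb za zb mna mxa mxb Ha Hb)

/-- all pairs -/
def pairCheck : Bool := L.all fun a => L.all fun b => chk a b

theorem pairCheck_true : pairCheck = true := by decide +kernel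

end Crest.Agent.CylData
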