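import Crest.Agent.Lib.CylDataPair
import Crest.Agent.Lib.CylCoverFan

/-! From the kernel checks to the real-number hypotheses of the fan cover. -/

set_option autoImplicit false

namespace Crest.Agent.CylData

theorem chkSame_spec (SY SY2 SZA SH Yi Yj zi zj mni mxi mxj Hi Hj : ℕ)
    (h : chkSame SY SY2 SZA SH Yi Yj zi zj mni mxi mxj Hi Hj = true)
    (a b : ℤ) (ha0 : (mni : ℤ) ≤ a) (ha1 : a ≤ mxi) (hb1 : b ≤ mxj) :
    0 < ((SY2 : ℤ) + Yi * Yj) * SZA - (((zi : ℤ) * Yj - zj * SY) * SY) * a ∧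
    0 < ((SY2 : ℤ) + Yi * Yj) * SZA - (((zi : ℤ) * SY + zj * Yi) * SY) * b ∧
    (((SY2 : ℤ) + Yi * Yj) * SZA) * SH ≤
      (((SY2 : ℤ) + Yi * Yj) * SZA - (((zi : ℤ) * Yj - zj * SY) * SY) * a) * Hi +
      (((SY2 : ℤ) + Yi * Yj) * SZA - (((zi : ℤ) * SY + zj * Yi) * SY) * b) * Hj := by
  simp only [chkSame, Bool.and_eq_true, Nat.ble_eq, Nat.blt_eq, Nat.mul_eq, Nat.add_eq, Nat.sub_eq] at h
  obtain ⟨⟨hA, hB⟩, ⟨hF, hE⟩, hfin⟩ := h
  set C : ℕ := (SY2 + Yi * Yj) * SZA with hC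
  set P1 : ℕ := zi * Yj with hP1
  set P2 : ℕ := zj * SY with hP2
  set Fn : ℕ := (zi * SY + zj * Yi) * SY with hFn
  have hCz : ((SY2 : ℤ) + Yi * Yj) * SZA = (C : ℤ) := by rw [hC]; push_cast; ring
  have hFz : ((zi : ℤ) * SY + zj * Yi) * SY = (Fn : ℤ) := by rw [hFn]; push_cast; ring
  have hEz : ((zi : ℤ) * Yj - zj * SY) * SY = ((P1 : ℤ) - P2) * SY := by rw [hP1, hP2]; push_cast; ring
  rw [hCz, hFz, hEz]
  have hBz : ((C - Fn * mxj : ℕ) : ℤ) = (C : ℤ) - Fn * mxj := by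
    rw [Nat.cast_sub hF]; push_cast; ring
  have hFnn : (0 : ℤ) ≤ Fn := by positivity
  have hBlow : (C : ℤ) - Fn * mxj ≤ (C : ℤ) - Fn * b := by
    have := mul_le_mul_of_nonneg_left hb1 hFnn
    linarith
  generalize hAdef : (bif Nat.ble P2 P1 then C - (P1 - P2) * SY * mxi else C + (P2 - P1) * SY * mni) = A at hA hfin
  have hAlow : (A : ℤ) ≤ (C : ℤ) - ((P1 : ℤ) - P2) * SY * a := by
    by_cases hc : P2 ≤ P1
    · have hcond : Nat.ble P2 P1 = true := Nat.ble_eq_true_of_le hc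
      rw [hcond] at hAdef hE
      simp only [cond_true, Nat.ble_eq] at hAdef hE
      have hEnn : (0 : ℤ) ≤ ((P1 : ℤ) - P2) * SY := by
        have : (P2 : ℤ) ≤ P1 := by exact_mod_cast hc
        have h3 : (0 : ℤ) ≤ (P1 : ℤ) - P2 := by linarith
        positivity
      have hAz : (A : ℤ) = (C : ℤ) - ((P1 : ℤ) - P2) * SY * mxi := by
        rw [← hAdef, Nat.cast_sub hE]; push_cast [Nat.cast_sub hc]; ring
      have := mul_le_mul_of_nonneg_left ha1 hEnn
      linarith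
    · have hc' : P1 ≤ P2 := by omega
      have hcond : Nat.ble P2 P1 = false := by
        rw [← Bool.not_eq_true, Nat.ble_eq]; exact hc
      rw [hcond] at hAdef
      simp only [cond_false] at hAdef
      have hEnn : (0 : ℤ) ≤ ((P2 : ℤ) - P1) * SY := by
        have : (P1 : ℤ) ≤ P2 := by exact_mod_cast hc'
        have h3 : (0 : ℤ) ≤ (P2 : ℤ) - P1 := by linarith
        positivity
      have hAz : (A : ℤ) = (C : ℤ) + ((P2 : ℤ) - P1) * SY * mni := by
        rw [← hAdef]; push_cast [Nat.cast_sub hc']; ring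
      have := mul_le_mul_of_nonneg_left ha0 hEnn
      nlinarith
  have hApos : (0 : ℤ) < A := by exact_mod_cast hA
  have hBpos : (0 : ℤ) < (C : ℤ) - Fn * mxj := by
    rw [← hBz]; exact_mod_cast hB
  refine ⟨by linarith, by linarith, ?_⟩
  have hf : (C : ℤ) * SH ≤ (A : ℤ) * Hi + ((C - Fn * mxj : ℕ) : ℤ) * Hj := by
    exact_mod_cast hfin
  rw [hBz] at hf
  have hHi : (0 : ℤ) ≤ Hi := by positivity
  have hHj : (0 : ℤ) ≤ Hj := by positivity
  have h1 := mul_le_mul_of_nonneg_right hAlow hHi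
  have h2 := mul_le_mul_of_nonneg_right hBlow hHj
  linarith

/-- the sign of a wedge -/
def sgn (w : Wd) : ℤ := cond w.sg 1 (-1)

/-- the signed value of `wz` in scale `6400` -/
def Zi (w : Wd) : ℤ := sgn w * w.z

/-- the value of `tau` on the left in scale `160` -/
def T0 (w : Wd) : ℤ := sgn w * (cond w.sg w.mn w.mx : ℕ)

/-- the value of `tau` on the right in scale `160` -/
def T1 (w : Wd) : ℤ := sgn w * (cond w.sg w.mx w.mn : ℕ)

theorem chk_spec (a b : Wd) (h : chk a b = true) (ta tb : ℤ)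
    (ha0 : (a.mn : ℤ) ≤ ta) (ha1 : ta ≤ a.mx) (hb0 : (b.mn : ℤ) ≤ tb) (hb1 : tb ≤ b.mx) :
    0 < ((262144000000 : ℤ) + a.Y * b.Y) * 1024000 -
        ((Zi a * b.Y - Zi b * 512000) * 512000) * (sgn a * ta) ∧
    0 < ((262144000000 : ℤ) + a.Y * b.Y) * 1024000 -
        ((Zi a * 512000 + Zi b * a.Y) * 512000) * (sgn b * tb) ∧
    (((262144000000 : ℤ) + a.Y * b.Y) * 1024000) * 1000000000 ≤
      (((262144000000 : ℤ) + a.Y * b.Y) * 1024000 -
        ((Zi a * b.Y - Zi b * 512000) * 512000) * (sgn a * ta)) * a.H +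
      (((262144000000 : ℤ) + a.Y * b.Y) * 1024000 -
        ((Zi a * 512000 + Zi b * a.Y) * 512000) * (sgn b * tb)) * b.H := by
  rcases a with ⟨sa, mna, mxa, Ya, za, Ha, Sa⟩
  rcases b with ⟨sb, mnb, mxb, Yb, zb, Hb, Sb⟩
  simp only at ha0 ha1 hb0 hb1 ⊢
  cases sa <;> cases sb <;> simp only [chk, Bool.xor, cond_true, cond_false] at h <;>
    simp only [Zi, sgn, cond_true, cond_false]
  · obtain ⟨h1, h2, h3⟩ := chkSame_spec _ _ _ _ _ _ _ _ _ _ _ _ _ h ta tb ha0 ha1 hb1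
    push_cast at h1 h2 h3
    refine ⟨by linear_combination h1, by linear_combination h2, by linear_combination h3⟩
  · obtain ⟨h1, h2, h3⟩ := chkSame_spec _ _ _ _ _ _ _ _ _ _ _ _ _ h tb ta hb0 hb1 ha1
    push_cast at h1 h2 h3
    refine ⟨by linear_combination h2, by linear_combination h1, by linear_combination h3⟩
  · obtain ⟨h1, h2, h3⟩ := chkSame_spec _ _ _ _ _ _ _ _ _ _ _ _ _ h tb ta hb0 hb1 ha1
    push_cast at h1 h2 h3
    refine ⟨by linear_combination h2, by linear_combination h1, by linear_combination h3⟩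
  · obtain ⟨h1, h2, h3⟩ := chkSame_spec _ _ _ _ _ _ _ _ _ _ _ _ _ h ta tb ha0 ha1 hb1
    push_cast at h1 h2 h3
    refine ⟨by linear_combination h1, by linear_combination h2, by linear_combination h3⟩

end Crest.Agent.CylData
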