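import Mathlib

/-!
# Helper lemmas for S0328 (radial sweep covers of a fan)

Blueprint.  Write `d = e + w c`, `P y = y - (⟪y,d⟫/‖d‖²) d`.  For a point
`x = p₀ + ρ (a + τ b) + s (e + w τ)` one has `w τ = w c + I₁ a + J b`, hence
`x = y + s d` with `y = p₀ + (ρ + s I₁) a + (ρ τ + s J) b`.  The pair
`(ρ + s I₁, ρ τ + s J)` lies in an explicit triangle with apex `-g (1, c)`,
and slopes `θ₁ = t_i - ν δ_i`, `θ₂ = t_{i+1} + ν δ_i`.
-/

set_option autoImplicit false
open MeasureTheory
open scoped ENNReal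

namespace Crest.Agent.CylFan

abbrev E3 := EuclideanSpace ℝ (Fin 3)

/-- Gram determinant of two vectors. -/
noncomputable def gram (u v : E3) : ℝ := ‖u‖ ^ 2 * ‖v‖ ^ 2 - (inner ℝ u v) ^ 2

/-- Projection along `d`, in the form that appears in the statement. -/
noncomputable def proj (d y : E3) : E3 := y - (inner ℝ y d / ‖d‖ ^ 2) • d

lemma proj_add (d x y : E3) : proj d (x + y) = proj d x + proj d y := by
  unfold proj
  rw [inner_add_left, add_div, add_smul]
  abel

lemma proj_smul (d x : E3) (c : ℝ) : proj d (c • x) = c • proj d x := by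
  unfold proj
  rw [inner_smul_left, smul_sub, smul_smul]
  simp only [conj_trivial]
  congr 2
  ring

lemma proj_sub (d x y : E3) : proj d (x - y) = proj d x - proj d y := by
  have h : x - y = x + (-1 : ℝ) • y := by simp [sub_eq_add_neg]
  rw [h, proj_add, proj_smul]
  simp [sub_eq_add_neg]

lemma proj_self (d : E3) (hd : d ≠ 0) : proj d d = 0 := by
  unfold proj
  rw [real_inner_self_eq_norm_sq, div_self (by positivity), one_smul, sub_self]

lemma inner_proj (d y : E3) (hd : d ≠ 0) : inner ℝ (proj d y) d = 0 := by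
  unfold proj
  rw [inner_sub_left, inner_smul_left, real_inner_self_eq_norm_sq]
  simp only [conj_trivial]
  have : ‖d‖ ≠ 0 := norm_ne_zero_iff.mpr hd
  field_simp
  ring

lemma inner_proj_proj (d x y : E3) (hd : d ≠ 0) :
    inner ℝ (proj d x) (proj d y) = inner ℝ x y - inner ℝ x d * inner ℝ y d / ‖d‖ ^ 2 := by
  unfold proj
  have hn : ‖d‖ ^ 2 ≠ 0 := by
    have : ‖d‖ ≠ 0 := norm_ne_zero_iff.mpr hd
    positivity
  rw [inner_sub_left, inner_sub_right, inner_sub_right, inner_smul_left, inner_smul_left,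
    inner_smul_right, inner_smul_right, real_inner_self_eq_norm_sq]
  simp only [conj_trivial]
  rw [real_inner_comm y d]
  field_simp
  ring

/-- The Gram determinant of the projections of two vectors of the plane spanned by `a, b`. -/
lemma gram_proj (e a b w : E3) (α β x₁ y₁ x₂ y₂ : ℝ)
    (he : ‖e‖ = 1) (hae : inner ℝ a e = 0) (hbe : inner ℝ b e = 0)
    (hw : w = α • a + β • b) :
    gram (proj (e + w) (x₁ • a + y₁ • b)) (proj (e + w) (x₂ • a + y₂ • b)) =
      ((x₁ * y₂ - x₂ * y₁) ^ 2 * gram a b) / (1 + ‖w‖ ^ 2) := by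
  set A := inner ℝ a a with hA
  set B := inner ℝ a b with hB
  set C := inner ℝ b b with hC
  have hea : inner ℝ e a = 0 := by rw [real_inner_comm]; exact hae
  have heb : inner ℝ e b = 0 := by rw [real_inner_comm]; exact hbe
  have hba : inner ℝ b a = B := by rw [real_inner_comm]
  have hee : inner ℝ e e = 1 := by rw [real_inner_self_eq_norm_sq, he]; norm_num
  have hwe : inner ℝ w e = 0 := by
    rw [hw, inner_add_left, inner_smul_left, inner_smul_left, hae, hbe]; simp
  have hww : ‖w‖ ^ 2 = α ^ 2 * A + 2 * α * β * B + β ^ 2 * C := by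
    rw [← real_inner_self_eq_norm_sq, hw]
    simp only [inner_add_left, inner_add_right, inner_smul_left, inner_smul_right, conj_trivial,
      ← hA, ← hB, ← hC, hba]
    ring
  have hd : ‖e + w‖ ^ 2 = 1 + ‖w‖ ^ 2 := by
    rw [← real_inner_self_eq_norm_sq, inner_add_left, inner_add_right, inner_add_right, hee, hwe,
      real_inner_self_eq_norm_sq, real_inner_comm]
    simp [hwe]
  have hD : (0 : ℝ) < 1 + ‖w‖ ^ 2 := by positivity
  have hdne : e + w ≠ 0 := by
    intro h
    rw [h] at hd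
    simp at hd
    nlinarith [sq_nonneg ‖w‖]
  have hud : ∀ x y : ℝ, inner ℝ (x • a + y • b) (e + w) =
      x * (α * A + β * B) + y * (α * B + β * C) := by
    intro x y
    rw [hw]
    simp only [inner_add_left, inner_add_right, inner_smul_left, inner_smul_right, conj_trivial,
      hae, hbe, ← hA, ← hB, ← hC, hba]
    ring
  have huv : ∀ x y x' y' : ℝ, inner ℝ (x • a + y • b) (x' • a + y' • b) =
      x * x' * A + (x * y' + x' * y) * B + y * y' * C := by
    intro x y x' y'
    simp only [inner_add_left, inner_add_right, inner_smul_left, inner_smul_right, conj_trivial,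
      ← hA, ← hB, ← hC, hba]
    ring
  unfold gram
  rw [← real_inner_self_eq_norm_sq, ← real_inner_self_eq_norm_sq, inner_proj_proj _ _ _ hdne,
    inner_proj_proj _ _ _ hdne, inner_proj_proj _ _ _ hdne, hud, hud, huv, huv, huv, hd, hww]
  rw [← real_inner_self_eq_norm_sq a, ← real_inner_self_eq_norm_sq b, ← hA, ← hB, ← hC]
  rw [← hww] 
  have hww' : (1 + ‖w‖ ^ 2) ≠ 0 := hD.ne'
  field_simp
  rw [hww]
  ring


lemma gram_pos_of_li (a b : E3) (hab : LinearIndependent ℝ ![a, b]) : 0 < gram a b := by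
  rw [LinearIndependent.pair_iff] at hab
  have ha : a ≠ 0 := by
    intro h
    have := hab 1 0 (by simp [h])
    simp at this
  have han : 0 < ‖a‖ := norm_pos_iff.mpr ha
  set c := inner ℝ a b / ‖a‖ ^ 2 with hc
  have hv : b - c • a ≠ 0 := by
    intro h
    have := hab (-c) 1 (by rw [← h]; simp [sub_eq_add_neg, add_comm])
    simp at this
  have hvn : 0 < ‖b - c • a‖ := norm_pos_iff.mpr hv
  have key : ‖b - c • a‖ ^ 2 = ‖b‖ ^ 2 - (inner ℝ a b) ^ 2 / ‖a‖ ^ 2 := by
    rw [← real_inner_self_eq_norm_sq, inner_sub_left, inner_sub_right, inner_sub_right,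
      inner_smul_left, inner_smul_left, inner_smul_right, inner_smul_right,
      real_inner_self_eq_norm_sq, real_inner_self_eq_norm_sq, real_inner_comm a b, hc]
    simp only [conj_trivial]
    field_simp
    ring
  have : gram a b = ‖a‖ ^ 2 * ‖b - c • a‖ ^ 2 := by
    rw [key]; unfold gram; field_simp
  rw [this]
  positivity

lemma exists_coords (e a b w : E3) (he : ‖e‖ = 1) (hae : inner ℝ a e = 0) (hbe : inner ℝ b e = 0)
    (hab : LinearIndependent ℝ ![a, b]) (hwe : inner ℝ w e = 0) :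
    ∃ α β : ℝ, w = α • a + β • b := by
  have hspan : ∀ y ∈ Submodule.span ℝ (Set.range ![a, b]), inner ℝ y e = 0 := by
    intro y hy
    induction hy using Submodule.span_induction with
    | mem x hx =>
      rcases hx with ⟨i, rfl⟩
      fin_cases i
      · simpa using hae
      · simpa using hbe
    | zero => simp
    | add x y _ _ hx hy => rw [inner_add_left, hx, hy, add_zero]
    | smul t x _ hx => rw [inner_smul_left, hx]; simp
  have hee : inner ℝ e e = 1 := by rw [real_inner_self_eq_norm_sq, he]; norm_num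
  have hli : LinearIndependent ℝ (Fin.cons e ![a, b] : Fin 3 → E3) := by
    apply LinearIndependent.finCons' e ![a, b] hab
    intro c y hy hc
    have h1 : inner ℝ (c • e + y) e = 0 := by rw [hc]; simp
    rw [inner_add_left, inner_smul_left, hee, hspan y hy] at h1
    simpa using h1
  have hcard : Fintype.card (Fin 3) = Module.finrank ℝ E3 := by simp
  have htop := hli.span_eq_top_of_card_eq_finrank' hcard
  have hw : w ∈ Submodule.span ℝ (Set.range (Fin.cons e ![a, b] : Fin 3 → E3)) := by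
    rw [htop]; trivial
  rw [Submodule.mem_span_range_iff_exists_fun] at hw
  obtain ⟨c, hc⟩ := hw
  rw [Fin.sum_univ_three] at hc
  simp only [Fin.isValue, Fin.cons_zero, Fin.cons_one] at hc
  have h2 : (Fin.cons e ![a, b] : Fin 3 → E3) 2 = b := rfl
  rw [h2] at hc
  have h1' : (![a, b] : Fin 2 → E3) 0 = a := rfl
  rw [h1'] at hc
  have hc0 : c 0 = 0 := by
    have := congrArg (fun z => inner ℝ z e) hc
    simp only [inner_add_left, inner_smul_left, hee, hae, hbe, hwe] at this
    simpa using this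
  refine ⟨c 1, c 2, ?_⟩
  rw [← hc, hc0]
  simp

lemma mem_convexHull3 {A B C : E3} {w0 w1 w2 : ℝ} (h0 : 0 ≤ w0) (h1 : 0 ≤ w1) (h2 : 0 ≤ w2)
    (hs : w0 + w1 + w2 = 1) :
    w0 • A + w1 • B + w2 • C ∈ convexHull ℝ ({A, B, C} : Set E3) := by
  have hc := convex_convexHull ℝ ({A, B, C} : Set E3)
  have := hc.sum_mem (t := Finset.univ) (w := ![w0, w1, w2]) (z := ![A, B, C])
    (by intro i _; fin_cases i <;> simpa)
    (by simpa [Fin.sum_univ_three] using hs)
    (by
      intro i _
      apply subset_convexHull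
      fin_cases i <;> simp)
  simpa [Fin.sum_univ_three] using this

lemma exists_weights_of_mem_convexHull3 {A B C x : E3}
    (hx : x ∈ convexHull ℝ ({A, B, C} : Set E3)) :
    ∃ w0 w1 w2 : ℝ, 0 ≤ w0 ∧ 0 ≤ w1 ∧ 0 ≤ w2 ∧ w0 + w1 + w2 = 1 ∧
      x = w0 • A + w1 • B + w2 • C := by
  rw [convexHull_insert (by simp), convexHull_pair, mem_convexJoin] at hx
  obtain ⟨y, hy, z, hz, hx⟩ := hx
  simp only [Set.mem_singleton_iff] at hy
  subst hy
  obtain ⟨u, v, hu, hv, huv, rfl⟩ := hz
  obtain ⟨m, n, hm, hn, hmn, rfl⟩ := hx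
  refine ⟨m, n * u, n * v, hm, by positivity, by positivity, ?_, ?_⟩
  · have : n * u + n * v = n := by rw [← mul_add, huv, mul_one]
    linarith
  · simp only [smul_add, smul_smul]
    abel

/-- `w τ - w c` as an explicit combination of `a` and `b`. -/
lemma w_diff (a b : E3) (w : ℝ → E3) (lam : ℝ → ℝ) (α β : ℝ)
    (hlam : ContinuousOn lam (Set.Icc α β))
    (hw' : ∀ t ∈ Set.Icc α β, HasDerivWithinAt w (lam t • (a + t • b)) (Set.Icc α β) t)
    (c τ : ℝ) (hc : c ∈ Set.Icc α β) (hτ : τ ∈ Set.Icc α β) :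
    w τ - w c = (∫ u in c..τ, lam u) • a + (∫ u in c..τ, u * lam u) • b := by
  have hsub : Set.uIcc c τ ⊆ Set.Icc α β := by
    apply Set.uIcc_subset_Icc hc hτ
  have hcontw0 : ContinuousOn w (Set.Icc α β) := fun t ht => (hw' t ht).continuousWithinAt
  have hcontw : ContinuousOn w (Set.uIcc c τ) := hcontw0.mono hsub
  have hl : ContinuousOn lam (Set.uIcc c τ) := hlam.mono hsub
  have hl2 : ContinuousOn (fun u => u * lam u) (Set.uIcc c τ) := continuousOn_id.mul hl
  have hderiv : ∀ x ∈ Set.Ioo (min c τ) (max c τ),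
      HasDerivWithinAt w (lam x • (a + x • b)) (Set.Ioi x) x := by
    intro x hx
    have hx' : x ∈ Set.Ioo α β := by
      constructor
      · exact lt_of_le_of_lt (le_min hc.1 hτ.1) hx.1
      · exact lt_of_lt_of_le hx.2 (max_le hc.2 hτ.2)
    have := (hw' x (Set.Ioo_subset_Icc_self hx')).hasDerivAt (Icc_mem_nhds hx'.1 hx'.2)
    exact this.hasDerivWithinAt
  have hint1 : IntervalIntegrable (fun u => lam u • a) volume c τ :=
    (hl.smul continuousOn_const).intervalIntegrable
  have hint2 : IntervalIntegrable (fun u => (u * lam u) • b) volume c τ :=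
    (hl2.smul continuousOn_const).intervalIntegrable
  have hf : (fun u => lam u • (a + u • b)) = fun u => lam u • a + (u * lam u) • b := by
    funext u
    rw [smul_add, smul_smul, mul_comm]
  have hint : IntervalIntegrable (fun u => lam u • (a + u • b)) volume c τ := by
    rw [hf]
    exact hint1.add hint2
  have := intervalIntegral.integral_eq_sub_of_hasDeriv_right hcontw hderiv hint
  rw [← this, hf, intervalIntegral.integral_add hint1 hint2,
    intervalIntegral.integral_smul_const, intervalIntegral.integral_smul_const]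

lemma abs_integral_lam_le (lam : ℝ → ℝ) (α β Λ : ℝ)
    (hb : ∀ u ∈ Set.Icc α β, |lam u| ≤ Λ)
    (c τ : ℝ) (hc : c ∈ Set.Icc α β) (hτ : τ ∈ Set.Icc α β) :
    |∫ u in c..τ, lam u| ≤ Λ * |τ - c| := by
  have hsub : Set.uIoc c τ ⊆ Set.Icc α β := fun x hx =>
    Set.uIcc_subset_Icc hc hτ (Set.uIoc_subset_uIcc hx)
  have := intervalIntegral.norm_integral_le_of_norm_le_const (f := lam) (a := c) (b := τ) (C := Λ)
    (fun x hx => by simpa using hb x (hsub hx))
  simpa using this

lemma abs_K_le (lam : ℝ → ℝ) (α β Λ : ℝ)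
    (hlam : ContinuousOn lam (Set.Icc α β))
    (hb : ∀ u ∈ Set.Icc α β, |lam u| ≤ Λ)
    (c τ : ℝ) (hc : c ∈ Set.Icc α β) (hτ : τ ∈ Set.Icc α β) :
    |(∫ u in c..τ, u * lam u) - c * ∫ u in c..τ, lam u| ≤ Λ * |τ - c| ^ 2 := by
  have hsub0 : Set.uIcc c τ ⊆ Set.Icc α β := Set.uIcc_subset_Icc hc hτ
  have hl : ContinuousOn lam (Set.uIcc c τ) := hlam.mono hsub0
  have hl2 : ContinuousOn (fun u => u * lam u) (Set.uIcc c τ) := continuousOn_id.mul hl
  have heq : (∫ u in c..τ, u * lam u) - c * ∫ u in c..τ, lam u = ∫ u in c..τ, (u - c) * lam u := by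
    have hl3 : ContinuousOn (fun u => c * lam u) (Set.uIcc c τ) := continuousOn_const.mul hl
    rw [← intervalIntegral.integral_const_mul, ← intervalIntegral.integral_sub hl2.intervalIntegrable
      hl3.intervalIntegrable]
    congr 1
    funext u
    ring
  rw [heq]
  have hsub : Set.uIoc c τ ⊆ Set.uIcc c τ := Set.uIoc_subset_uIcc
  have hΛ : 0 ≤ Λ := le_trans (abs_nonneg _) (hb c hc)
  have := intervalIntegral.norm_integral_le_of_norm_le_const
    (f := fun u => (u - c) * lam u) (a := c) (b := τ) (C := Λ * |τ - c|) (by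
    intro x hx
    have hx1 := hb x (hsub0 (hsub hx))
    have hx2 : |x - c| ≤ |τ - c| := by
      have := hsub hx
      rw [Set.mem_uIcc] at this
      rcases this with ⟨h1, h2⟩ | ⟨h1, h2⟩
      · rw [abs_of_nonneg (by linarith), abs_of_nonneg (by linarith)]; linarith
      · rw [abs_of_nonpos (by linarith), abs_of_nonpos (by linarith)]; linarith
    simp only [Real.norm_eq_abs, abs_mul]
    calc |x - c| * |lam x| ≤ |τ - c| * Λ := mul_le_mul hx2 hx1 (abs_nonneg _) (abs_nonneg _)
      _ = Λ * |τ - c| := mul_comm _ _)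
  simp only [Real.norm_eq_abs] at this
  calc _ ≤ Λ * |τ - c| * |τ - c| := this
    _ = _ := by ring

/-- The main numerical step of the cover. -/
lemma cover_core (ρ τ c tl tr s I1 K L Λ ν r : ℝ) (htl : tl < tr)
    (hτ1 : tl ≤ τ) (hτ2 : τ ≤ tr) (hc1 : tl ≤ c) (hc2 : c ≤ tr) (hρ : 0 ≤ ρ)
    (hs : |s| ≤ L) (hI : |I1| ≤ Λ * (tr - tl)) (hK : |K| ≤ Λ * (tr - tl) ^ 2)
    (hν0 : 0 < ν) (hν1 : ν ≤ 1) (hL : 0 < L) (hΛ : 0 < Λ) (hr : ρ + s * I1 ≤ r) :
    ∃ w1 w2 : ℝ, 0 ≤ w1 ∧ 0 ≤ w2 ∧ w1 + w2 ≤ 1 ∧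
      ρ + s * I1 = -(2 * L * Λ * (tr - tl) / ν) + (r + 2 * L * Λ * (tr - tl) / ν) * (w1 + w2) ∧
      ρ * τ + s * (K + c * I1) = -(2 * L * Λ * (tr - tl) / ν) * c +
        (r + 2 * L * Λ * (tr - tl) / ν) *
          (w1 * (tl - ν * (tr - tl)) + w2 * (tr + ν * (tr - tl))) := by
  set δ := tr - tl with hδ
  have hδ0 : 0 < δ := by rw [hδ]; linarith
  set g := 2 * L * Λ * δ / ν with hg
  have hg0 : 0 < g := by positivity
  have hgν : g * ν = 2 * L * Λ * δ := by rw [hg]; field_simp
  have hsI : |s * I1| ≤ L * (Λ * δ) := by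
    rw [abs_mul]; exact mul_le_mul hs hI (abs_nonneg _) hL.le
  have hsK : |s * K| ≤ L * (Λ * δ ^ 2) := by
    rw [abs_mul]; exact mul_le_mul hs hK (abs_nonneg _) hL.le
  have hg2 : L * (Λ * δ) ≤ g / 2 := by
    have : g * ν ≤ g := by nlinarith
    nlinarith
  set X := ρ + s * I1 + g with hX
  have hsI' := abs_le.mp hsI
  have hXlow : ρ + g / 2 ≤ X := by rw [hX]; linarith [hsI'.1]
  have hX0 : 0 < X := by linarith
  have hXρ : ρ ≤ X := by linarith
  have hXup : X ≤ r + g := by rw [hX]; linarith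
  have hrg : 0 < r + g := by linarith
  have hνδX : L * (Λ * δ ^ 2) ≤ ν * δ * X := by
    have : ν * δ * (g / 2) ≤ ν * δ * X := by
      apply mul_le_mul_of_nonneg_left (by linarith) (by positivity)
    have h3 : ν * δ * (g / 2) = L * (Λ * δ ^ 2) := by
      have : ν * δ * (g / 2) = (g * ν) * δ / 2 := by ring
      rw [this, hgν]; ring
    linarith
  have hsK' := abs_le.mp hsK
  set θ := c + (ρ * (τ - c) + s * K) / X with hθ
  have hθX : (θ - c) * X = ρ * (τ - c) + s * K := by
    rw [hθ]; field_simp; ring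
  have h1 : ρ * (τ - c) ≥ X * (tl - c) := by nlinarith
  have h2 : ρ * (τ - c) ≤ X * (tr - c) := by nlinarith
  have hθ1 : tl - ν * δ ≤ θ := by
    have : (tl - ν * δ - c) * X ≤ (θ - c) * X := by rw [hθX]; nlinarith [hsK'.1]
    have := le_of_mul_le_mul_right this hX0
    linarith
  have hθ2 : θ ≤ tr + ν * δ := by
    have : (θ - c) * X ≤ (tr + ν * δ - c) * X := by rw [hθX]; nlinarith [hsK'.2]
    have := le_of_mul_le_mul_right this hX0
    linarith
  set θ₁ := tl - ν * δ with hθ₁
  set θ₂ := tr + ν * δ with hθ₂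
  have hθ12 : 0 < θ₂ - θ₁ := by
    rw [hθ₁, hθ₂]
    have : tr - tl = δ := rfl
    nlinarith
  set ξ := X / (r + g) with hξ
  set μ := (θ - θ₁) / (θ₂ - θ₁) with hμ
  have hξ0 : 0 < ξ := by positivity
  have hξ1 : ξ ≤ 1 := by rw [hξ, div_le_one hrg]; exact hXup
  have hμ0 : 0 ≤ μ := by
    apply div_nonneg <;> linarith
  have hμ1 : μ ≤ 1 := by
    rw [hμ, div_le_one hθ12]; linarith
  have hξX : (r + g) * ξ = X := by rw [hξ]; field_simp
  have hμθ : (1 - μ) * θ₁ + μ * θ₂ = θ := by
    rw [hμ]; field_simp; ring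
  refine ⟨ξ * (1 - μ), ξ * μ, by nlinarith, by positivity, by nlinarith, ?_, ?_⟩
  · have : ξ * (1 - μ) + ξ * μ = ξ := by ring
    rw [this, hξX, hX]; ring
  · have : ξ * (1 - μ) * θ₁ + ξ * μ * θ₂ = ξ * ((1 - μ) * θ₁ + μ * θ₂) := by ring
    rw [this, hμθ, ← mul_assoc, hξX]
    have : X * θ = c * X + (θ - c) * X := by ring
    rw [this, hθX, hX]
    ring

end Crest.Agent.CylFan
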