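import Crest.Agent.Lib.CylFan

/-!
# S0328: interval-level lemmas
-/

set_option autoImplicit false
open MeasureTheory
open scoped ENNReal

namespace Crest.Agent.CylFan

lemma sum_tele (N : ℕ) (f : Fin (N + 1) → ℝ) :
    ∑ i : Fin N, (f i.succ - f i.castSucc) = f (Fin.last N) - f 0 := by
  induction N with
  | zero => simp
  | succ M ih =>
    rw [Fin.sum_univ_castSucc]
    have := ih (fun j => f j.castSucc)
    simp only [Fin.succ_castSucc]
    rw [this, Fin.succ_last, Fin.castSucc_zero]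
    ring

lemma exists_interval (N : ℕ) (t : Fin (N + 1) → ℝ) (τ : ℝ) (hN : t 0 < t (Fin.last N))
    (h0 : t 0 ≤ τ) (h1 : τ ≤ t (Fin.last N)) :
    ∃ i : Fin N, t i.castSucc ≤ τ ∧ τ ≤ t i.succ := by
  induction N with
  | zero => simp at hN
  | succ M ih =>
    by_cases hτ : τ ≤ t (Fin.last M).castSucc
    · by_cases hM : t 0 < t (Fin.last M).castSucc
      · obtain ⟨i, hi1, hi2⟩ := ih (fun j => t j.castSucc) hM h0 hτ
        refine ⟨i.castSucc, hi1, ?_⟩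
        rw [Fin.succ_castSucc]
        exact hi2
      · have hle : t (Fin.last M).castSucc ≤ t 0 := not_lt.mp hM
        exact ⟨Fin.last M, hle.trans h0, by rw [Fin.succ_last]; exact h1⟩
    · exact ⟨Fin.last M, (not_le.mp hτ).le, by rw [Fin.succ_last]; exact h1⟩

lemma riemann_bound (F : ℝ → ℝ) (α β : ℝ) (hF : ContinuousOn F (Set.Icc α β)) (N : ℕ)
    (t : Fin (N + 1) → ℝ) (c : Fin N → ℝ) (ht : StrictMono t) (h0 : t 0 = α)
    (hN : t (Fin.last N) = β) (hc : ∀ i : Fin N, t i.castSucc ≤ c i ∧ c i ≤ t i.succ) (ε : ℝ)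
    (h : ∀ i : Fin N, ∀ τ ∈ Set.Icc (t i.castSucc) (t i.succ), |F τ - F (c i)| ≤ ε) :
    |∑ i : Fin N, F (c i) * (t i.succ - t i.castSucc) - ∫ x in α..β, F x| ≤ ε * (β - α) := by
  have hmem : ∀ j, t j ∈ Set.Icc α β := fun j =>
    ⟨by rw [← h0]; exact ht.monotone (Fin.zero_le j), by rw [← hN]; exact ht.monotone (Fin.le_last j)⟩
  have hint : ∀ x y, x ∈ Set.Icc α β → y ∈ Set.Icc α β → IntervalIntegrable F volume x y := by
    intro x y hx hy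
    exact (hF.mono (Set.uIcc_subset_Icc hx hy)).intervalIntegrable
  have htot : ∫ x in α..β, F x =
      ∑ i : Fin N, ∫ x in (t i.castSucc)..(t i.succ), F x := by
    have hαmem : α ∈ Set.Icc α β := ⟨le_rfl, by have := (hmem 0).2; rwa [h0] at this⟩
    have hg : ∀ i : Fin N, ∫ x in (t i.castSucc)..(t i.succ), F x =
        (fun j => ∫ x in α..(t j), F x) i.succ - (fun j => ∫ x in α..(t j), F x) i.castSucc := by
      intro i
      simp only
      rw [intervalIntegral.integral_interval_sub_left (hint _ _ hαmem (hmem _))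
        (hint _ _ hαmem (hmem _))]
    rw [Finset.sum_congr rfl (fun i _ => hg i), sum_tele N (fun j => ∫ x in α..(t j), F x)]
    rw [h0, hN, intervalIntegral.integral_same, sub_zero]
  have hsum : ∑ i : Fin N, (t i.succ - t i.castSucc) = β - α := by
    rw [sum_tele, h0, hN]
  rw [htot, ← Finset.sum_sub_distrib, ← hsum, Finset.mul_sum]
  refine (Finset.abs_sum_le_sum_abs _ _).trans (Finset.sum_le_sum ?_)
  intro i _
  have hle : t i.castSucc ≤ t i.succ := ht.monotone (Fin.castSucc_lt_succ).le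
  have hconst : F (c i) * (t i.succ - t i.castSucc) =
      ∫ _x in (t i.castSucc)..(t i.succ), F (c i) := by
    rw [intervalIntegral.integral_const, smul_eq_mul, mul_comm]
  rw [hconst, ← intervalIntegral.integral_sub (by simp) (hint _ _ (hmem _) (hmem _))]
  have := intervalIntegral.norm_integral_le_of_norm_le_const
    (f := fun x => F (c i) - F x) (a := t i.castSucc) (b := t i.succ) (C := ε) (by
      intro x hx
      rw [Set.uIoc_of_le hle] at hx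
      have := h i x ⟨hx.1.le, hx.2⟩
      simpa [abs_sub_comm] using this)
  simpa [abs_of_nonneg (sub_nonneg.mpr hle)] using this

lemma affineIndependent_of_gram_pos (p q r : E3) (h : 0 < gram (q - p) (r - p)) :
    AffineIndependent ℝ ![p, q, r] := by
  rw [affineIndependent_iff_not_collinear_set]
  intro hcol
  rw [collinear_iff_of_mem (p₀ := p) (by simp)] at hcol
  obtain ⟨v, hv⟩ := hcol
  obtain ⟨c₁, h₁⟩ := hv q (by simp)
  obtain ⟨c₂, h₂⟩ := hv r (by simp)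
  have hq : q - p = c₁ • v := by rw [h₁]; simp
  have hr : r - p = c₂ • v := by rw [h₂]; simp
  rw [hq, hr] at h
  unfold gram at h
  rw [norm_smul, norm_smul, inner_smul_left, inner_smul_right, real_inner_self_eq_norm_sq] at h
  simp only [Real.norm_eq_abs, conj_trivial] at h
  have h3 : (|c₁| * ‖v‖) ^ 2 * (|c₂| * ‖v‖) ^ 2 - (c₁ * (c₂ * ‖v‖ ^ 2)) ^ 2 = 0 := by
    rw [mul_pow, mul_pow, sq_abs, sq_abs]
    ring
  linarith

/-- Vertices of the enlarged triangle, before projection.  -/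
noncomputable def apex (p₀ a b : E3) (g c : ℝ) : E3 := p₀ - g • (a + c • b)

/-- The point of the fan lies (after projection) in the projected triangle. -/
lemma fan_point_mem (e a b p₀ : E3) (w : ℝ → E3) (lam : ℝ → ℝ) (α β Λ L ν r c tl tr τ ρ s : ℝ)
    (hlam : ContinuousOn lam (Set.Icc α β))
    (hw' : ∀ t ∈ Set.Icc α β, HasDerivWithinAt w (lam t • (a + t • b)) (Set.Icc α β) t)
    (hb : ∀ u ∈ Set.Icc α β, |lam u| ≤ Λ)
    (hd : e + w c ≠ 0)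
    (hΛ : 0 < Λ) (hL : 0 < L) (hν0 : 0 < ν) (hν1 : ν ≤ 1)
    (hα : α ≤ tl) (hlt : tl < tr) (hβ : tr ≤ β) (hc1 : tl ≤ c) (hc2 : c ≤ tr)
    (hτ1 : tl ≤ τ) (hτ2 : τ ≤ tr) (hρ : 0 ≤ ρ) (hs : |s| ≤ L)
    (hr : ρ + L * (Λ * (tr - tl)) ≤ r) :
    proj (e + w c) (p₀ + ρ • (a + τ • b) + s • (e + w τ)) ∈
      convexHull ℝ ({proj (e + w c) (apex p₀ a b (2 * L * Λ * (tr - tl) / ν) c),
        proj (e + w c) (apex p₀ a b (2 * L * Λ * (tr - tl) / ν) c +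
          (r + 2 * L * Λ * (tr - tl) / ν) • (a + (tl - ν * (tr - tl)) • b)),
        proj (e + w c) (apex p₀ a b (2 * L * Λ * (tr - tl) / ν) c +
          (r + 2 * L * Λ * (tr - tl) / ν) • (a + (tr + ν * (tr - tl)) • b))} : Set E3) := by
  have hcm : c ∈ Set.Icc α β := ⟨by linarith, by linarith⟩
  have hτm : τ ∈ Set.Icc α β := ⟨by linarith, by linarith⟩
  set I1 := ∫ u in c..τ, lam u with hI1
  set J := ∫ u in c..τ, u * lam u with hJ
  set K := J - c * I1 with hK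
  have hwd : w τ = w c + I1 • a + J • b := by
    have := w_diff a b w lam α β hlam hw' c τ hcm hτm
    rw [← hI1, ← hJ] at this
    rw [add_assoc, ← this]; abel
  have hτc : |τ - c| ≤ tr - tl := by
    rw [abs_le]; constructor <;> linarith
  have hΛ0 : 0 ≤ Λ := hΛ.le
  have hIb : |I1| ≤ Λ * (tr - tl) :=
    (abs_integral_lam_le lam α β Λ hb c τ hcm hτm).trans
      (mul_le_mul_of_nonneg_left hτc hΛ0)
  have hKb : |K| ≤ Λ * (tr - tl) ^ 2 := by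
    refine (abs_K_le lam α β Λ hlam hb c τ hcm hτm).trans
      (mul_le_mul_of_nonneg_left ?_ hΛ0)
    exact pow_le_pow_left₀ (abs_nonneg _) hτc 2
  have hsI : s * I1 ≤ L * (Λ * (tr - tl)) := by
    have := abs_mul s I1
    have h2 : |s * I1| ≤ L * (Λ * (tr - tl)) := by
      rw [this]; exact mul_le_mul hs hIb (abs_nonneg _) hL.le
    exact (abs_le.mp h2).2
  obtain ⟨w1, w2, hw1, hw2, hw12, hA, hB⟩ := cover_core ρ τ c tl tr s I1 K L Λ ν r hlt hτ1 hτ2 hc1 hc2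
    hρ hs hIb hKb hν0 hν1 hL hΛ (by linarith)
  set g := 2 * L * Λ * (tr - tl) / ν with hg
  have hJK : J = K + c * I1 := by rw [hK]; ring
  -- the point modulo the axis
  have hx : p₀ + ρ • (a + τ • b) + s • (e + w τ) =
      (1 - w1 - w2) • apex p₀ a b g c +
        w1 • (apex p₀ a b g c + (r + g) • (a + (tl - ν * (tr - tl)) • b)) +
        w2 • (apex p₀ a b g c + (r + g) • (a + (tr + ν * (tr - tl)) • b)) +
        s • (e + w c) := by
    have h1 : p₀ + ρ • (a + τ • b) + s • (e + w τ) =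
        p₀ + (ρ + s * I1) • a + (ρ * τ + s * (K + c * I1)) • b + s • (e + w c) := by
      rw [hwd, hJK]
      module
    rw [h1, hA, hB]
    unfold apex
    module
  have hP : proj (e + w c) (p₀ + ρ • (a + τ • b) + s • (e + w τ)) =
      (1 - w1 - w2) • proj (e + w c) (apex p₀ a b g c) +
        w1 • proj (e + w c) (apex p₀ a b g c + (r + g) • (a + (tl - ν * (tr - tl)) • b)) +
        w2 • proj (e + w c) (apex p₀ a b g c + (r + g) • (a + (tr + ν * (tr - tl)) • b)) := by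
    rw [hx]
    simp only [proj_add, proj_smul, proj_self _ hd, smul_zero, add_zero]
  rw [hP]
  exact mem_convexHull3 (by linarith) hw1 hw2 (by ring)

/-- Area of a projected fan triangle, assuming the triangle-area formula. -/
lemma area_fan
    (harea : ∀ p q r : E3, μHE[2] (convexHull ℝ ({p, q, r} : Set E3)) =
      ENNReal.ofReal (Real.sqrt (gram (q - p) (r - p)) / 2))
    (e a b V w : E3) (αw βw ρ' θ₁ θ₂ : ℝ)
    (he : ‖e‖ = 1) (hae : inner ℝ a e = 0) (hbe : inner ℝ b e = 0)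
    (hw : w = αw • a + βw • b) (hθ : θ₁ ≤ θ₂) (hG : 0 ≤ gram a b) :
    gram (proj (e + w) (V + ρ' • (a + θ₁ • b)) - proj (e + w) V)
        (proj (e + w) (V + ρ' • (a + θ₂ • b)) - proj (e + w) V) =
      ((ρ' ^ 2 * (θ₂ - θ₁)) ^ 2 * gram a b) / (1 + ‖w‖ ^ 2) ∧
    (μHE[2] (convexHull ℝ ({proj (e + w) V, proj (e + w) (V + ρ' • (a + θ₁ • b)),
      proj (e + w) (V + ρ' • (a + θ₂ • b))} : Set E3))).toReal =
      Real.sqrt (gram a b) * (ρ' ^ 2 * (θ₂ - θ₁)) / (2 * Real.sqrt (1 + ‖w‖ ^ 2)) := by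
  have h1 : ∀ θ : ℝ, proj (e + w) (V + ρ' • (a + θ • b)) - proj (e + w) V =
      proj (e + w) (ρ' • a + (ρ' * θ) • b) := by
    intro θ
    rw [← proj_sub]
    congr 1
    module
  have hgram : gram (proj (e + w) (V + ρ' • (a + θ₁ • b)) - proj (e + w) V)
        (proj (e + w) (V + ρ' • (a + θ₂ • b)) - proj (e + w) V) =
      ((ρ' ^ 2 * (θ₂ - θ₁)) ^ 2 * gram a b) / (1 + ‖w‖ ^ 2) := by
    rw [h1, h1, gram_proj e a b w αw βw ρ' (ρ' * θ₁) ρ' (ρ' * θ₂) he hae hbe hw]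
    congr 2
    ring
  refine ⟨hgram, ?_⟩
  rw [harea, hgram]
  have hD : (0 : ℝ) < 1 + ‖w‖ ^ 2 := by positivity
  have hX : 0 ≤ ρ' ^ 2 * (θ₂ - θ₁) := mul_nonneg (sq_nonneg _) (sub_nonneg.mpr hθ)
  have hsq : Real.sqrt (((ρ' ^ 2 * (θ₂ - θ₁)) ^ 2 * gram a b) / (1 + ‖w‖ ^ 2)) =
      (ρ' ^ 2 * (θ₂ - θ₁)) * Real.sqrt (gram a b) / Real.sqrt (1 + ‖w‖ ^ 2) := by
    rw [Real.sqrt_div' _ hD.le, Real.sqrt_mul' _ hG, Real.sqrt_sq hX]
  rw [hsq, ENNReal.toReal_ofReal (by positivity)]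
  have : Real.sqrt (1 + ‖w‖ ^ 2) ≠ 0 := (Real.sqrt_pos.mpr hD).ne'
  field_simp

/-- The lower triangle of a piece is contained in the projected piece. -/
lemma lower_subset (e a b p₀ : E3) (w : ℝ → E3) (R : ℝ → ℝ) (d : E3) (tl tr L ρ₀ : ℝ)
    (hlt : tl ≤ tr) (hL : 0 ≤ L) (hρ₀ : 0 ≤ ρ₀)
    (hR : ∀ τ ∈ Set.Icc tl tr, ρ₀ ≤ R τ) :
    convexHull ℝ ({proj d p₀, proj d (p₀ + ρ₀ • (a + tl • b)), proj d (p₀ + ρ₀ • (a + tr • b))} :
        Set E3) ⊆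
      proj d '' {x : E3 | ∃ τ ∈ Set.Icc tl tr, ∃ ρ ∈ Set.Icc 0 (R τ), ∃ s : ℝ, |s| ≤ L ∧
        x = p₀ + ρ • (a + τ • b) + s • (e + w τ)} := by
  intro z hz
  obtain ⟨w0, w1, w2, h0, h1, h2, hs, rfl⟩ := exists_weights_of_mem_convexHull3 hz
  by_cases h12 : w1 + w2 = 0
  · have hw1 : w1 = 0 := by linarith
    have hw2 : w2 = 0 := by linarith
    have hw0 : w0 = 1 := by linarith
    refine ⟨p₀, ⟨tl, ⟨le_rfl, hlt⟩, 0, ⟨le_rfl, hρ₀.trans (hR tl ⟨le_rfl, hlt⟩)⟩, 0, by simpa using hL,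
      by simp⟩, by simp [hw0, hw1, hw2]⟩
  · have hpos : 0 < w1 + w2 := lt_of_le_of_ne (by positivity) (Ne.symm h12)
    set τ := (w1 * tl + w2 * tr) / (w1 + w2) with hτ
    have hτ1 : tl ≤ τ := by
      rw [hτ, le_div_iff₀ hpos]; nlinarith
    have hτ2 : τ ≤ tr := by
      rw [hτ, div_le_iff₀ hpos]; nlinarith
    have hρ : (w1 + w2) * ρ₀ ≤ R τ := by
      have := hR τ ⟨hτ1, hτ2⟩
      have h3 : w1 + w2 ≤ 1 := by linarith
      nlinarith
    refine ⟨p₀ + ((w1 + w2) * ρ₀) • (a + τ • b) + (0 : ℝ) • (e + w τ),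
      ⟨τ, ⟨hτ1, hτ2⟩, (w1 + w2) * ρ₀, ⟨by positivity, hρ⟩, 0, by simpa using hL, rfl⟩, ?_⟩
    have h4 : (w1 + w2) * τ = w1 * tl + w2 * tr := by
      rw [hτ]; field_simp
    have hw0 : w0 = 1 - w1 - w2 := by linarith
    have hvec : p₀ + ((w1 + w2) * ρ₀) • (a + τ • b) + (0 : ℝ) • (e + w τ) =
        w0 • p₀ + w1 • (p₀ + ρ₀ • (a + tl • b)) + w2 • (p₀ + ρ₀ • (a + tr • b)) := by
      have h5 : ((w1 + w2) * ρ₀) • (a + τ • b) = ρ₀ • ((w1 + w2) • a + ((w1 + w2) * τ) • b) := by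
        module
      rw [h5, h4, hw0]
      module
    rw [hvec]
    simp only [proj_add, proj_smul]


/-- Everything on one interval of the partition. -/
lemma piece
    (harea : ∀ p q r : E3, μHE[2] (convexHull ℝ ({p, q, r} : Set E3)) =
      ENNReal.ofReal (Real.sqrt (gram (q - p) (r - p)) / 2))
    (e a b p₀ : E3) (w : ℝ → E3) (R lam : ℝ → ℝ) (α β Λ L ν ε₀ c tl tr : ℝ)
    (he : ‖e‖ = 1) (hae : inner ℝ a e = 0) (hbe : inner ℝ b e = 0)
    (hab : LinearIndependent ℝ ![a, b])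
    (hw : ∀ t ∈ Set.Icc α β, inner ℝ (w t) e = 0)
    (hlam : ContinuousOn lam (Set.Icc α β))
    (hw' : ∀ t ∈ Set.Icc α β, HasDerivWithinAt w (lam t • (a + t • b)) (Set.Icc α β) t)
    (hb : ∀ u ∈ Set.Icc α β, |lam u| ≤ Λ)
    (hΛ : 0 < Λ) (hL : 0 < L) (hν0 : 0 < ν) (hν1 : ν ≤ 1) (hε₀ : 0 < ε₀)
    (hα : α ≤ tl) (hlt : tl < tr) (hβ : tr ≤ β) (hc1 : tl ≤ c) (hc2 : c ≤ tr)
    (hRc : 0 ≤ R c)
    (hRup : ∀ τ ∈ Set.Icc tl tr, R τ + L * (Λ * (tr - tl)) ≤ R c + ε₀)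
    (hRlo : ∀ τ ∈ Set.Icc tl tr, R c - ε₀ ≤ R τ) (hR0 : ∀ τ ∈ Set.Icc tl tr, 0 ≤ R τ) :
    ∃ p q r : E3, inner ℝ p (e + w c) = 0 ∧ inner ℝ q (e + w c) = 0 ∧ inner ℝ r (e + w c) = 0 ∧
      AffineIndependent ℝ ![p, q, r] ∧
      (∀ τ ∈ Set.Icc tl tr, ∀ ρ ∈ Set.Icc 0 (R τ), ∀ s : ℝ, |s| ≤ L →
        proj (e + w c) (p₀ + ρ • (a + τ • b) + s • (e + w τ)) ∈
          convexHull ℝ ({p, q, r} : Set E3)) ∧
      (μHE[2] (convexHull ℝ ({p, q, r} : Set E3))).toReal =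
        Real.sqrt (gram a b) * ((R c + ε₀ + 2 * L * Λ * (tr - tl) / ν) ^ 2 *
          ((1 + 2 * ν) * (tr - tl))) / (2 * Real.sqrt (1 + ‖w c‖ ^ 2)) ∧
      Real.sqrt (gram a b) * ((max 0 (R c - ε₀)) ^ 2 * (tr - tl)) /
          (2 * Real.sqrt (1 + ‖w c‖ ^ 2)) ≤
        (μHE[2] (proj (e + w c) '' {x : E3 | ∃ τ ∈ Set.Icc tl tr, ∃ ρ ∈ Set.Icc 0 (R τ),
          ∃ s : ℝ, |s| ≤ L ∧ x = p₀ + ρ • (a + τ • b) + s • (e + w τ)})).toReal ∧
      (μHE[2] (proj (e + w c) '' {x : E3 | ∃ τ ∈ Set.Icc tl tr, ∃ ρ ∈ Set.Icc 0 (R τ),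
          ∃ s : ℝ, |s| ≤ L ∧ x = p₀ + ρ • (a + τ • b) + s • (e + w τ)})).toReal ≤
        Real.sqrt (gram a b) * ((R c + ε₀ + 2 * L * Λ * (tr - tl) / ν) ^ 2 *
          ((1 + 2 * ν) * (tr - tl))) / (2 * Real.sqrt (1 + ‖w c‖ ^ 2)) := by
  have hcm : c ∈ Set.Icc α β := ⟨by linarith, by linarith⟩
  have hee : inner ℝ e e = 1 := by rw [real_inner_self_eq_norm_sq, he]; norm_num
  have hd : e + w c ≠ 0 := by
    intro h
    have h2 : inner ℝ (e + w c) e = 1 := by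
      rw [inner_add_left, hee, hw c hcm, add_zero]
    rw [h] at h2
    simp at h2
  obtain ⟨αw, βw, hwc⟩ := exists_coords e a b (w c) he hae hbe hab (hw c hcm)
  have hG : 0 < gram a b := gram_pos_of_li a b hab
  set δ := tr - tl with hδ
  have hδ0 : 0 < δ := by rw [hδ]; linarith
  set g := 2 * L * Λ * δ / ν with hg
  have hg0 : 0 < g := by positivity
  set r := R c + ε₀ with hr
  have hr0 : 0 < r := by rw [hr]; linarith
  set θ₁ := tl - ν * δ with hθ₁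
  set θ₂ := tr + ν * δ with hθ₂
  have hθ : θ₂ - θ₁ = (1 + 2 * ν) * δ := by
    rw [hθ₁, hθ₂]
    have : tr = tl + δ := by rw [hδ]; ring
    rw [this]
    ring
  have hθpos : 0 < θ₂ - θ₁ := by rw [hθ]; positivity
  have hρ' : 0 < r + g := by linarith
  set V := apex p₀ a b g c with hV
  set P := proj (e + w c) with hP
  have hA := area_fan harea e a b V (w c) αw βw (r + g) θ₁ θ₂ he hae hbe hwc (by linarith) hG.le
  obtain ⟨hGup, hAup⟩ := hA
  rw [← hP] at hGup hAup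
  have hArea : (μHE[2] (convexHull ℝ ({P V, P (V + (r + g) • (a + θ₁ • b)),
      P (V + (r + g) • (a + θ₂ • b))} : Set E3))).toReal =
      Real.sqrt (gram a b) * ((r + g) ^ 2 * ((1 + 2 * ν) * δ)) /
        (2 * Real.sqrt (1 + ‖w c‖ ^ 2)) := by
    rw [hAup, hθ]
  have hFin : μHE[2] (convexHull ℝ ({P V, P (V + (r + g) • (a + θ₁ • b)),
      P (V + (r + g) • (a + θ₂ • b))} : Set E3)) ≠ ⊤ := by
    rw [harea]; exact ENNReal.ofReal_ne_top
  have hmem : ∀ τ ∈ Set.Icc tl tr, ∀ ρ ∈ Set.Icc 0 (R τ), ∀ s : ℝ, |s| ≤ L →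
      P (p₀ + ρ • (a + τ • b) + s • (e + w τ)) ∈
        convexHull ℝ ({P V, P (V + (r + g) • (a + θ₁ • b)),
          P (V + (r + g) • (a + θ₂ • b))} : Set E3) := by
    intro τ hτ ρ hρ s hs
    exact fan_point_mem e a b p₀ w lam α β Λ L ν r c tl tr τ ρ s hlam hw' hb hd hΛ hL hν0 hν1 hα hlt
      hβ hc1 hc2 hτ.1 hτ.2 hρ.1 hs (by have := hRup τ hτ; have := hρ.2; rw [hr]; linarith)
  refine ⟨P V, P (V + (r + g) • (a + θ₁ • b)), P (V + (r + g) • (a + θ₂ • b)),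
    inner_proj _ _ hd, inner_proj _ _ hd, inner_proj _ _ hd, ?_, hmem, hArea, ?_, ?_⟩
  · apply affineIndependent_of_gram_pos
    rw [hGup]
    have hD : (0 : ℝ) < 1 + ‖w c‖ ^ 2 := by positivity
    positivity
  · -- lower bound
    set ρ₀ := max 0 (R c - ε₀) with hρ₀
    have hρ₀0 : 0 ≤ ρ₀ := le_max_left _ _
    have hlow : ∀ τ ∈ Set.Icc tl tr, ρ₀ ≤ R τ := fun τ hτ =>
      max_le (hR0 τ hτ) (hRlo τ hτ)
    have hsub := lower_subset e a b p₀ w R (e + w c) tl tr L ρ₀ hlt.le hL.le hρ₀0 hlow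
    have hAlo := (area_fan harea e a b p₀ (w c) αw βw ρ₀ tl tr he hae hbe hwc hlt.le hG.le).2
    rw [← hAlo]
    apply ENNReal.toReal_mono
    · refine ne_top_of_le_ne_top hFin (measure_mono ?_)
      rintro _ ⟨x, ⟨τ, hτ, ρ, hρ, s, hs, rfl⟩, rfl⟩
      exact hmem τ hτ ρ hρ s hs
    · exact measure_mono hsub
  · rw [← hArea]
    apply ENNReal.toReal_mono hFin
    apply measure_mono
    rintro _ ⟨x, ⟨τ, hτ, ρ, hρ, s, hs, rfl⟩, rfl⟩
    exact hmem τ hτ ρ hρ s hs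

lemma X_bound (Rc E' ν Rm e_u E : ℝ) (h0 : 0 ≤ Rc) (h1 : Rc ≤ Rm) (hE'0 : 0 ≤ E') (hE' : E' ≤ E)
    (hE1 : E ≤ 1) (hν0 : 0 ≤ ν) (hνM : 2 * ν * (Rm + 1) ^ 2 ≤ e_u / 2)
    (hEe : (2 * Rm + 1) * E ≤ e_u / 2) :
    0 ≤ (Rc + E') ^ 2 * (1 + 2 * ν) - Rc ^ 2 ∧ (Rc + E') ^ 2 * (1 + 2 * ν) - Rc ^ 2 ≤ e_u := by
  have hid : (Rc + E') ^ 2 * (1 + 2 * ν) - Rc ^ 2 =
      2 * Rc * E' + E' ^ 2 + 2 * ν * (Rc + E') ^ 2 := by ring
  rw [hid]
  constructor
  · positivity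
  · have h2 : 2 * Rc * E' ≤ 2 * Rm * E := by
      have : Rc * E' ≤ Rm * E := mul_le_mul h1 hE' hE'0 (h0.trans h1)
      linarith
    have h3 : E' ^ 2 ≤ E := by
      have : E' ≤ 1 := hE'.trans hE1
      nlinarith
    have h4 : (Rc + E') ^ 2 ≤ (Rm + 1) ^ 2 := by
      apply pow_le_pow_left₀ (by positivity)
      linarith [hE'.trans hE1]
    have h5 : 2 * ν * (Rc + E') ^ 2 ≤ 2 * ν * (Rm + 1) ^ 2 :=
      mul_le_mul_of_nonneg_left h4 (by positivity)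
    nlinarith

lemma Rlo_bound (Rc ε₀ Rm : ℝ) (h0 : 0 ≤ Rc) (h1 : Rc ≤ Rm) (hε : 0 ≤ ε₀) :
    0 ≤ Rc ^ 2 - (max 0 (Rc - ε₀)) ^ 2 ∧ Rc ^ 2 - (max 0 (Rc - ε₀)) ^ 2 ≤ 2 * Rm * ε₀ := by
  rcases le_total 0 (Rc - ε₀) with h | h
  · rw [max_eq_right h]
    constructor
    · nlinarith
    · nlinarith
  · rw [max_eq_left h]
    constructor
    · nlinarith
    · nlinarith

end Crest.Agent.CylFan
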