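import Crest.Agent.Lib.CylFan2

/-!
# S0328: assembly, assuming the triangle-area formula
-/

set_option autoImplicit false
open MeasureTheory
open scoped ENNReal

namespace Crest.Agent.CylFan

theorem main_of_area
    (harea : ∀ p q r : E3, μHE[2] (convexHull ℝ ({p, q, r} : Set E3)) =
      ENNReal.ofReal (Real.sqrt (gram (q - p) (r - p)) / 2))
    (e a b p₀ : EuclideanSpace ℝ (Fin 3)) (he : ‖e‖ = 1)
    (ha : inner ℝ a e = 0) (hb : inner ℝ b e = 0)
    (hab : LinearIndependent ℝ ![a, b]) (L : ℝ) (hL : 0 < L) (α β : ℝ) (hαβ : α < β)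
    (R : ℝ → ℝ) (hR : ContinuousOn R (Set.Icc α β)) (hR0 : ∀ t ∈ Set.Icc α β, 0 ≤ R t)
    (w : ℝ → EuclideanSpace ℝ (Fin 3)) (hw : ∀ t ∈ Set.Icc α β, inner ℝ (w t) e = 0)
    (lam : ℝ → ℝ) (hlam : ContinuousOn lam (Set.Icc α β))
    (hw' : ∀ t ∈ Set.Icc α β, HasDerivWithinAt w (lam t • (a + t • b)) (Set.Icc α β) t)
    (η : ℝ) (hη : 0 < η) :
    ∃ δ : ℝ, 0 < δ ∧ ∀ (N : ℕ) (t : Fin (N + 1) → ℝ) (c : Fin N → ℝ),
      StrictMono t → t 0 = α → t (Fin.last N) = β →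
      (∀ i : Fin N, t i.succ - t i.castSucc ≤ δ) →
      (∀ i : Fin N, t i.castSucc ≤ c i ∧ c i ≤ t i.succ) →
      (∃ (p q r : Fin N → EuclideanSpace ℝ (Fin 3)),
        (∀ i, inner ℝ (p i) (e + w (c i)) = 0 ∧ inner ℝ (q i) (e + w (c i)) = 0 ∧
          inner ℝ (r i) (e + w (c i)) = 0) ∧
        (∀ i, AffineIndependent ℝ ![p i, q i, r i]) ∧
        {x : EuclideanSpace ℝ (Fin 3) | ∃ τ ∈ Set.Icc α β, ∃ ρ ∈ Set.Icc 0 (R τ), ∃ s : ℝ, abs s ≤ L ∧
            x = p₀ + ρ • (a + τ • b) + s • (e + w τ)} ⊆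
          ⋃ i, {x : EuclideanSpace ℝ (Fin 3) | ∃ y ∈ convexHull ℝ {p i, q i, r i}, ∃ σ : ℝ,
            x = y + σ • (e + w (c i))} ∧
        abs ((∑ i, (μHE[2] (convexHull ℝ ({p i, q i, r i} : Set (EuclideanSpace ℝ (Fin 3))))).toReal) -
            Real.sqrt (‖a‖ ^ 2 * ‖b‖ ^ 2 - inner ℝ a b ^ 2) *
              ∫ τ in α..β, R τ ^ 2 / (2 * Real.sqrt (1 + ‖w τ‖ ^ 2))) ≤ η) ∧
      abs ((∑ i : Fin N, (μHE[2] ((fun y => y - (inner ℝ y (e + w (c i)) / ‖e + w (c i)‖ ^ 2) • (e + w (c i))) ''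
            {x : EuclideanSpace ℝ (Fin 3) | ∃ τ ∈ Set.Icc (t i.castSucc) (t i.succ), ∃ ρ ∈ Set.Icc 0 (R τ),
              ∃ s : ℝ, abs s ≤ L ∧ x = p₀ + ρ • (a + τ • b) + s • (e + w τ)})).toReal) -
          Real.sqrt (‖a‖ ^ 2 * ‖b‖ ^ 2 - inner ℝ a b ^ 2) *
            ∫ τ in α..β, R τ ^ 2 / (2 * Real.sqrt (1 + ‖w τ‖ ^ 2))) ≤ η := by
  -- constants
  obtain ⟨Λ₀, hΛ₀⟩ : ∃ Λ₀ : ℝ, ∀ u ∈ Set.Icc α β, |lam u| ≤ Λ₀ := by
    obtain ⟨C, hC⟩ := isCompact_Icc.exists_bound_of_continuousOn hlam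
    exact ⟨C, fun u hu => by simpa using hC u hu⟩
  set Λ := max Λ₀ 1 with hΛdef
  have hΛ : 0 < Λ := lt_of_lt_of_le one_pos (le_max_right _ _)
  have hbΛ : ∀ u ∈ Set.Icc α β, |lam u| ≤ Λ := fun u hu => (hΛ₀ u hu).trans (le_max_left _ _)
  obtain ⟨Rm₀, hRm₀⟩ : ∃ Rm₀ : ℝ, ∀ u ∈ Set.Icc α β, |R u| ≤ Rm₀ := by
    obtain ⟨C, hC⟩ := isCompact_Icc.exists_bound_of_continuousOn hR
    exact ⟨C, fun u hu => by simpa using hC u hu⟩
  set Rm := max Rm₀ 0 with hRmdef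
  have hRm0 : 0 ≤ Rm := le_max_right _ _
  have hRm : ∀ u ∈ Set.Icc α β, R u ≤ Rm := fun u hu =>
    ((le_abs_self _).trans (hRm₀ u hu)).trans (le_max_left _ _)
  have hwc : ContinuousOn w (Set.Icc α β) := fun t ht => (hw' t ht).continuousWithinAt
  set F : ℝ → ℝ := fun τ => R τ ^ 2 / (2 * Real.sqrt (1 + ‖w τ‖ ^ 2)) with hF
  have hD1 : ∀ τ : ℝ, 1 ≤ Real.sqrt (1 + ‖w τ‖ ^ 2) := by
    intro τ
    rw [Real.one_le_sqrt]
    nlinarith [sq_nonneg ‖w τ‖]
  have hFc : ContinuousOn F (Set.Icc α β) := by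
    apply ContinuousOn.div (hR.pow 2)
    · apply continuousOn_const.mul
      apply Real.continuous_sqrt.comp_continuousOn
      exact continuousOn_const.add (hwc.norm.pow 2)
    · intro τ _
      have := hD1 τ
      positivity
  have hG : 0 < gram a b := gram_pos_of_li a b hab
  set κ := Real.sqrt (gram a b) with hκ
  have hκ0 : 0 < κ := Real.sqrt_pos.mpr hG
  have hκeq : Real.sqrt (‖a‖ ^ 2 * ‖b‖ ^ 2 - inner ℝ a b ^ 2) = κ := rfl
  set T := β - α with hT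
  have hT0 : 0 < T := by rw [hT]; linarith
  set eu := η / (κ * T) with heu
  have heu0 : 0 < eu := by positivity
  set ε₁ := η / (2 * (κ * T)) with hε₁
  have hε₁0 : 0 < ε₁ := by positivity
  have hM : 0 < (Rm + 1) ^ 2 := by positivity
  set ν := min 1 (eu / (4 * (Rm + 1) ^ 2)) with hν
  have hν0 : 0 < ν := lt_min one_pos (by positivity)
  have hν1 : ν ≤ 1 := min_le_left _ _
  have hνM : 2 * ν * (Rm + 1) ^ 2 ≤ eu / 2 := by
    have h1 : ν ≤ eu / (4 * (Rm + 1) ^ 2) := min_le_right _ _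
    have h2 : ν * (4 * (Rm + 1) ^ 2) ≤ eu := by
      rwa [le_div_iff₀ (by positivity)] at h1
    nlinarith
  set E := min 1 (eu / (2 * (2 * Rm + 1))) with hE
  have hE0 : 0 < E := lt_min one_pos (by positivity)
  have hE1 : E ≤ 1 := min_le_left _ _
  have hEe : (2 * Rm + 1) * E ≤ eu / 2 := by
    have h1 : E ≤ eu / (2 * (2 * Rm + 1)) := min_le_right _ _
    have h2 : E * (2 * (2 * Rm + 1)) ≤ eu := by
      rwa [le_div_iff₀ (by positivity)] at h1
    nlinarith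
  set ε₀ := E / 2 with hε₀
  have hε₀0 : 0 < ε₀ := by positivity
  -- uniform continuity
  obtain ⟨δR, hδR0, hδR⟩ := Metric.uniformContinuousOn_iff.mp
    (isCompact_Icc.uniformContinuousOn_of_continuous hR) (ε₀ / 2) (by positivity)
  obtain ⟨δF, hδF0, hδF⟩ := Metric.uniformContinuousOn_iff.mp
    (isCompact_Icc.uniformContinuousOn_of_continuous hFc) ε₁ hε₁0
  set δ₃ := ν * E / (4 * L * Λ) with hδ₃
  have hδ₃0 : 0 < δ₃ := by positivity
  set δ := min (min δR δF) δ₃ / 2 with hδ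
  have hδ0 : 0 < δ := by
    have : 0 < min (min δR δF) δ₃ := lt_min (lt_min hδR0 hδF0) hδ₃0
    positivity
  have hδltR : δ < δR := by
    have h1 : min (min δR δF) δ₃ ≤ δR := (min_le_left _ _).trans (min_le_left _ _)
    have h2 : 0 < min (min δR δF) δ₃ := lt_min (lt_min hδR0 hδF0) hδ₃0
    rw [hδ]; linarith
  have hδltF : δ < δF := by
    have h1 : min (min δR δF) δ₃ ≤ δF := (min_le_left _ _).trans (min_le_right _ _)
    have h2 : 0 < min (min δR δF) δ₃ := lt_min (lt_min hδR0 hδF0) hδ₃0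
    rw [hδ]; linarith
  have hδle3 : δ ≤ δ₃ := by
    have h1 : min (min δR δF) δ₃ ≤ δ₃ := min_le_right _ _
    have h2 : 0 < min (min δR δF) δ₃ := lt_min (lt_min hδR0 hδF0) hδ₃0
    rw [hδ]; linarith
  refine ⟨δ, hδ0, ?_⟩
  intro N t c ht h0 hN hmesh hc
  have hle : ∀ i : Fin N, t i.castSucc < t i.succ := fun i => ht Fin.castSucc_lt_succ
  have hmem : ∀ j, t j ∈ Set.Icc α β := fun j =>
    ⟨by rw [← h0]; exact ht.monotone (Fin.zero_le j), by rw [← hN]; exact ht.monotone (Fin.le_last j)⟩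
  have hcm : ∀ i, c i ∈ Set.Icc α β := fun i =>
    ⟨(hmem _).1.trans (hc i).1, (hc i).2.trans (hmem _).2⟩
  have hsub : ∀ i : Fin N, ∀ τ ∈ Set.Icc (t i.castSucc) (t i.succ), τ ∈ Set.Icc α β := fun i τ hτ =>
    ⟨(hmem _).1.trans hτ.1, hτ.2.trans (hmem _).2⟩
  have hclose : ∀ i : Fin N, ∀ τ ∈ Set.Icc (t i.castSucc) (t i.succ), |τ - c i| ≤ δ := by
    intro i τ hτ
    have := hmesh i
    rw [abs_le]
    constructor <;> linarith [hτ.1, hτ.2, (hc i).1, (hc i).2]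
  have hRclose : ∀ i : Fin N, ∀ τ ∈ Set.Icc (t i.castSucc) (t i.succ), |R τ - R (c i)| < ε₀ / 2 := by
    intro i τ hτ
    have := hδR τ (hsub i τ hτ) (c i) (hcm i) (by
      rw [Real.dist_eq]; exact lt_of_le_of_lt (hclose i τ hτ) hδltR)
    rwa [Real.dist_eq] at this
  have hFclose : ∀ i : Fin N, ∀ τ ∈ Set.Icc (t i.castSucc) (t i.succ), |F τ - F (c i)| ≤ ε₁ := by
    intro i τ hτ
    have := hδF τ (hsub i τ hτ) (c i) (hcm i) (by
      rw [Real.dist_eq]; exact lt_of_le_of_lt (hclose i τ hτ) hδltF)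
    rw [Real.dist_eq] at this
    exact this.le
  -- small parameter bounds
  have hLΛδ : ∀ i : Fin N, 2 * L * Λ * (t i.succ - t i.castSucc) / ν ≤ E / 2 := by
    intro i
    have h1 : t i.succ - t i.castSucc ≤ δ₃ := (hmesh i).trans hδle3
    rw [div_le_iff₀ hν0]
    have h2 : 2 * L * Λ * (t i.succ - t i.castSucc) ≤ 2 * L * Λ * δ₃ :=
      mul_le_mul_of_nonneg_left h1 (by positivity)
    have h3 : 2 * L * Λ * δ₃ = E / 2 * ν := by
      rw [hδ₃]; field_simp; ring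
    linarith
  have hLΛδ2 : ∀ i : Fin N, L * (Λ * (t i.succ - t i.castSucc)) ≤ ε₀ / 2 := by
    intro i
    have h1 := hLΛδ i
    have hp : 0 < t i.succ - t i.castSucc := sub_pos.mpr (hle i)
    have h2 : 2 * L * Λ * (t i.succ - t i.castSucc) ≤ 2 * L * Λ * (t i.succ - t i.castSucc) / ν := by
      rw [le_div_iff₀ hν0]
      have : 0 < 2 * L * Λ * (t i.succ - t i.castSucc) := by positivity
      nlinarith
    have h3 : ε₀ = E / 2 := rfl
    nlinarith
  have hpiece := fun i : Fin N => piece harea e a b p₀ w R lam α β Λ L ν ε₀ (c i) (t i.castSucc)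
    (t i.succ) he ha hb hab hw hlam hw' hbΛ hΛ hL hν0 hν1 hε₀0 (hmem _).1 (hle i) (hmem _).2
    (hc i).1 (hc i).2 (hR0 _ (hcm i))
    (by
      intro τ hτ
      have h1 := abs_lt.mp (hRclose i τ hτ)
      have h2 := hLΛδ2 i
      linarith [h1.2])
    (by
      intro τ hτ
      have h1 := abs_lt.mp (hRclose i τ hτ)
      linarith [h1.1])
    (fun τ hτ => hR0 τ (hsub i τ hτ))
  choose p q r hp hq hr hAff hmemP hAreaUp hPieceLo hPieceUp using hpiece
  -- abbreviations for sums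
  set S := ∑ i : Fin N, F (c i) * (t i.succ - t i.castSucc) with hS
  have hRiem : |S - ∫ x in α..β, F x| ≤ ε₁ * T :=
    riemann_bound F α β hFc N t c ht h0 hN hc ε₁ hFclose
  have hsumδ : ∑ i : Fin N, (t i.succ - t i.castSucc) = T := by
    rw [sum_tele, h0, hN]
  set Up : Fin N → ℝ := fun i => κ * ((R (c i) + ε₀ + 2 * L * Λ * (t i.succ - t i.castSucc) / ν) ^ 2 *
    ((1 + 2 * ν) * (t i.succ - t i.castSucc))) / (2 * Real.sqrt (1 + ‖w (c i)‖ ^ 2)) with hUp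
  set Lo : Fin N → ℝ := fun i => κ * ((max 0 (R (c i) - ε₀)) ^ 2 * (t i.succ - t i.castSucc)) /
    (2 * Real.sqrt (1 + ‖w (c i)‖ ^ 2)) with hLo
  have hUpbound : ∀ i, κ * (F (c i) * (t i.succ - t i.castSucc)) ≤ Up i ∧
      Up i ≤ κ * (F (c i) * (t i.succ - t i.castSucc)) + κ * eu / 2 * (t i.succ - t i.castSucc) := by
    intro i
    have hδi : 0 < t i.succ - t i.castSucc := sub_pos.mpr (hle i)
    set δi := t i.succ - t i.castSucc with hδi'
    set g := 2 * L * Λ * δi / ν with hg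
    have hg0 : 0 ≤ g := by positivity
    have hX := X_bound (R (c i)) (ε₀ + g) ν Rm eu E (hR0 _ (hcm i)) (hRm _ (hcm i)) (by positivity)
      (by have := hLΛδ i; rw [hε₀]; linarith) hE1 hν0.le hνM hEe
    set Dc := Real.sqrt (1 + ‖w (c i)‖ ^ 2) with hDc
    have hDc1 : 1 ≤ Dc := hD1 _
    have hDc0 : 0 < Dc := by linarith
    have h1 : Up i - κ * (F (c i) * δi) =
        κ * δi * ((R (c i) + (ε₀ + g)) ^ 2 * (1 + 2 * ν) - R (c i) ^ 2) / (2 * Dc) := by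
      simp only [hUp, hF]
      rw [← hδi', ← hg, ← hDc]
      field_simp
      ring
    constructor
    · have : 0 ≤ Up i - κ * (F (c i) * δi) := by
        rw [h1]
        exact div_nonneg (mul_nonneg (by positivity) hX.1) (by positivity)
      linarith
    · have h2 : κ * δi * ((R (c i) + (ε₀ + g)) ^ 2 * (1 + 2 * ν) - R (c i) ^ 2) / (2 * Dc) ≤
          κ * eu / 2 * δi := by
        rw [div_le_iff₀ (by positivity)]
        have h3 : κ * δi * ((R (c i) + (ε₀ + g)) ^ 2 * (1 + 2 * ν) - R (c i) ^ 2) ≤ κ * δi * eu :=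
          mul_le_mul_of_nonneg_left hX.2 (by positivity)
        have h4 : κ * δi * eu ≤ κ * eu / 2 * δi * (2 * Dc) := by
          have h5 : 0 ≤ κ * δi * eu := by positivity
          nlinarith
        linarith
      linarith
  have hLobound : ∀ i, κ * (F (c i) * (t i.succ - t i.castSucc)) - κ * eu / 2 * (t i.succ - t i.castSucc) ≤ Lo i := by
    intro i
    have hδi : 0 < t i.succ - t i.castSucc := sub_pos.mpr (hle i)
    set δi := t i.succ - t i.castSucc with hδi'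
    have hX := Rlo_bound (R (c i)) ε₀ Rm (hR0 _ (hcm i)) (hRm _ (hcm i)) hε₀0.le
    set Dc := Real.sqrt (1 + ‖w (c i)‖ ^ 2) with hDc
    have hDc1 : 1 ≤ Dc := hD1 _
    have hDc0 : 0 < Dc := by linarith
    have hXe : R (c i) ^ 2 - (max 0 (R (c i) - ε₀)) ^ 2 ≤ eu := by
      have h5 : 2 * Rm * ε₀ ≤ (2 * Rm + 1) * E := by
        rw [hε₀]
        nlinarith
      linarith [hX.2]
    have h1 : κ * (F (c i) * δi) - Lo i =
        κ * δi * (R (c i) ^ 2 - (max 0 (R (c i) - ε₀)) ^ 2) / (2 * Dc) := by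
      simp only [hLo, hF]
      rw [← hδi', ← hDc]
      field_simp
    have h2 : κ * δi * (R (c i) ^ 2 - (max 0 (R (c i) - ε₀)) ^ 2) / (2 * Dc) ≤ κ * eu / 2 * δi := by
      rw [div_le_iff₀ (by positivity)]
      have h3 : κ * δi * (R (c i) ^ 2 - (max 0 (R (c i) - ε₀)) ^ 2) ≤ κ * δi * eu :=
        mul_le_mul_of_nonneg_left hXe (by positivity)
      have h4 : κ * δi * eu ≤ κ * eu / 2 * δi * (2 * Dc) := by
        have h5 : 0 ≤ κ * δi * eu := by positivity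
        nlinarith
      linarith
    linarith
  have hSumUp1 : κ * S ≤ ∑ i, Up i := by
    rw [hS, Finset.mul_sum]
    exact Finset.sum_le_sum (fun i _ => (hUpbound i).1)
  have hSumUp2 : ∑ i, Up i ≤ κ * S + κ * eu / 2 * T := by
    rw [hS, Finset.mul_sum, ← hsumδ, Finset.mul_sum, ← Finset.sum_add_distrib]
    exact Finset.sum_le_sum (fun i _ => (hUpbound i).2)
  have hSumLo : κ * S - κ * eu / 2 * T ≤ ∑ i, Lo i := by
    rw [hS, Finset.mul_sum, ← hsumδ, Finset.mul_sum, ← Finset.sum_sub_distrib]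
    exact Finset.sum_le_sum (fun i _ => hLobound i)
  have hfinal1 : κ * eu / 2 * T = η / 2 := by
    rw [heu]; field_simp
  have hfinal2 : κ * (ε₁ * T) = η / 2 := by
    rw [hε₁]; field_simp
  have hRiem2 := abs_le.mp hRiem
  have hκint : κ * ((∫ x in α..β, F x) - ε₁ * T) ≤ κ * S ∧ κ * S ≤ κ * ((∫ x in α..β, F x) + ε₁ * T) := by
    constructor
    · apply mul_le_mul_of_nonneg_left _ hκ0.le
      linarith [hRiem2.1]
    · apply mul_le_mul_of_nonneg_left _ hκ0.le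
      linarith [hRiem2.2]
  refine ⟨⟨p, q, r, fun i => ⟨hp i, hq i, hr i⟩, hAff, ?_, ?_⟩, ?_⟩
  · rintro x ⟨τ, hτ, ρ, hρ, s, hs, rfl⟩
    obtain ⟨i, hi1, hi2⟩ := exists_interval N t τ (by rw [h0, hN]; exact hαβ)
      (by rw [h0]; exact hτ.1) (by rw [hN]; exact hτ.2)
    refine Set.mem_iUnion.mpr ⟨i, ?_⟩
    refine ⟨_, hmemP i τ ⟨hi1, hi2⟩ ρ hρ s hs, inner ℝ (p₀ + ρ • (a + τ • b) + s • (e + w τ)) (e + w (c i)) /
      ‖e + w (c i)‖ ^ 2, ?_⟩
    unfold proj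
    rw [sub_add_cancel]
  · rw [hκeq, abs_le]
    have hsumU : ∑ i, (μHE[2] (convexHull ℝ ({p i, q i, r i} : Set (EuclideanSpace ℝ (Fin 3))))).toReal =
        ∑ i, Up i := Finset.sum_congr rfl (fun i _ => hAreaUp i)
    rw [hsumU]
    constructor
    · have := hκint.1
      have h3 : κ * ((∫ x in α..β, F x) - ε₁ * T) = κ * (∫ x in α..β, F x) - η / 2 := by
        rw [mul_sub, hfinal2]
      linarith
    · have := hκint.2
      have h3 : κ * ((∫ x in α..β, F x) + ε₁ * T) = κ * (∫ x in α..β, F x) + η / 2 := by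
        rw [mul_add, hfinal2]
      linarith
  · rw [hκeq, abs_le]
    set Pc : Fin N → ℝ := fun i => (μHE[2] ((fun y => y - (inner ℝ y (e + w (c i)) / ‖e + w (c i)‖ ^ 2) • (e + w (c i))) ''
            {x : EuclideanSpace ℝ (Fin 3) | ∃ τ ∈ Set.Icc (t i.castSucc) (t i.succ), ∃ ρ ∈ Set.Icc 0 (R τ),
              ∃ s : ℝ, abs s ≤ L ∧ x = p₀ + ρ • (a + τ • b) + s • (e + w τ)})).toReal with hPc
    have h1 : ∑ i, Lo i ≤ ∑ i, Pc i := Finset.sum_le_sum (fun i _ => hPieceLo i)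
    have h2 : ∑ i, Pc i ≤ ∑ i, Up i := Finset.sum_le_sum (fun i _ => hPieceUp i)
    constructor
    · have := hκint.1
      have h3 : κ * ((∫ x in α..β, F x) - ε₁ * T) = κ * (∫ x in α..β, F x) - η / 2 := by
        rw [mul_sub, hfinal2]
      linarith
    · have := hκint.2
      have h3 : κ * ((∫ x in α..β, F x) + ε₁ * T) = κ * (∫ x in α..β, F x) + η / 2 := by
        rw [mul_add, hfinal2]
      linarith

end Crest.Agent.CylFan
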