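import Crest.Agent.Lib.CylArea

/-!
From a cover of a ruled set by sheared squares in `ℝ × ℝ²` (the conclusion of S0326) to a cover of
its image in three-space by cylinders with relatively open bases (the conclusion of S0329).
-/

set_option autoImplicit false

open MeasureTheory Measure Set
open scoped ENNReal

namespace Crest.Agent.CylRuled

open Crest.Agent.CylArea

lemma inner_eq2 (a b : E2) : inner ℝ a b = a 0 * b 0 + a 1 * b 1 := by
  simp [PiLp.inner_apply, Fin.sum_univ_two]; ring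

lemma proj_add (u a b : E3) : proj u (a + b) = proj u a + proj u b := by
  simp only [proj, inner_add_left, add_smul]
  abel

lemma proj_smul (u a : E3) (r : ℝ) : proj u (r • a) = r • proj u a := by
  simp only [proj, inner_smul_left, smul_sub, smul_smul]
  simp

lemma proj_self (u : E3) (hu : ‖u‖ = 1) : proj u u = 0 := by
  simp only [proj]
  rw [real_inner_self_eq_norm_sq, hu]
  simp

lemma cross3_smul (r s : ℝ) (x y : E3) : cross3 (r • x) (s • y) = (r * s) • cross3 x y := by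
  ext i
  fin_cases i <;> simp <;> ring

lemma continuous_coord (i : Fin 3) : Continuous (fun z : E3 => z i) := by
  fun_prop

/-- row relations of a scaled orthogonal `2 × 2` matrix -/
lemma scaled_orth (a b : E2) (ha : a ≠ 0) (hb : ‖b‖ = ‖a‖) (hab : inner ℝ a b = (0:ℝ)) :
    0 < ‖a‖ ^ 2 ∧ ‖a‖ ^ 2 = a 0 ^ 2 + a 1 ^ 2 ∧ ‖a‖ ^ 2 = b 0 ^ 2 + b 1 ^ 2 ∧
      a 0 * b 0 + a 1 * b 1 = 0 ∧ a 0 ^ 2 + b 0 ^ 2 = ‖a‖ ^ 2 ∧ a 1 ^ 2 + b 1 ^ 2 = ‖a‖ ^ 2 ∧
      a 0 * a 1 + b 0 * b 1 = 0 ∧ |a 0 * b 1 - a 1 * b 0| = ‖a‖ ^ 2 := by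
  set ℓ : ℝ := ‖a‖ ^ 2 with hℓ
  have hℓa : ℓ = a 0 ^ 2 + a 1 ^ 2 := norm_sq_eq2 a
  have hℓb : ℓ = b 0 ^ 2 + b 1 ^ 2 := by rw [hℓ, ← hb]; exact norm_sq_eq2 b
  have hℓpos : 0 < ℓ := by
    have : 0 < ‖a‖ := norm_pos_iff.mpr ha
    positivity
  have hab' : a 0 * b 0 + a 1 * b 1 = 0 := by rw [← inner_eq2]; exact hab
  have hr0 : a 0 ^ 2 + b 0 ^ 2 = ℓ := by
    have h1 : ℓ * (b 0 ^ 2 - a 1 ^ 2) = 0 := by
      have e : a 0 * b 0 = - (a 1 * b 1) := by linarith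
      have e2 : a 0 ^ 2 * b 0 ^ 2 = a 1 ^ 2 * b 1 ^ 2 := by
        calc a 0 ^ 2 * b 0 ^ 2 = (a 0 * b 0) ^ 2 := by ring
          _ = (a 1 * b 1) ^ 2 := by rw [e]; ring
          _ = _ := by ring
      calc ℓ * (b 0 ^ 2 - a 1 ^ 2) = (a 0 ^ 2 + a 1 ^ 2) * b 0 ^ 2 - a 1 ^ 2 * ℓ := by
              rw [← hℓa]; ring
        _ = a 0 ^ 2 * b 0 ^ 2 + a 1 ^ 2 * b 0 ^ 2 - a 1 ^ 2 * (b 0 ^ 2 + b 1 ^ 2) := by
              rw [← hℓb]; ring
        _ = 0 := by rw [e2]; ring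
    have h2 : b 0 ^ 2 - a 1 ^ 2 = 0 := by
      rcases mul_eq_zero.mp h1 with h3 | h3
      · exact absurd h3 hℓpos.ne'
      · exact h3
    nlinarith
  have hr1 : a 1 ^ 2 + b 1 ^ 2 = ℓ := by nlinarith
  have hr01 : a 0 * a 1 + b 0 * b 1 = 0 := by
    have h1 : ℓ * (a 0 * a 1 + b 0 * b 1) = 0 := by
      calc ℓ * (a 0 * a 1 + b 0 * b 1) = (b 0 ^ 2 + b 1 ^ 2) * (a 0 * a 1) +
              (a 0 ^ 2 + a 1 ^ 2) * (b 0 * b 1) := by
              rw [← hℓa, ← hℓb]; ring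
        _ = (a 0 * b 0 + a 1 * b 1) * (a 1 * b 0 + a 0 * b 1) := by ring
        _ = 0 := by rw [hab']; ring
    rcases mul_eq_zero.mp h1 with h3 | h3
    · exact absurd h3 hℓpos.ne'
    · exact h3
  have hdet : (a 0 * b 1 - a 1 * b 0) ^ 2 = ℓ ^ 2 := by
    have : (a 0 * b 1 - a 1 * b 0) ^ 2 = (a 0 ^ 2 + a 1 ^ 2) * (b 0 ^ 2 + b 1 ^ 2)
        - (a 0 * b 0 + a 1 * b 1) ^ 2 := by ring
    rw [this, hab', ← hℓa, ← hℓb]; ring
  have hdetabs : |a 0 * b 1 - a 1 * b 0| = ℓ := by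
    have := abs_eq_abs.mpr (sq_eq_sq_iff_eq_or_eq_neg.mp hdet)
    rw [this, abs_of_pos hℓpos]
  exact ⟨hℓpos, hℓa, hℓb, hab', hr0, hr1, hr01, hdetabs⟩

/-- the normalisation of the axis -/
noncomputable def nrm (h : ℝ) (g : E2) : ℝ := Real.sqrt (1 + g 0 ^ 2 + h ^ 2 * g 1 ^ 2)

lemma nrm_pos (h : ℝ) (hh : 0 < h) (g : E2) : 0 < nrm h g :=
  Real.sqrt_pos.mpr (by positivity)

lemma nrm_sq (h : ℝ) (hh : 0 < h) (g : E2) : nrm h g ^ 2 = 1 + g 0 ^ 2 + h ^ 2 * g 1 ^ 2 :=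
  Real.sq_sqrt (by positivity)

/-- the unit axis -/
noncomputable def axis (h : ℝ) (g : E2) : E3 := !₂[1 / nrm h g, g 0 / nrm h g, h * g 1 / nrm h g]

lemma axis_zero (h : ℝ) (g : E2) : axis h g 0 = 1 / nrm h g := by simp [axis]
lemma axis_one (h : ℝ) (g : E2) : axis h g 1 = g 0 / nrm h g := by simp [axis]
lemma axis_two (h : ℝ) (g : E2) : axis h g 2 = h * g 1 / nrm h g := by simp [axis]

lemma axis_norm (h : ℝ) (hh : 0 < h) (g : E2) : ‖axis h g‖ = 1 := by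
  have hN := nrm_pos h hh g
  have : ‖axis h g‖ ^ 2 = 1 := by
    rw [norm_sq_eq, axis_zero, axis_one, axis_two]
    have := nrm_sq h hh g
    field_simp
    linarith
  have h0 : 0 ≤ ‖axis h g‖ := norm_nonneg _
  nlinarith

/-- the `a`-coordinate -/
noncomputable def crd (h : ℝ) (c a g : E2) (ℓ : ℝ) (z : E3) : ℝ :=
  ((z 1 - z 0 * g 0 - c 0) * a 0 + (z 2 / h - z 0 * g 1 - c 1) * a 1) / ℓ

lemma crd_continuous (h : ℝ) (c a g : E2) (ℓ : ℝ) : Continuous (crd h c a g ℓ) := by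
  unfold crd
  fun_prop

/-- the flat vector of `v` in three-space -/
noncomputable def flat (h : ℝ) (v : E2) : E3 := !₂[0, v 0, h * v 1]

lemma flat_zero (h : ℝ) (v : E2) : flat h v 0 = 0 := by simp [flat]
lemma flat_one (h : ℝ) (v : E2) : flat h v 1 = v 0 := by simp [flat]
lemma flat_two (h : ℝ) (v : E2) : flat h v 2 = h * v 1 := by simp [flat]

lemma decomp (h : ℝ) (hh : 0 < h) (c a b g : E2) (ℓ : ℝ) (hℓ : 0 < ℓ)
    (hr0 : a 0 ^ 2 + b 0 ^ 2 = ℓ) (hr1 : a 1 ^ 2 + b 1 ^ 2 = ℓ) (hr01 : a 0 * a 1 + b 0 * b 1 = 0)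
    (z : E3) :
    z = flat h c + crd h c a g ℓ z • flat h a + crd h c b g ℓ z • flat h b +
      (z 0 * nrm h g) • axis h g := by
  have hNne : nrm h g ≠ 0 := (nrm_pos h hh g).ne'
  have hℓne : ℓ ≠ 0 := hℓ.ne'
  have hhne : h ≠ 0 := hh.ne'
  set P := z 1 - z 0 * g 0 - c 0 with hP
  set Q := z 2 / h - z 0 * g 1 - c 1 with hQ
  have hA : crd h c a g ℓ z = (P * a 0 + Q * a 1) / ℓ := rfl
  have hB : crd h c b g ℓ z = (P * b 0 + Q * b 1) / ℓ := rfl
  have h1 : crd h c a g ℓ z * a 0 + crd h c b g ℓ z * b 0 = P := by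
    rw [hA, hB]
    field_simp
    linear_combination P * hr0 + Q * hr01
  have h2 : crd h c a g ℓ z * a 1 + crd h c b g ℓ z * b 1 = Q := by
    rw [hA, hB]
    field_simp
    linear_combination P * hr01 + Q * hr1
  ext i
  fin_cases i
  · show z 0 = (flat h c + crd h c a g ℓ z • flat h a + crd h c b g ℓ z • flat h b +
      (z 0 * nrm h g) • axis h g) 0
    simp only [PiLp.add_apply, PiLp.smul_apply, smul_eq_mul, flat_zero, axis_zero]
    field_simp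
    ring
  · show z 1 = (flat h c + crd h c a g ℓ z • flat h a + crd h c b g ℓ z • flat h b +
      (z 0 * nrm h g) • axis h g) 1
    simp only [PiLp.add_apply, PiLp.smul_apply, smul_eq_mul, flat_one, axis_one]
    have : z 0 * nrm h g * (g 0 / nrm h g) = z 0 * g 0 := by field_simp
    rw [this]
    linear_combination (-1 : ℝ) * h1 - hP
  · show z 2 = (flat h c + crd h c a g ℓ z • flat h a + crd h c b g ℓ z • flat h b +
      (z 0 * nrm h g) • axis h g) 2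
    simp only [PiLp.add_apply, PiLp.smul_apply, smul_eq_mul, flat_two, axis_two]
    have : z 0 * nrm h g * (h * g 1 / nrm h g) = h * (z 0 * g 1) := by field_simp
    rw [this]
    have e : z 2 = h * (Q + z 0 * g 1 + c 1) := by
      rw [hQ]; field_simp; ring
    rw [e]
    linear_combination (-h) * h2

/-- Coordinates of the projection of a point of the image of the square. -/
lemma crd_proj (h : ℝ) (hh : 0 < h) (c a b g : E2) (ℓ : ℝ) (hℓ : 0 < ℓ)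
    (hℓa : ℓ = a 0 ^ 2 + a 1 ^ 2) (hab : a 0 * b 0 + a 1 * b 1 = 0)
    (x ξ ζ : ℝ) (r : E2) (hr : r = c + ξ • a + ζ • b + x • g) :
    crd h c a g ℓ (proj (axis h g) (!₂[x, r 0, h * r 1] : E3)) = ξ := by
  have hNne : nrm h g ≠ 0 := (nrm_pos h hh g).ne'
  have hℓne : ℓ ≠ 0 := hℓ.ne'
  have hhne : h ≠ 0 := hh.ne'
  set z : E3 := !₂[x, r 0, h * r 1] with hz
  have hz0 : z 0 = x := by simp [hz]
  have hz1 : z 1 = r 0 := by simp [hz]
  have hz2 : z 2 = h * r 1 := by simp [hz]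
  have hr0' : r 0 = c 0 + ξ * a 0 + ζ * b 0 + x * g 0 := by rw [hr]; simp
  have hr1' : r 1 = c 1 + ξ * a 1 + ζ * b 1 + x * g 1 := by rw [hr]; simp
  set w : ℝ := inner ℝ z (axis h g) with hw
  have hy : proj (axis h g) z = z - w • axis h g := rfl
  have hy0 : (proj (axis h g) z) 0 = z 0 - w * axis h g 0 := by rw [hy]; simp
  have hy1 : (proj (axis h g) z) 1 = z 1 - w * axis h g 1 := by rw [hy]; simp
  have hy2 : (proj (axis h g) z) 2 = z 2 - w * axis h g 2 := by rw [hy]; simp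
  have e1 : (proj (axis h g) z) 1 - (proj (axis h g) z) 0 * g 0 - c 0 = ξ * a 0 + ζ * b 0 := by
    rw [hy0, hy1, hz0, hz1, hr0', axis_zero, axis_one]
    field_simp
    ring
  have e2 : (proj (axis h g) z) 2 / h - (proj (axis h g) z) 0 * g 1 - c 1 = ξ * a 1 + ζ * b 1 := by
    rw [hy0, hy2, hz0, hz2, hr1', axis_zero, axis_two]
    field_simp
    ring
  unfold crd
  rw [e1, e2]
  field_simp
  rw [hℓa]
  linear_combination ζ * hab

/-- One sheared square gives one cylinder with relatively open base. -/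
lemma one_cylinder (h : ℝ) (hh : 0 < h) (c a b g : E2) (ha : a ≠ 0) (hb : ‖b‖ = ‖a‖)
    (hab : inner ℝ a b = (0:ℝ)) (η : ℝ) (hη : 0 < η) :
    ∃ (u : E3) (B : Set E3), ‖u‖ = 1 ∧ Bornology.IsBounded B ∧
      (∃ O : Set E3, IsOpen O ∧ B = O ∩ {x | inner ℝ x u = (0:ℝ)}) ∧
      (∀ (x ξ ζ : ℝ) (r : E2), ξ ∈ Icc (0:ℝ) 1 → ζ ∈ Icc (0:ℝ) 1 →
        r = c + ξ • a + ζ • b + x • g →
        ∃ y ∈ B, ∃ τ : ℝ, (!₂[x, r 0, h * r 1] : E3) = y + τ • u) ∧
      ((μHE[2] : Measure E3) B).toReal ≤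
        (1 + 2 * η) ^ 2 * (h * (‖a‖ ^ 2 / Real.sqrt (1 + g 0 ^ 2 + h ^ 2 * g 1 ^ 2))) := by
  classical
  obtain ⟨hℓpos, hℓa, hℓb, hab', hr0, hr1, hr01, hdetabs⟩ := scaled_orth a b ha hb hab
  generalize hℓ : ‖a‖ ^ 2 = ℓ at *
  have hunorm := axis_norm h hh g
  have hNpos := nrm_pos h hh g
  have hNdef : Real.sqrt (1 + g 0 ^ 2 + h ^ 2 * g 1 ^ 2) = nrm h g := rfl
  rw [hNdef]
  let u : E3 := axis h g
  let σ := crd h c a g ℓ
  let θ := crd h c b g ℓ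
  let O : Set E3 := {z | σ z ∈ Ioo (-η) (1 + η) ∧ θ z ∈ Ioo (-η) (1 + η)}
  have hOopen : IsOpen O :=
    (isOpen_Ioo.preimage (crd_continuous h c a g ℓ)).inter
      (isOpen_Ioo.preimage (crd_continuous h c b g ℓ))
  let PA := proj u (flat h a)
  let PB := proj u (flat h b)
  let PC := proj u (flat h c)
  let k : ℝ := 1 + 2 * η
  have hkpos : 0 < k := by positivity
  let c2 : E3 := PC - η • PA - η • PB
  let Par : Set E3 := {x : E3 | ∃ s ∈ Icc (0:ℝ) 1, ∃ t ∈ Icc (0:ℝ) 1, x = c2 + s • (k • PA) + t • (k • PB)}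
  have hsubset : O ∩ {x | inner ℝ x u = (0:ℝ)} ⊆ Par := by
    rintro z ⟨⟨hz1, hz2⟩, hz3⟩
    have hz3' : inner ℝ z u = (0:ℝ) := hz3
    have hPz : proj u z = z := by simp [proj, hz3']
    have hexp : z = PC + σ z • PA + θ z • PB := by
      calc z = proj u z := hPz.symm
        _ = proj u (flat h c + σ z • flat h a + θ z • flat h b + (z 0 * nrm h g) • u) := by
            rw [← decomp h hh c a b g ℓ hℓpos hr0 hr1 hr01 z]
        _ = PC + σ z • PA + θ z • PB := by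
            simp only [proj_add, proj_smul, proj_self u hunorm, smul_zero, add_zero]
            rfl
    refine ⟨(σ z + η) / k, ⟨?_, ?_⟩, (θ z + η) / k, ⟨?_, ?_⟩, ?_⟩
    · have := hz1.1; apply div_nonneg _ hkpos.le; linarith
    · have := hz1.2; rw [div_le_one hkpos]; show _ ≤ 1 + 2 * η; linarith
    · have := hz2.1; apply div_nonneg _ hkpos.le; linarith
    · have := hz2.2; rw [div_le_one hkpos]; show _ ≤ 1 + 2 * η; linarith
    · have hkne : k ≠ 0 := hkpos.ne'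
      rw [smul_smul, smul_smul, div_mul_cancel₀ _ hkne, div_mul_cancel₀ _ hkne]
      conv_lhs => rw [hexp]
      show _ = (PC - η • PA - η • PB) + _ + _
      simp only [add_smul]
      abel
  have hParBdd : Bornology.IsBounded Par := by
    apply (Metric.isBounded_closedBall (x := (0:E3)) (r := ‖c2‖ + ‖k • PA‖ + ‖k • PB‖)).subset
    rintro x ⟨s, hs, t, ht, rfl⟩
    rw [mem_closedBall_zero_iff]
    have h1 : ‖s • (k • PA)‖ ≤ ‖k • PA‖ := by
      rw [norm_smul, Real.norm_eq_abs, abs_of_nonneg hs.1]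
      exact mul_le_of_le_one_left (norm_nonneg _) hs.2
    have h2 : ‖t • (k • PB)‖ ≤ ‖k • PB‖ := by
      rw [norm_smul, Real.norm_eq_abs, abs_of_nonneg ht.1]
      exact mul_le_of_le_one_left (norm_nonneg _) ht.2
    calc ‖c2 + s • (k • PA) + t • (k • PB)‖ ≤ ‖c2 + s • (k • PA)‖ + ‖t • (k • PB)‖ := norm_add_le _ _
      _ ≤ ‖c2‖ + ‖s • (k • PA)‖ + ‖t • (k • PB)‖ := by
          gcongr; exact norm_add_le _ _
      _ ≤ _ := by gcongr
  have hParArea : ((μHE[2] : Measure E3) Par) = ENNReal.ofReal ‖cross3 (k • PA) (k • PB)‖ :=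
    par_area c2 (k • PA) (k • PB)
  refine ⟨u, O ∩ {x | inner ℝ x u = (0:ℝ)}, hunorm, hParBdd.subset hsubset, ⟨O, hOopen, rfl⟩, ?_, ?_⟩
  · intro x ξ ζ r hξ hζ hr
    have hσval : σ (proj u (!₂[x, r 0, h * r 1] : E3)) = ξ :=
      crd_proj h hh c a b g ℓ hℓpos hℓa hab' x ξ ζ r hr
    have hθval : θ (proj u (!₂[x, r 0, h * r 1] : E3)) = ζ := by
      have hr' : r = c + ζ • b + ξ • a + x • g := by rw [hr]; abel
      have hab'' : b 0 * a 0 + b 1 * a 1 = 0 := by linarith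
      exact crd_proj h hh c b a g ℓ hℓpos hℓb hab'' x ζ ξ r hr'
    refine ⟨proj u (!₂[x, r 0, h * r 1] : E3), ⟨⟨?_, ?_⟩, inner_proj u _ hunorm⟩,
      inner ℝ (!₂[x, r 0, h * r 1] : E3) u, ?_⟩
    · show σ _ ∈ _
      rw [hσval]; exact ⟨by linarith [hξ.1], by linarith [hξ.2]⟩
    · show θ _ ∈ _
      rw [hθval]; exact ⟨by linarith [hζ.1], by linarith [hζ.2]⟩
    · simp [proj]
  · have hmono : ((μHE[2] : Measure E3) (O ∩ {x | inner ℝ x u = (0:ℝ)})).toReal ≤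
        ((μHE[2] : Measure E3) Par).toReal := by
      apply ENNReal.toReal_mono
      · rw [hParArea]; exact ENNReal.ofReal_ne_top
      · exact measure_mono hsubset
    refine hmono.trans (le_of_eq ?_)
    rw [hParArea, ENNReal.toReal_ofReal (norm_nonneg _), cross3_smul, norm_smul,
      norm_cross3_proj u _ _ hunorm, inner_eq]
    have e0 : cross3 (flat h a) (flat h b) 0 = h * (a 0 * b 1 - a 1 * b 0) := by
      simp [flat]; ring
    have e1 : cross3 (flat h a) (flat h b) 1 = 0 := by simp [flat]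
    have e2 : cross3 (flat h a) (flat h b) 2 = 0 := by simp [flat]
    rw [e0, e1, e2]
    show ‖k * k‖ * |h * (a 0 * b 1 - a 1 * b 0) * axis h g 0 + 0 * axis h g 1 + 0 * axis h g 2| = _
    rw [axis_zero]
    have hthis : h * (a 0 * b 1 - a 1 * b 0) * (1 / nrm h g) + 0 * axis h g 1 + 0 * axis h g 2 =
        (h / nrm h g) * (a 0 * b 1 - a 1 * b 0) := by ring
    rw [hthis, abs_mul, hdetabs, abs_of_pos (by positivity : 0 < h / nrm h g), Real.norm_eq_abs,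
      abs_of_pos (by positivity : 0 < k * k)]
    show (1 + 2 * η) * (1 + 2 * η) * _ = (1 + 2 * η) ^ 2 * _
    ring

/-- The implication S0326 ⟹ S0329 in abstract form. -/
theorem cylinders_of_squares (h : ℝ) (hh : 0 < h) (S : Set (ℝ × E2)) (I : ℝ) (hI : 0 ≤ I)
    (ε : ℝ) (hε : 0 < ε)
    (hcov : ∀ ε' : ℝ, 0 < ε' → ∃ (k : ℕ) (c a b g : Fin k → E2),
      (∀ i, a i ≠ 0 ∧ ‖b i‖ = ‖a i‖ ∧ inner ℝ (a i) (b i) = (0:ℝ)) ∧
      S ⊆ ⋃ i, {z : ℝ × E2 | ∃ x ∈ Set.Icc (0 : ℝ) 1, ∃ y ∈ Set.Icc (0 : ℝ) 1,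
          z.2 = c i + x • a i + y • b i + z.1 • g i} ∧
      ∑ i, ‖a i‖ ^ 2 / Real.sqrt (1 + (g i 0) ^ 2 + h ^ 2 * (g i 1) ^ 2) ≤ I + ε') :
    ∃ (k : ℕ) (u : Fin k → E3) (B : Fin k → Set E3),
      (∀ i, ‖u i‖ = 1) ∧
      (∀ i, Bornology.IsBounded (B i) ∧ ∃ O : Set E3, IsOpen O ∧
        B i = O ∩ {x | inner ℝ x (u i) = (0:ℝ)}) ∧
      {z : E3 | ∃ w ∈ S, z = !₂[w.1, w.2 0, h * w.2 1]} ⊆
        ⋃ i, {z : E3 | ∃ y ∈ B i, ∃ τ : ℝ, z = y + τ • u i} ∧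
      ∑ i, ((μHE[2] : Measure E3) (B i)).toReal ≤ h * I + ε := by
  -- choice of the parameters
  set ε' : ℝ := ε / (2 * h) with hε'
  have hε'pos : 0 < ε' := by positivity
  set T : ℝ := h * (I + ε') with hT
  have hTpos : 0 < T := by positivity
  have hTval : T = h * I + ε / 2 := by
    rw [hT, hε']; field_simp
  set δ : ℝ := ε / (2 * T) with hδ
  have hδpos : 0 < δ := by positivity
  set K : ℝ := Real.sqrt (1 + δ) with hK
  have hK2 : K ^ 2 = 1 + δ := Real.sq_sqrt (by positivity)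
  have hK1 : 1 < K := by
    have hKn : 0 ≤ K := Real.sqrt_nonneg _
    nlinarith
  set η : ℝ := (K - 1) / 2 with hη
  have hηpos : 0 < η := by rw [hη]; linarith
  have hkη : 1 + 2 * η = K := by rw [hη]; ring
  obtain ⟨k, c, a, b, g, hsq, hS, hsum⟩ := hcov ε' hε'pos
  have := fun i => one_cylinder h hh (c i) (a i) (b i) (g i) (hsq i).1 (hsq i).2.1 (hsq i).2.2 η hηpos
  choose u B hu hbdd hopen hcover harea using this
  refine ⟨k, u, B, hu, fun i => ⟨hbdd i, hopen i⟩, ?_, ?_⟩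
  · rintro z ⟨w, hw, rfl⟩
    obtain ⟨i, hi⟩ := mem_iUnion.mp (hS hw)
    obtain ⟨x, hx, y, hy, hxy⟩ := hi
    obtain ⟨y', hy', τ, hτ⟩ := hcover i w.1 x y w.2 hx hy hxy
    exact mem_iUnion.mpr ⟨i, y', hy', τ, hτ⟩
  · calc ∑ i, ((μHE[2] : Measure E3) (B i)).toReal
        ≤ ∑ i, (1 + 2 * η) ^ 2 * (h * (‖a i‖ ^ 2 / Real.sqrt (1 + (g i 0) ^ 2 + h ^ 2 * (g i 1) ^ 2))) :=
          Finset.sum_le_sum fun i _ => harea i
      _ = K ^ 2 * (h * ∑ i, ‖a i‖ ^ 2 / Real.sqrt (1 + (g i 0) ^ 2 + h ^ 2 * (g i 1) ^ 2)) := by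
          rw [hkη, Finset.mul_sum, Finset.mul_sum]
      _ ≤ K ^ 2 * (h * (I + ε')) := by gcongr
      _ = (1 + δ) * T := by rw [hK2]
      _ = T + ε / 2 := by
          rw [hδ]; field_simp
      _ = h * I + ε := by rw [hTval]; ring

end Crest.Agent.CylRuled
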