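import Crest.Agent.Lib.CylBasic

/-!
# The shadows of the standard regular tetrahedron

`shadow_lower`: every orthogonal projection of `stdK` has area at least `√2`.
`shadow_eq`: equality holds in direction `(1, 0, 0)`.
`shadow_ne_top`: every such shadow has finite area.
-/

set_option autoImplicit false
open MeasureTheory
open scoped ENNReal

namespace Crest.Agent.CylShadow

open Crest.Agent.CylArea

/-- The orthogonal projection onto `v^⊥` for a unit vector. -/
noncomputable def projL (v : E3) : E3 →ₗ[ℝ] E3 where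
  toFun y := y - inner ℝ y v • v
  map_add' x y := by
    simp [inner_add_left, add_smul]; abel
  map_smul' c x := by
    simp [inner_smul_left, smul_sub, mul_smul]

@[simp] lemma projL_apply (v y : E3) : projL v y = y - inner ℝ y v • v := rfl

/-- The unit norm condition in coordinates. -/
lemma unit_coord {v : E3} (hv : ‖v‖ = 1) : v 0 ^ 2 + v 1 ^ 2 + v 2 ^ 2 = 1 := by
  rw [← norm_sq_eq, hv]; norm_num

lemma norm_of_coord (x y : E3) (h0 : x 0 = y 0) (h1 : x 1 = y 1) (h2 : x 2 = y 2) : x = y := by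
  ext i; fin_cases i <;> simp [h0, h1, h2]

/-- Cross product of projections. -/
lemma cross3_proj_L (v u w : E3) (hv : ‖v‖ = 1) :
    cross3 (projL v u) (projL v w) = inner ℝ (cross3 u w) v • v := by
  have h := unit_coord hv
  apply norm_of_coord
  · simp [inner_eq]
    linear_combination (-(u 1 * w 2 - u 2 * w 1)) * h
  · simp [inner_eq]
    linear_combination (-(u 2 * w 0 - u 0 * w 2)) * h
  · simp [inner_eq]
    linear_combination (-(u 0 * w 1 - u 1 * w 0)) * h

lemma projL_sub (v x y : E3) : projL v x - projL v y = projL v (x - y) := (map_sub _ _ _).symm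

/-- The norm of the cross product of projections. -/
lemma norm_cross3_proj_L (v u w : E3) (hv : ‖v‖ = 1) :
    ‖cross3 (projL v u) (projL v w)‖ = |inner ℝ (cross3 u w) v| := by
  rw [cross3_proj_L v u w hv, norm_smul, hv, mul_one, Real.norm_eq_abs]

/-- A segment is null for the 2-dimensional Euclidean Hausdorff measure. -/
lemma segment_null (x y : E3) : (μHE[2] : Measure E3) (segment ℝ x y) = 0 := by
  rw [Measure.euclideanHausdorffMeasure_def, Measure.smul_apply]
  have key : (μH[((2 : ℕ) : ℝ)] : Measure E3) (segment ℝ x y) = 0 := by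
    have hL : LipschitzWith (‖y - x‖₊) (fun t : ℝ => x + t • (y - x)) := by
      apply LipschitzWith.of_dist_le_mul
      intro s t
      simp only [dist_add_left]
      rw [dist_eq_norm, ← sub_smul, norm_smul, dist_eq_norm, mul_comm]
      simp
    have hs : segment ℝ x y ⊆ (fun t : ℝ => x + t • (y - x)) '' Set.univ := by
      rw [segment_eq_image']
      exact Set.image_mono (Set.subset_univ _)
    have hd : dimH (segment ℝ x y) < ((2 : NNReal) : ENNReal) := by
      calc dimH (segment ℝ x y) ≤ dimH ((fun t : ℝ => x + t • (y - x)) '' Set.univ) := dimH_mono hs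
        _ ≤ dimH (Set.univ : Set ℝ) := hL.dimH_image_le _
        _ = 1 := by simp [Real.dimH_univ]
        _ < _ := by norm_num
    simpa using hausdorffMeasure_of_dimH_lt hd
  rw [key]; simp

/-- A linear functional `ℓ` that takes the constant value `κ` on `x, y`, is `≥ κ` on `conv {x, y, z}`
when `ℓ z ≥ κ`. -/
lemma mem_tri (x y z t : E3) (ht : t ∈ convexHull ℝ {x, y, z}) :
    ∃ u ∈ segment ℝ x y, ∃ a b : ℝ, 0 ≤ a ∧ 0 ≤ b ∧ a + b = 1 ∧ t = a • z + b • u := by
  have hswap : ({x, y, z} : Set E3) = insert z {x, y} := by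
    ext w; simp; tauto
  rw [hswap, convexHull_insert (Set.insert_nonempty _ _), convexHull_pair,
    convexJoin_singleton_left] at ht
  simp only [Set.mem_iUnion, exists_prop] at ht
  obtain ⟨u, hu, a, b, ha, hb, hab, rfl⟩ := ht
  exact ⟨u, hu, a, b, ha, hb, hab, rfl⟩

lemma ell_seg (ℓ : E3 →ₗ[ℝ] ℝ) (κ : ℝ) (x y u : E3) (hx : ℓ x = κ) (hy : ℓ y = κ)
    (hu : u ∈ segment ℝ x y) : ℓ u = κ := by
  obtain ⟨a, b, _, _, hab, rfl⟩ := hu
  simp [hx, hy, ← add_mul, hab]

/-- The intersection of two triangles with a common edge on opposite sides is null. -/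
lemma tri_inter_null (ℓ : E3 →ₗ[ℝ] ℝ) (κ : ℝ) (x y z z' : E3) (hx : ℓ x = κ) (hy : ℓ y = κ)
    (hz : κ < ℓ z) (hz' : ℓ z' < κ) :
    (μHE[2] : Measure E3) (convexHull ℝ {x, y, z} ∩ convexHull ℝ {x, y, z'}) = 0 := by
  apply measure_mono_null _ (segment_null x y)
  rintro t ⟨ht, ht'⟩
  obtain ⟨u, hu, a, b, ha, hb, hab, rfl⟩ := mem_tri x y z _ ht
  obtain ⟨u', hu', a', b', ha', hb', hab', he⟩ := mem_tri x y z' _ ht'
  have h1 : ℓ (a • z + b • u) = a * ℓ z + b * κ := by
    simp [ell_seg ℓ κ x y u hx hy hu]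
  have h2 : ℓ (a' • z' + b' • u') = a' * ℓ z' + b' * κ := by
    simp [ell_seg ℓ κ x y u' hx hy hu']
  rw [← he] at h2
  have hb1 : b = 1 - a := by linarith
  have hb1' : b' = 1 - a' := by linarith
  rw [h1] at h2
  subst hb1 hb1'
  have e : a * (ℓ z - κ) + a' * (κ - ℓ z') = 0 := by linear_combination h2
  have p1 : 0 ≤ a * (ℓ z - κ) := mul_nonneg ha (by linarith)
  have p2 : 0 ≤ a' * (κ - ℓ z') := mul_nonneg ha' (by linarith)
  have ha0 : a * (ℓ z - κ) = 0 := by linarith
  have : a = 0 := by
    rcases mul_eq_zero.1 ha0 with h | h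
    · exact h
    · linarith
  subst this
  simpa using hu

/-- Measurability of hulls of three points. -/
lemma hull_measurable (x y z : E3) : MeasurableSet (convexHull ℝ ({x, y, z} : Set E3)) := by
  have hfin : ({x, y, z} : Set E3).Finite := by simp
  exact (hfin.isCompact_convexHull ℝ).isClosed.measurableSet


/-- Two triangles with a common edge lying on opposite sides. -/
lemma tri_add_le (ℓ : E3 →ₗ[ℝ] ℝ) (κ : ℝ) (x y z z' : E3) (hx : ℓ x = κ) (hy : ℓ y = κ)
    (hz : κ < ℓ z) (hz' : ℓ z' < κ) :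
    (μHE[2] : Measure E3) (convexHull ℝ {x, y, z}) + μHE[2] (convexHull ℝ {x, y, z'}) ≤
      μHE[2] (convexHull ℝ {x, y, z} ∪ convexHull ℝ {x, y, z'}) := by
  have h := measure_union_add_inter (μ := (μHE[2] : Measure E3)) (convexHull ℝ ({x, y, z} : Set E3))
    (hull_measurable x y z')
  rw [tri_inter_null ℓ κ x y z z' hx hy hz hz', add_zero] at h
  exact h.ge

/-- The linear functional `t ↦ ⟪d × t, v⟫`. -/
noncomputable def ellL (d v : E3) : E3 →ₗ[ℝ] ℝ where
  toFun t := inner ℝ (cross3 d t) v
  map_add' x y := by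
    simp only [inner_eq, cross3_zero, cross3_one, cross3_two, PiLp.add_apply]; ring
  map_smul' c x := by
    simp only [inner_eq, cross3_zero, cross3_one, cross3_two, PiLp.smul_apply, smul_eq_mul, RingHom.id_apply]
    ring

lemma ellL_apply (d v t : E3) : ellL d v t = inner ℝ (cross3 d t) v := rfl

/-- `ℓ(π w) = ℓ(w)`. -/
lemma ellL_proj (d v w : E3) : ellL d v (projL v w) = inner ℝ (cross3 d w) v := by
  simp only [ellL_apply, inner_eq, cross3_zero, cross3_one, cross3_two, projL_apply, PiLp.sub_apply,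
    PiLp.smul_apply, smul_eq_mul]
  ring

section areas

/-- The projected triangle's area. -/
lemma proj_tri_area (v : E3) (hv : ‖v‖ = 1) (p q r : E3) :
    (μHE[2] : Measure E3) (convexHull ℝ {projL v p, projL v q, projL v r}) =
      ENNReal.ofReal (|inner ℝ (cross3 (q - p) (r - p)) v| / 2) := by
  rw [tri_area, projL_sub, projL_sub, norm_cross3_proj_L _ _ _ hv]

/-- The sum of the areas of two projected triangles on opposite sides of a common edge. -/
lemma proj_pair_le (v : E3) (hv : ‖v‖ = 1) (X Y Z Z' : E3)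
    (hs : inner ℝ (cross3 (Y - X) (Z - X)) v * inner ℝ (cross3 (Y - X) (Z' - X)) v ≤ (0 : ℝ)) :
    ENNReal.ofReal (|inner ℝ (cross3 (Y - X) (Z - X)) v| / 2) +
        ENNReal.ofReal (|inner ℝ (cross3 (Y - X) (Z' - X)) v| / 2) ≤
      (μHE[2] : Measure E3) (convexHull ℝ {projL v X, projL v Y, projL v Z} ∪
        convexHull ℝ {projL v X, projL v Y, projL v Z'}) := by
  set s : ℝ := inner ℝ (cross3 (Y - X) (Z - X)) v with hsdef
  set s' : ℝ := inner ℝ (cross3 (Y - X) (Z' - X)) v with hsdef'
  have hT := proj_tri_area v hv X Y Z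
  have hT' := proj_tri_area v hv X Y Z'
  rw [← hsdef] at hT
  rw [← hsdef'] at hT'
  have key : ∀ W : E3, ellL (Y - X) v (projL v W) - ellL (Y - X) v (projL v X) =
      inner ℝ (cross3 (Y - X) (W - X)) v := by
    intro W
    rw [ellL_proj, ellL_proj]
    simp only [inner_eq, cross3_zero, cross3_one, cross3_two, PiLp.sub_apply]
    ring
  have hYk : ellL (Y - X) v (projL v Y) = ellL (Y - X) v (projL v X) := by
    have := key Y
    have h0 : inner ℝ (cross3 (Y - X) (Y - X)) v = (0 : ℝ) := by
      simp only [inner_eq, cross3_zero, cross3_one, cross3_two, PiLp.sub_apply]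
      ring
    rw [h0] at this
    linarith
  rcases lt_trichotomy s 0 with h | h | h
  · -- `s < 0`, hence `s' ≥ 0`
    have hs'0 : 0 ≤ s' := by
      by_contra hc
      push Not at hc
      have := mul_pos_of_neg_of_neg h hc
      linarith
    rcases hs'0.eq_or_lt with h0 | h0
    · have hT'0 : (μHE[2] : Measure E3) (convexHull ℝ {projL v X, projL v Y, projL v Z'}) = 0 := by
        rw [hT', ← h0]; simp
      rw [← hT, ← hT', hT'0, add_zero]
      exact measure_mono Set.subset_union_left
    · have hz : ellL (Y - X) v (projL v Z) < ellL (Y - X) v (projL v X) := by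
        have := key Z
        rw [← hsdef] at this
        linarith
      have hz' : ellL (Y - X) v (projL v X) < ellL (Y - X) v (projL v Z') := by
        have := key Z'
        rw [← hsdef'] at this
        linarith
      have := tri_add_le (ellL (Y - X) v) _ (projL v X) (projL v Y) (projL v Z') (projL v Z)
        rfl hYk hz' hz
      rw [Set.union_comm, add_comm, ← hT, ← hT']
      exact this
  · have hT0 : (μHE[2] : Measure E3) (convexHull ℝ {projL v X, projL v Y, projL v Z}) = 0 := by
      rw [hT, h]; simp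
    rw [← hT, ← hT', hT0, zero_add]
    exact measure_mono Set.subset_union_right
  · have hs'0 : s' ≤ 0 := by
      by_contra hc
      push Not at hc
      have := mul_pos h hc
      linarith
    rcases hs'0.eq_or_lt with h0 | h0
    · have hT'0 : (μHE[2] : Measure E3) (convexHull ℝ {projL v X, projL v Y, projL v Z'}) = 0 := by
        rw [hT', h0]; simp
      rw [← hT, ← hT', hT'0, add_zero]
      exact measure_mono Set.subset_union_left
    · have hz : ellL (Y - X) v (projL v X) < ellL (Y - X) v (projL v Z) := by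
        have := key Z
        rw [← hsdef] at this
        linarith
      have hz' : ellL (Y - X) v (projL v Z') < ellL (Y - X) v (projL v X) := by
        have := key Z'
        rw [← hsdef'] at this
        linarith
      have := tri_add_le (ellL (Y - X) v) _ (projL v X) (projL v Y) (projL v Z) (projL v Z')
        rfl hYk hz hz'
      rw [← hT, ← hT']
      exact this

end areas

/-- The vertices. -/
noncomputable def V1 : E3 := !₂[1, 0, 0]
noncomputable def V2 : E3 := !₂[-1, 0, 0]
noncomputable def V3 : E3 := !₂[0, 1, Real.sqrt 2]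
noncomputable def V4 : E3 := !₂[0, -1, Real.sqrt 2]

/-- The vertex set. -/
noncomputable def VS : Set E3 := {V1, V2, V3, V4}

/-- The tetrahedron. -/
noncomputable def K : Set E3 := convexHull ℝ VS

lemma K_eq : K = convexHull ℝ {!₂[1, 0, 0], !₂[-1, 0, 0], !₂[0, 1, Real.sqrt 2], !₂[0, -1, Real.sqrt 2]} := rfl

section main

/-- One projected face gives a lower bound. -/
lemma single_le (v : E3) (hv : ‖v‖ = 1) (p q r : E3) (hp : p ∈ VS) (hq : q ∈ VS) (hr : r ∈ VS) :
    ENNReal.ofReal (|inner ℝ (cross3 (q - p) (r - p)) v| / 2) ≤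
      (μHE[2] : Measure E3) (projL v '' K) := by
  rw [← proj_tri_area v hv p q r]
  apply measure_mono
  rw [K, LinearMap.image_convexHull]
  apply convexHull_mono
  rintro w (rfl | rfl | rfl)
  · exact ⟨p, hp, rfl⟩
  · exact ⟨q, hq, rfl⟩
  · exact ⟨r, hr, rfl⟩

/-- Two projected faces give a lower bound. -/
lemma pair_le (v : E3) (hv : ‖v‖ = 1) (X Y Z Z' : E3) (hX : X ∈ VS) (hY : Y ∈ VS) (hZ : Z ∈ VS)
    (hZ' : Z' ∈ VS)
    (hs : inner ℝ (cross3 (Y - X) (Z - X)) v * inner ℝ (cross3 (Y - X) (Z' - X)) v ≤ (0 : ℝ)) :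
    ENNReal.ofReal (|inner ℝ (cross3 (Y - X) (Z - X)) v| / 2) +
        ENNReal.ofReal (|inner ℝ (cross3 (Y - X) (Z' - X)) v| / 2) ≤
      (μHE[2] : Measure E3) (projL v '' K) := by
  refine (proj_pair_le v hv X Y Z Z' hs).trans ?_
  apply measure_mono
  rw [K, LinearMap.image_convexHull]
  apply Set.union_subset
  · apply convexHull_mono
    rintro w (rfl | rfl | rfl)
    · exact ⟨X, hX, rfl⟩
    · exact ⟨Y, hY, rfl⟩
    · exact ⟨Z, hZ, rfl⟩
  · apply convexHull_mono
    rintro w (rfl | rfl | rfl)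
    · exact ⟨X, hX, rfl⟩
    · exact ⟨Y, hY, rfl⟩
    · exact ⟨Z', hZ', rfl⟩

end main

lemma V1_mem : V1 ∈ VS := by simp [VS]
lemma V2_mem : V2 ∈ VS := by simp [VS]
lemma V3_mem : V3 ∈ VS := by simp [VS]
lemma V4_mem : V4 ∈ VS := by simp [VS]

@[simp] lemma V1_0 : V1 0 = 1 := by simp [V1]
@[simp] lemma V1_1 : V1 1 = 0 := by simp [V1]
@[simp] lemma V1_2 : V1 2 = 0 := by simp [V1]
@[simp] lemma V2_0 : V2 0 = -1 := by simp [V2]
@[simp] lemma V2_1 : V2 1 = 0 := by simp [V2]
@[simp] lemma V2_2 : V2 2 = 0 := by simp [V2]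
@[simp] lemma V3_0 : V3 0 = 0 := by simp [V3]
@[simp] lemma V3_1 : V3 1 = 1 := by simp [V3]
@[simp] lemma V3_2 : V3 2 = Real.sqrt 2 := by simp [V3]
@[simp] lemma V4_0 : V4 0 = 0 := by simp [V4]
@[simp] lemma V4_1 : V4 1 = -1 := by simp [V4]
@[simp] lemma V4_2 : V4 2 = Real.sqrt 2 := by simp [V4]

/-- Values of the signed doubled area functional. -/
lemma s123 (v : E3) : inner ℝ (cross3 (V2 - V1) (V3 - V1)) v =
    2 * (Real.sqrt 2 * v 1 - v 2) := by
  simp [inner_eq]; ring
lemma s124 (v : E3) : inner ℝ (cross3 (V2 - V1) (V4 - V1)) v =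
    2 * (Real.sqrt 2 * v 1 + v 2) := by
  simp [inner_eq]; ring
lemma s341 (v : E3) : inner ℝ (cross3 (V4 - V3) (V1 - V3)) v =
    2 * (Real.sqrt 2 * v 0 + v 2) := by
  simp [inner_eq]; ring
lemma s342 (v : E3) : inner ℝ (cross3 (V4 - V3) (V2 - V3)) v =
    2 * (Real.sqrt 2 * v 0 - v 2) := by
  simp [inner_eq]; ring
lemma s132 (v : E3) : inner ℝ (cross3 (V3 - V1) (V2 - V1)) v =
    -(2 * (Real.sqrt 2 * v 1 - v 2)) := by
  simp [inner_eq]; ring
lemma s134 (v : E3) : inner ℝ (cross3 (V3 - V1) (V4 - V1)) v =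
    2 * (Real.sqrt 2 * v 0 + v 2) := by
  simp [inner_eq]; ring
lemma s142 (v : E3) : inner ℝ (cross3 (V4 - V1) (V2 - V1)) v =
    -(2 * (Real.sqrt 2 * v 1 + v 2)) := by
  simp [inner_eq]; ring
lemma s143 (v : E3) : inner ℝ (cross3 (V4 - V1) (V3 - V1)) v =
    -(2 * (Real.sqrt 2 * v 0 + v 2)) := by
  simp [inner_eq]; ring


lemma sqrt_two_le {X : ℝ} (h0 : 0 ≤ X) (h : 2 ≤ X ^ 2) : Real.sqrt 2 ≤ X :=
  Real.sqrt_le_iff.2 ⟨h0, h⟩

/-- The real case analysis. -/
lemma real_cases (a b c : ℝ) (h : a ^ 2 + b ^ 2 + 2 * c ^ 2 = 2) :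
    Real.sqrt 2 ≤ |b - c| ∨ Real.sqrt 2 ≤ |b + c| ∨ Real.sqrt 2 ≤ |a + c| ∨ Real.sqrt 2 ≤ |a - c| ∨
    ((b - c) * (b + c) ≤ 0 ∧ Real.sqrt 2 ≤ |b - c| + |b + c|) ∨
    (0 ≤ (b - c) * (a + c) ∧ Real.sqrt 2 ≤ |b - c| + |a + c|) ∨
    ((b + c) * (a + c) ≤ 0 ∧ Real.sqrt 2 ≤ |b + c| + |a + c|) := by
  by_cases hb : b ^ 2 ≤ c ^ 2
  · by_cases ha : a ^ 2 ≤ c ^ 2
    · -- the two faces with edge V₁V₂
      right; right; right; right; left
      refine ⟨by nlinarith, ?_⟩
      apply sqrt_two_le (by positivity)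
      have h1 : |(b + c) - (b - c)| ≤ |b + c| + |b - c| := abs_sub _ _
      have h2 : (b + c) - (b - c) = 2 * c := by ring
      rw [h2] at h1
      have h3 : (2 * c) ^ 2 ≤ (|b + c| + |b - c|) ^ 2 := by
        rw [← sq_abs (2 * c)]
        exact pow_le_pow_left₀ (abs_nonneg _) h1 2
      nlinarith
    · push Not at ha
      have hac : |c| ≤ |a| := sq_le_sq.1 ha.le
      have hac2 : c ^ 2 ≤ |a * c| := by
        rw [abs_mul, ← sq_abs c]
        nlinarith [abs_nonneg c, abs_nonneg a]
      by_cases hs : 0 ≤ a * c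
      · right; right; left
        apply sqrt_two_le (abs_nonneg _)
        rw [sq_abs]
        rw [abs_of_nonneg hs] at hac2
        nlinarith
      · push Not at hs
        right; right; right; left
        apply sqrt_two_le (abs_nonneg _)
        rw [sq_abs]
        rw [abs_of_neg hs] at hac2
        nlinarith
  · push Not at hb
    by_cases ha : a ^ 2 ≤ c ^ 2
    · have hbc : |c| ≤ |b| := sq_le_sq.1 hb.le
      have hbc2 : c ^ 2 ≤ |b * c| := by
        rw [abs_mul, ← sq_abs c]
        nlinarith [abs_nonneg c, abs_nonneg b]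
      by_cases hs : 0 ≤ b * c
      · right; left
        apply sqrt_two_le (abs_nonneg _)
        rw [sq_abs]
        rw [abs_of_nonneg hs] at hbc2
        nlinarith
      · push Not at hs
        left
        apply sqrt_two_le (abs_nonneg _)
        rw [sq_abs]
        rw [abs_of_neg hs] at hbc2
        nlinarith
    · push Not at ha
      have habsa : |c| < |a| := sq_lt_sq.1 ha
      have habsb : |c| < |b| := sq_lt_sq.1 hb
      have hcc : c ^ 2 = |c| * |c| := by rw [← pow_two, sq_abs]
      have h0c := abs_nonneg c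
      have hc1 := le_abs_self c
      have hc2 := neg_abs_le c
      rcases le_or_gt 0 a with ha0 | ha0
      · rw [abs_of_nonneg ha0] at habsa
        rcases le_or_gt 0 b with hb0 | hb0
        · rw [abs_of_nonneg hb0] at habsb
          right; right; right; right; right; left
          have e1 : 0 ≤ b - c := by linarith
          have e2 : 0 ≤ a + c := by linarith
          refine ⟨mul_nonneg e1 e2, ?_⟩
          rw [abs_of_nonneg e1, abs_of_nonneg e2]
          apply sqrt_two_le (by linarith)
          nlinarith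
        · rw [abs_of_neg hb0] at habsb
          right; right; right; right; right; right
          have e1 : b + c ≤ 0 := by linarith
          have e2 : 0 ≤ a + c := by linarith
          refine ⟨mul_nonpos_of_nonpos_of_nonneg e1 e2, ?_⟩
          rw [abs_of_nonpos e1, abs_of_nonneg e2]
          apply sqrt_two_le (by linarith)
          nlinarith
      · rw [abs_of_neg ha0] at habsa
        rcases le_or_gt 0 b with hb0 | hb0
        · rw [abs_of_nonneg hb0] at habsb
          right; right; right; right; right; right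
          have e1 : 0 ≤ b + c := by linarith
          have e2 : a + c ≤ 0 := by linarith
          refine ⟨mul_nonpos_of_nonneg_of_nonpos e1 e2, ?_⟩
          rw [abs_of_nonneg e1, abs_of_nonpos e2]
          apply sqrt_two_le (by linarith)
          nlinarith
        · rw [abs_of_neg hb0] at habsb
          right; right; right; right; right; left
          have e1 : b - c ≤ 0 := by linarith
          have e2 : a + c ≤ 0 := by linarith
          refine ⟨mul_nonneg_of_nonpos_of_nonpos e1 e2, ?_⟩
          rw [abs_of_nonpos e1, abs_of_nonpos e2]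
          apply sqrt_two_le (by linarith)
          nlinarith

lemma half_abs (x : ℝ) : |2 * x| / 2 = |x| := by
  rw [abs_mul]; simp

/-- The shadow lower bound, with the area formula as a hypothesis. -/
theorem shadow_lower_aux (v : E3) (hv : ‖v‖ = 1) :
    ENNReal.ofReal (Real.sqrt 2) ≤ (μHE[2] : Measure E3) (projL v '' K) := by
  have hu := unit_coord hv
  set a : ℝ := Real.sqrt 2 * v 0 with ha
  set b : ℝ := Real.sqrt 2 * v 1 with hb
  set c : ℝ := v 2 with hc
  have hs2 : Real.sqrt 2 ^ 2 = 2 := Real.sq_sqrt (by norm_num)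
  have hcase : a ^ 2 + b ^ 2 + 2 * c ^ 2 = 2 := by
    rw [ha, hb, mul_pow, mul_pow, hs2]
    linear_combination 2 * hu
  have S1 : ENNReal.ofReal |b - c| ≤ (μHE[2] : Measure E3) (projL v '' K) := by
    have := single_le v hv V1 V2 V3 V1_mem V2_mem V3_mem
    rwa [s123, half_abs] at this
  have S2 : ENNReal.ofReal |b + c| ≤ (μHE[2] : Measure E3) (projL v '' K) := by
    have := single_le v hv V1 V2 V4 V1_mem V2_mem V4_mem
    rwa [s124, half_abs] at this
  have S3 : ENNReal.ofReal |a + c| ≤ (μHE[2] : Measure E3) (projL v '' K) := by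
    have := single_le v hv V3 V4 V1 V3_mem V4_mem V1_mem
    rwa [s341, half_abs] at this
  have S4 : ENNReal.ofReal |a - c| ≤ (μHE[2] : Measure E3) (projL v '' K) := by
    have := single_le v hv V3 V4 V2 V3_mem V4_mem V2_mem
    rwa [s342, half_abs] at this
  have P1 : (b - c) * (b + c) ≤ 0 →
      ENNReal.ofReal (|b - c| + |b + c|) ≤ (μHE[2] : Measure E3) (projL v '' K) := by
    intro hp
    have := pair_le v hv V1 V2 V3 V4 V1_mem V2_mem V3_mem V4_mem
      (by rw [s123, s124]; nlinarith)
    rw [s123, s124, half_abs, half_abs] at this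
    rwa [ENNReal.ofReal_add (abs_nonneg _) (abs_nonneg _)]
  have P2 : 0 ≤ (b - c) * (a + c) →
      ENNReal.ofReal (|b - c| + |a + c|) ≤ (μHE[2] : Measure E3) (projL v '' K) := by
    intro hp
    have := pair_le v hv V1 V3 V2 V4 V1_mem V3_mem V2_mem V4_mem
      (by rw [s132, s134]; nlinarith)
    rw [s132, s134, abs_neg, half_abs, half_abs] at this
    rwa [ENNReal.ofReal_add (abs_nonneg _) (abs_nonneg _)]
  have P3 : (b + c) * (a + c) ≤ 0 →
      ENNReal.ofReal (|b + c| + |a + c|) ≤ (μHE[2] : Measure E3) (projL v '' K) := by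
    intro hp
    have := pair_le v hv V1 V4 V2 V3 V1_mem V4_mem V2_mem V3_mem
      (by rw [s142, s143]; nlinarith)
    rw [s142, s143, abs_neg, abs_neg, half_abs, half_abs] at this
    rwa [ENNReal.ofReal_add (abs_nonneg _) (abs_nonneg _)]
  rcases real_cases a b c hcase with h | h | h | h | ⟨h1, h⟩ | ⟨h1, h⟩ | ⟨h1, h⟩
  · exact (ENNReal.ofReal_le_ofReal h).trans S1
  · exact (ENNReal.ofReal_le_ofReal h).trans S2
  · exact (ENNReal.ofReal_le_ofReal h).trans S3
  · exact (ENNReal.ofReal_le_ofReal h).trans S4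
  · exact (ENNReal.ofReal_le_ofReal h).trans (P1 h1)
  · exact (ENNReal.ofReal_le_ofReal h).trans (P2 h1)
  · exact (ENNReal.ofReal_le_ofReal h).trans (P3 h1)

/-- The shadow of `K` in direction `e₀` is a triangle of area `√2`. -/
theorem shadow_eq_aux :
    (μHE[2] : Measure E3) (projL (!₂[1, 0, 0] : E3) '' K) = ENNReal.ofReal (Real.sqrt 2) := by
  set e : E3 := !₂[1, 0, 0] with he
  have e0 : e 0 = 1 := by simp [he]
  have e1 : e 1 = 0 := by simp [he]
  have e2 : e 2 = 0 := by simp [he]
  have hP1 : projL e V1 = 0 := by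
    apply norm_of_coord <;> simp [inner_eq, e0, e1, e2]
  have hP2 : projL e V2 = 0 := by
    apply norm_of_coord <;> simp [inner_eq, e0, e1, e2]
  have hP3 : projL e V3 = V3 := by
    apply norm_of_coord <;> simp [inner_eq, e0, e1, e2]
  have hP4 : projL e V4 = V4 := by
    apply norm_of_coord <;> simp [inner_eq, e0, e1, e2]
  have himg : projL e '' K = convexHull ℝ {(0 : E3), V3, V4} := by
    rw [K, LinearMap.image_convexHull]
    congr 1
    ext w
    simp only [VS, Set.image_insert_eq, Set.image_singleton, hP1, hP2, hP3, hP4, Set.mem_insert_iff,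
      Set.mem_singleton_iff]
    tauto
  rw [himg, tri_area]
  congr 1
  have hs2 : Real.sqrt 2 ^ 2 = 2 := Real.sq_sqrt (by norm_num)
  have hn : ‖cross3 (V3 - 0) (V4 - 0)‖ ^ 2 = (2 * Real.sqrt 2) ^ 2 := by
    rw [norm_sq_eq]
    simp
    nlinarith
  have hn' : ‖cross3 (V3 - 0) (V4 - 0)‖ = 2 * Real.sqrt 2 :=
    (pow_left_inj₀ (norm_nonneg _) (by positivity) (by norm_num)).1 hn
  rw [hn']; ring


/-- Every orthogonal projection of the tetrahedron has area at least `√2`. -/
theorem shadow_lower (v : E3) (hv : ‖v‖ = 1) :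
    ENNReal.ofReal (Real.sqrt 2) ≤
      (μHE[2] : Measure E3) ((fun y => y - inner ℝ y v • v) '' stdK) :=
  shadow_lower_aux v hv

/-- The value `√2` is attained. -/
theorem shadow_eq : ∃ v : E3, ‖v‖ = 1 ∧
    (μHE[2] : Measure E3) ((fun y => y - inner ℝ y v • v) '' stdK) =
      ENNReal.ofReal (Real.sqrt 2) := by
  refine ⟨!₂[1, 0, 0], ?_, shadow_eq_aux⟩
  have h : ‖(!₂[1, 0, 0] : E3)‖ ^ 2 = 1 ^ 2 := by
    rw [norm_sq_eq]; simp
  exact (pow_left_inj₀ (norm_nonneg _) (by norm_num) (by norm_num)).1 h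

/-- Every shadow has finite area. -/
theorem shadow_ne_top (v : E3) (hv : ‖v‖ = 1) :
    (μHE[2] : Measure E3) ((fun y => y - inner ℝ y v • v) '' stdK) ≠ ⊤ := by
  have hv0 : v ≠ 0 := by
    intro h; rw [h] at hv; simp at hv
  let W : Submodule ℝ E3 := (Submodule.span ℝ {v})ᗮ
  haveI : Fact (Module.finrank ℝ E3 = 2 + 1) := ⟨by simp⟩
  have hfin : Module.finrank ℝ W = 2 := Submodule.finrank_orthogonal_span_singleton hv0
  have hmaps : (fun y => y - inner ℝ y v • v) '' stdK ⊆ (W : Set E3) := by
    rintro _ ⟨y, -, rfl⟩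
    rw [SetLike.mem_coe, Submodule.mem_orthogonal_singleton_iff_inner_right]
    rw [inner_sub_right, inner_smul_right, real_inner_self_eq_norm_sq, hv, real_inner_comm]
    simp
  have hK : IsCompact stdK := by
    apply Set.Finite.isCompact_convexHull
    simp
  have hC : IsCompact ((fun y => y - inner ℝ y v • v) '' stdK) :=
    hK.image (by fun_prop)
  have iso : Isometry (Subtype.val : W → E3) := isometry_subtype_coe
  let S : Set W := Subtype.val ⁻¹' ((fun y => y - inner ℝ y v • v) '' stdK)
  have hS : IsCompact S := iso.isClosedEmbedding.isCompact_preimage hC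
  have himg : Subtype.val '' S = (fun y => y - inner ℝ y v • v) '' stdK :=
    Set.image_preimage_eq_of_subset (by simpa using hmaps)
  rw [← himg, iso.euclideanHausdorffMeasure_image]
  haveI : (μHE[2] : Measure W).IsAddHaarMeasure := by
    have := MeasureTheory.isAddHaarMeasure_euclideanHausdorffMeasure (E := W)
    rwa [hfin] at this
  exact hS.measure_lt_top.ne

end Crest.Agent.CylShadow
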