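import Crest.Agent.Lib.CylShadow

/-!
# Similarities between regular tetrahedra

A regular tetrahedron of side `ℓ` in `E3` is the image of `stdK` under a similarity
`x ↦ σ • Q x + b`, with `σ = ℓ / 2` and `Q` a linear isometry.  We transfer shadows and
cylinder covers along such a similarity.
-/

set_option autoImplicit false
open MeasureTheory
open scoped ENNReal

namespace Crest.Agent.CylSim

open Crest.Agent.CylArea Crest.Agent.CylShadow

/-! ### The scaling of areas -/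

/-- The similarity. -/
noncomputable def simMap (σ : ℝ) (Q : E3 ≃ₗᵢ[ℝ] E3) (b : E3) (x : E3) : E3 := σ • Q x + b

/-- The similarity as an affine map. -/
noncomputable def simAff (σ : ℝ) (Q : E3 ≃ₗᵢ[ℝ] E3) (b : E3) : E3 →ᵃ[ℝ] E3 where
  toFun := simMap σ Q b
  linear := σ • (Q.toLinearEquiv : E3 →ₗ[ℝ] E3)
  map_vadd' p v := by
    simp [simMap, smul_add]
    abel

lemma simAff_coe (σ : ℝ) (Q : E3 ≃ₗᵢ[ℝ] E3) (b : E3) : ⇑(simAff σ Q b) = simMap σ Q b := rfl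

lemma image_simMap_convexHull (σ : ℝ) (Q : E3 ≃ₗᵢ[ℝ] E3) (b : E3) (s : Set E3) :
    simMap σ Q b '' convexHull ℝ s = convexHull ℝ (simMap σ Q b '' s) := by
  rw [← simAff_coe, AffineMap.image_convexHull]

/-- The measure of a similar image. -/
lemma measure_simMap_image (σ : ℝ) (hσ : 0 < σ) (Q : E3 ≃ₗᵢ[ℝ] E3) (b : E3) (A : Set E3) :
    (μHE[2] : Measure E3) (simMap σ Q b '' A) = ENNReal.ofReal (σ ^ 2) * μHE[2] A := by
  have h1 : simMap σ Q b '' A = (fun y => y + b) '' ((fun y => σ • y) '' (Q '' A)) := by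
    rw [Set.image_image, Set.image_image]; rfl
  have hiso : Isometry (fun y : E3 => y + b) := (IsometryEquiv.addRight b).isometry
  rw [h1, hiso.euclideanHausdorffMeasure_image, Set.image_smul,
    Measure.euclideanHausdorffMeasure_smul₀ 2 hσ.ne', Q.isometry.euclideanHausdorffMeasure_image]
  rw [ENNReal.smul_def, smul_eq_mul]
  congr 1
  rw [ENNReal.ofReal_pow hσ.le]
  simp only [ENNReal.coe_pow]
  congr 1
  rw [ENNReal.ofReal, Real.toNNReal_of_nonneg hσ.le]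
  congr 1
  ext
  simp [abs_of_pos hσ]

/-- Shadow of a similar image: the shadow along `v` of `T '' S` is the similar image of the shadow
along `Q⁻¹ v` of `S`. -/
lemma shadow_simMap (σ : ℝ) (Q : E3 ≃ₗᵢ[ℝ] E3) (b v : E3) (S : Set E3) :
    (fun y => y - inner ℝ y v • v) '' (simMap σ Q b '' S) =
      simMap σ Q (b - inner ℝ b v • v) ''
        ((fun y => y - inner ℝ y (Q.symm v) • (Q.symm v)) '' S) := by
  rw [Set.image_image, Set.image_image]
  apply Set.image_congr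
  intro x _
  have h1 : inner ℝ (Q x) v = inner ℝ x (Q.symm v) := by
    rw [← Q.inner_map_map x (Q.symm v)]; simp
  have h2 : Q (x - inner ℝ x (Q.symm v) • Q.symm v) = Q x - inner ℝ x (Q.symm v) • v := by
    rw [map_sub, map_smul, LinearIsometryEquiv.apply_symm_apply]
  show (σ • Q x + b) - inner ℝ (σ • Q x + b) v • v =
    σ • Q (x - inner ℝ x (Q.symm v) • Q.symm v) + (b - inner ℝ b v • v)
  rw [h2, inner_add_left, real_inner_smul_left, h1]
  module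

/-- The norm of a unit vector is preserved by `Q.symm`. -/
lemma norm_symm (Q : E3 ≃ₗᵢ[ℝ] E3) (v : E3) : ‖Q.symm v‖ = ‖v‖ := Q.symm.norm_map v

/-! ### The reduction of a regular tetrahedron -/

/-- The dual basis vector `g₁`. -/
noncomputable def g1 : E3 := !₂[-(1 / 2), 0, -(1 / (2 * Real.sqrt 2))]
noncomputable def g2 : E3 := !₂[0, 1 / 2, 1 / (2 * Real.sqrt 2)]
noncomputable def g3 : E3 := !₂[0, -(1 / 2), 1 / (2 * Real.sqrt 2)]

/-- The linear map sending the standard edge vectors to `B₁, B₂, B₃`. -/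
noncomputable def Qmap (B1 B2 B3 : E3) : E3 →ₗ[ℝ] E3 where
  toFun x := inner ℝ x g1 • B1 + inner ℝ x g2 • B2 + inner ℝ x g3 • B3
  map_add' x y := by
    simp only [inner_add_left, add_smul]; abel
  map_smul' c x := by
    simp only [inner_smul_left, conj_trivial, RingHom.id_apply, smul_add, smul_smul]

lemma Qmap_apply (B1 B2 B3 x : E3) :
    Qmap B1 B2 B3 x = inner ℝ x g1 • B1 + inner ℝ x g2 • B2 + inner ℝ x g3 • B3 := rfl

lemma sqrt2_mul_inv : Real.sqrt 2 * (1 / (2 * Real.sqrt 2)) = 1 / 2 := by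
  have h : Real.sqrt 2 ≠ 0 := by positivity
  field_simp

lemma inv_sq : (1 / (2 * Real.sqrt 2)) ^ 2 = 1 / 8 := by
  have h : Real.sqrt 2 ^ 2 = 2 := Real.sq_sqrt (by norm_num)
  rw [div_pow, mul_pow, h]; norm_num

/-- `Qmap` preserves norms when the Gram matrix is correct. -/
lemma Qmap_norm (B1 B2 B3 : E3)
    (h11 : inner ℝ B1 B1 = (4 : ℝ)) (h22 : inner ℝ B2 B2 = (4 : ℝ)) (h33 : inner ℝ B3 B3 = (4 : ℝ))
    (h12 : inner ℝ B1 B2 = (2 : ℝ)) (h13 : inner ℝ B1 B3 = (2 : ℝ)) (h23 : inner ℝ B2 B3 = (2 : ℝ))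
    (x : E3) : ‖Qmap B1 B2 B3 x‖ = ‖x‖ := by
  have key : ‖Qmap B1 B2 B3 x‖ ^ 2 = ‖x‖ ^ 2 := by
    rw [← real_inner_self_eq_norm_sq (Qmap B1 B2 B3 x), Qmap_apply]
    set c1 : ℝ := inner ℝ x g1 with hc1
    set c2 : ℝ := inner ℝ x g2 with hc2
    set c3 : ℝ := inner ℝ x g3 with hc3
    have h21 : inner ℝ B2 B1 = (2 : ℝ) := by rw [real_inner_comm]; exact h12
    have h31 : inner ℝ B3 B1 = (2 : ℝ) := by rw [real_inner_comm]; exact h13
    have h32 : inner ℝ B3 B2 = (2 : ℝ) := by rw [real_inner_comm]; exact h23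
    simp only [inner_add_left, inner_add_right, inner_smul_left, inner_smul_right, conj_trivial,
      h11, h22, h33, h12, h13, h23, h21, h31, h32]
    set t : ℝ := 1 / (2 * Real.sqrt 2) with ht
    have ht2 : t ^ 2 = 1 / 8 := inv_sq
    have e1 : c1 = -(x 0 / 2) - x 2 * t := by
      rw [hc1, inner_eq]; simp [g1]; ring
    have e2 : c2 = x 1 / 2 + x 2 * t := by
      rw [hc2, inner_eq]; simp [g2]; ring
    have e3 : c3 = -(x 1 / 2) + x 2 * t := by
      rw [hc3, inner_eq]; simp [g3]; ring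
    rw [norm_sq_eq, e1, e2, e3]
    linear_combination (8 * x 2 ^ 2) * ht2
  exact (pow_left_inj₀ (norm_nonneg _) (norm_nonneg _) (by norm_num)).1 key

/-- The isometry built from the edge vectors. -/
noncomputable def Qiso (B1 B2 B3 : E3)
    (h11 : inner ℝ B1 B1 = (4 : ℝ)) (h22 : inner ℝ B2 B2 = (4 : ℝ)) (h33 : inner ℝ B3 B3 = (4 : ℝ))
    (h12 : inner ℝ B1 B2 = (2 : ℝ)) (h13 : inner ℝ B1 B3 = (2 : ℝ))
    (h23 : inner ℝ B2 B3 = (2 : ℝ)) : E3 ≃ₗᵢ[ℝ] E3 :=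
  LinearIsometry.toLinearIsometryEquiv
    { toLinearMap := Qmap B1 B2 B3
      norm_map' := Qmap_norm B1 B2 B3 h11 h22 h33 h12 h13 h23 } rfl

lemma Qiso_apply (B1 B2 B3 : E3)
    (h11 : inner ℝ B1 B1 = (4 : ℝ)) (h22 : inner ℝ B2 B2 = (4 : ℝ)) (h33 : inner ℝ B3 B3 = (4 : ℝ))
    (h12 : inner ℝ B1 B2 = (2 : ℝ)) (h13 : inner ℝ B1 B3 = (2 : ℝ))
    (h23 : inner ℝ B2 B3 = (2 : ℝ)) (x : E3) :
    Qiso B1 B2 B3 h11 h22 h33 h12 h13 h23 x = Qmap B1 B2 B3 x := rfl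

/-- Values of the dual functionals on the vertices. -/
lemma Q_V1 (B1 B2 B3 : E3) : Qmap B1 B2 B3 V1 = (-(1 / 2) : ℝ) • B1 := by
  have e1 : inner ℝ V1 g1 = (-(1 / 2) : ℝ) := by rw [inner_eq]; simp [g1]
  have e2 : inner ℝ V1 g2 = (0 : ℝ) := by rw [inner_eq]; simp [g2]
  have e3 : inner ℝ V1 g3 = (0 : ℝ) := by rw [inner_eq]; simp [g3]
  rw [Qmap_apply, e1, e2, e3]; simp

lemma Q_V2 (B1 B2 B3 : E3) : Qmap B1 B2 B3 V2 = ((1 / 2) : ℝ) • B1 := by
  have e1 : inner ℝ V2 g1 = ((1 / 2) : ℝ) := by rw [inner_eq]; simp [g1]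
  have e2 : inner ℝ V2 g2 = (0 : ℝ) := by rw [inner_eq]; simp [g2]
  have e3 : inner ℝ V2 g3 = (0 : ℝ) := by rw [inner_eq]; simp [g3]
  rw [Qmap_apply, e1, e2, e3]; simp

lemma Q_V3 (B1 B2 B3 : E3) : Qmap B1 B2 B3 V3 = (-(1 / 2) : ℝ) • B1 + B2 := by
  have hm := sqrt2_mul_inv
  have e1 : inner ℝ V3 g1 = (-(1 / 2) : ℝ) := by
    rw [inner_eq]; simp only [g1, V3_0, V3_1, V3_2]; simp <;> linarith
  have e2 : inner ℝ V3 g2 = (1 : ℝ) := by
    rw [inner_eq]; simp only [g2, V3_0, V3_1, V3_2]; simp <;> linarith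
  have e3 : inner ℝ V3 g3 = (0 : ℝ) := by
    rw [inner_eq]; simp only [g3, V3_0, V3_1, V3_2]; simp <;> linarith
  rw [Qmap_apply, e1, e2, e3]; simp

lemma Q_V4 (B1 B2 B3 : E3) : Qmap B1 B2 B3 V4 = (-(1 / 2) : ℝ) • B1 + B3 := by
  have hm := sqrt2_mul_inv
  have e1 : inner ℝ V4 g1 = (-(1 / 2) : ℝ) := by
    rw [inner_eq]; simp only [g1, V4_0, V4_1, V4_2]; simp <;> linarith
  have e2 : inner ℝ V4 g2 = (0 : ℝ) := by
    rw [inner_eq]; simp only [g2, V4_0, V4_1, V4_2]; simp <;> linarith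
  have e3 : inner ℝ V4 g3 = (1 : ℝ) := by
    rw [inner_eq]; simp only [g3, V4_0, V4_1, V4_2]; simp <;> linarith
  rw [Qmap_apply, e1, e2, e3]; simp

lemma range_fin4 (w : Fin 4 → E3) : Set.range w = {w 0, w 1, w 2, w 3} := by
  ext y
  constructor
  · rintro ⟨i, rfl⟩
    fin_cases i <;> simp
  · rintro (rfl | rfl | rfl | rfl)
    exacts [⟨0, rfl⟩, ⟨1, rfl⟩, ⟨2, rfl⟩, ⟨3, rfl⟩]

lemma stdK_eq : stdK = convexHull ℝ {V1, V2, V3, V4} := rfl

/-- Every regular tetrahedron is similar to the standard one. -/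
theorem exists_similarity (w : Fin 4 → E3) (ℓ : ℝ) (hℓ : 0 < ℓ)
    (hw : ∀ i j, i ≠ j → dist (w i) (w j) = ℓ) :
    ∃ (Q : E3 ≃ₗᵢ[ℝ] E3) (b : E3), simMap (ℓ / 2) Q b '' stdK = convexHull ℝ (Set.range w) := by
  set σ : ℝ := ℓ / 2 with hσdef
  have hσ : 0 < σ := by positivity
  have hσ0 : σ ≠ 0 := hσ.ne'
  set D : Fin 4 → E3 := fun i => w i - w 0 with hD
  have hD1 : ∀ i : Fin 4, i ≠ 0 → inner ℝ (D i) (D i) = ℓ ^ 2 := by
    intro i hi
    rw [real_inner_self_eq_norm_sq, hD]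
    simp only
    rw [← dist_eq_norm, hw i 0 hi]
  have hD2 : ∀ i j : Fin 4, i ≠ 0 → j ≠ 0 → i ≠ j → inner ℝ (D i) (D j) = ℓ ^ 2 / 2 := by
    intro i j hi hj hij
    have h := norm_sub_sq_real (D i) (D j)
    have e : D i - D j = w i - w j := by simp [hD]
    rw [e, ← dist_eq_norm, hw i j hij, ← real_inner_self_eq_norm_sq (D i),
      ← real_inner_self_eq_norm_sq (D j), hD1 i hi, hD1 j hj] at h
    linarith
  set B : Fin 4 → E3 := fun i => σ⁻¹ • D i with hB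
  have hσℓ : σ⁻¹ * (σ⁻¹ * ℓ ^ 2) = 4 := by
    rw [hσdef]; field_simp; ring
  have hB1 : ∀ i : Fin 4, i ≠ 0 → inner ℝ (B i) (B i) = (4 : ℝ) := by
    intro i hi
    simp only [hB]
    rw [real_inner_smul_left, real_inner_smul_right, hD1 i hi, hσℓ]
  have hB2 : ∀ i j : Fin 4, i ≠ 0 → j ≠ 0 → i ≠ j → inner ℝ (B i) (B j) = (2 : ℝ) := by
    intro i j hi hj hij
    simp only [hB]
    rw [real_inner_smul_left, real_inner_smul_right, hD2 i j hi hj hij]
    linear_combination (1 / 2) * hσℓ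
  have hσB : ∀ i, σ • B i = w i - w 0 := by
    intro i
    simp only [hB, hD]
    rw [smul_smul, mul_inv_cancel₀ hσ0, one_smul]
  let Q : E3 ≃ₗᵢ[ℝ] E3 := Qiso (B 1) (B 2) (B 3) (hB1 1 (by decide)) (hB1 2 (by decide))
    (hB1 3 (by decide)) (hB2 1 2 (by decide) (by decide) (by decide))
    (hB2 1 3 (by decide) (by decide) (by decide)) (hB2 2 3 (by decide) (by decide) (by decide))
  have hQ : ∀ x, Q x = Qmap (B 1) (B 2) (B 3) x := fun x => rfl
  refine ⟨Q, w 0 - σ • Q V1, ?_⟩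
  rw [stdK_eq, image_simMap_convexHull, range_fin4]
  congr 1
  have t1 : simMap σ Q (w 0 - σ • Q V1) V1 = w 0 := by
    simp [simMap]
  have t2 : simMap σ Q (w 0 - σ • Q V1) V2 = w 1 := by
    have := hσB 1
    simp only [simMap, hQ, Q_V1, Q_V2]
    rw [smul_comm σ (1 / 2 : ℝ) (B 1), smul_comm σ (-(1 / 2) : ℝ) (B 1), this]
    module
  have t3 : simMap σ Q (w 0 - σ • Q V1) V3 = w 2 := by
    have := hσB 2
    simp only [simMap, hQ, Q_V1, Q_V3]
    rw [smul_add, this]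
    abel
  have t4 : simMap σ Q (w 0 - σ • Q V1) V4 = w 3 := by
    have := hσB 3
    simp only [simMap, hQ, Q_V1, Q_V4]
    rw [smul_add, this]
    abel
  simp only [Set.image_insert_eq, Set.image_singleton, t1, t2, t3, t4]

/-- Shadow bound for a similar image of `stdK`. -/
theorem shadow_lower_sim (σ : ℝ) (hσ : 0 < σ) (Q : E3 ≃ₗᵢ[ℝ] E3) (b v : E3) (hv : ‖v‖ = 1) :
    ENNReal.ofReal (σ ^ 2 * Real.sqrt 2) ≤
      (μHE[2] : Measure E3) ((fun y => y - inner ℝ y v • v) '' (simMap σ Q b '' stdK)) := by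
  rw [shadow_simMap, measure_simMap_image σ hσ, ENNReal.ofReal_mul (by positivity)]
  gcongr
  exact shadow_lower _ (by rw [norm_symm, hv])

theorem shadow_ne_top_sim (σ : ℝ) (hσ : 0 < σ) (Q : E3 ≃ₗᵢ[ℝ] E3) (b v : E3) (hv : ‖v‖ = 1) :
    (μHE[2] : Measure E3) ((fun y => y - inner ℝ y v • v) '' (simMap σ Q b '' stdK)) ≠ ⊤ := by
  rw [shadow_simMap, measure_simMap_image σ hσ]
  exact ENNReal.mul_ne_top ENNReal.ofReal_ne_top (shadow_ne_top _ (by rw [norm_symm, hv]))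

/-- The real form of the shadow bound. -/
theorem shadow_toReal_sim (σ : ℝ) (hσ : 0 < σ) (Q : E3 ≃ₗᵢ[ℝ] E3) (b v : E3) (hv : ‖v‖ = 1) :
    σ ^ 2 * Real.sqrt 2 ≤
      ((μHE[2] : Measure E3) ((fun y => y - inner ℝ y v • v) '' (simMap σ Q b '' stdK))).toReal := by
  have h := shadow_lower_sim σ hσ Q b v hv
  have h' := ENNReal.toReal_mono (shadow_ne_top_sim σ hσ Q b v hv) h
  rwa [ENNReal.toReal_ofReal (by positivity)] at h'

/-- Norm of the cross product under a similarity. -/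
lemma norm_cross3_sim (σ : ℝ) (hσ : 0 < σ) (Q : E3 ≃ₗᵢ[ℝ] E3) (a c : E3) :
    ‖cross3 (σ • Q a) (σ • Q c)‖ = σ ^ 2 * ‖cross3 a c‖ := by
  have key : ‖cross3 (σ • Q a) (σ • Q c)‖ ^ 2 = (σ ^ 2 * ‖cross3 a c‖) ^ 2 := by
    rw [lagrange, mul_pow, lagrange, norm_smul, norm_smul, real_inner_smul_left,
      real_inner_smul_right, Q.norm_map, Q.norm_map, Q.inner_map_map, Real.norm_eq_abs, abs_of_pos hσ]
    ring
  exact (pow_left_inj₀ (norm_nonneg _) (by positivity) (by norm_num)).1 key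

/-- A triangular cylinder cover in the data `(u, p, q, r)`. -/
def IsCover {ι : Type*} (S : Set E3) (u p q r : ι → E3) : Prop :=
  (∀ i, ‖u i‖ = 1) ∧
    (∀ i, inner ℝ (p i) (u i) = (0 : ℝ) ∧ inner ℝ (q i) (u i) = (0 : ℝ) ∧
      inner ℝ (r i) (u i) = (0 : ℝ)) ∧
    S ⊆ ⋃ i, {x : E3 | ∃ β ∈ convexHull ℝ {p i, q i, r i}, ∃ t : ℝ, x = β + t • u i}

/-- Transfer of covers along a similarity. -/
theorem cover_transfer {ι : Type*} (σ : ℝ) (hσ : 0 < σ) (Q : E3 ≃ₗᵢ[ℝ] E3) (b : E3) (S : Set E3)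
    (u p q r : ι → E3) (hc : IsCover S u p q r) :
    ∃ (u' p' q' r' : ι → E3), IsCover (simMap σ Q b '' S) u' p' q' r' ∧
      ∀ i, ‖cross3 (q' i - p' i) (r' i - p' i)‖ = σ ^ 2 * ‖cross3 (q i - p i) (r i - p i)‖ := by
  obtain ⟨hu, hperp, hcov⟩ := hc
  set u' : ι → E3 := fun i => Q (u i) with hu'
  set b' : ι → E3 := fun i => b - inner ℝ b (u' i) • u' i with hb'
  have hu'1 : ∀ i, ‖u' i‖ = 1 := fun i => by rw [hu', Q.norm_map]; exact hu i
  have hperp' : ∀ i x, inner ℝ x (u i) = (0 : ℝ) → inner ℝ (simMap σ Q (b' i) x) (u' i) = (0 : ℝ) := by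
    intro i x hx
    simp only [simMap, hb', hu']
    rw [inner_add_left, real_inner_smul_left, Q.inner_map_map, hx, inner_sub_left,
      real_inner_smul_left, real_inner_self_eq_norm_sq, Q.norm_map, hu i]
    ring
  refine ⟨u', fun i => simMap σ Q (b' i) (p i), fun i => simMap σ Q (b' i) (q i),
    fun i => simMap σ Q (b' i) (r i), ⟨hu'1, ?_, ?_⟩, ?_⟩
  · intro i
    obtain ⟨h1, h2, h3⟩ := hperp i
    exact ⟨hperp' i _ h1, hperp' i _ h2, hperp' i _ h3⟩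
  · rintro _ ⟨y, hy, rfl⟩
    obtain ⟨i, β, hβ, t, rfl⟩ := Set.mem_iUnion.1 (hcov hy)
    refine Set.mem_iUnion.2 ⟨i, simMap σ Q (b' i) β, ?_, σ * t + inner ℝ b (u' i), ?_⟩
    · have : simMap σ Q (b' i) β ∈ simMap σ Q (b' i) '' convexHull ℝ {p i, q i, r i} := ⟨β, hβ, rfl⟩
      rwa [image_simMap_convexHull, Set.image_insert_eq, Set.image_insert_eq,
        Set.image_singleton] at this
    · simp only [simMap, hb', hu', map_add, map_smul, smul_add, smul_smul]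
      module
  · intro i
    have e1 : simMap σ Q (b' i) (q i) - simMap σ Q (b' i) (p i) = σ • Q (q i - p i) := by
      simp only [simMap, map_sub, smul_sub]; abel
    have e2 : simMap σ Q (b' i) (r i) - simMap σ Q (b' i) (p i) = σ • Q (r i - p i) := by
      simp only [simMap, map_sub, smul_sub]; abel
    simp only
    rw [e1, e2, norm_cross3_sim σ hσ]

/-! ### Triangles to parallelograms -/

/-- Scaling of the cross product. -/
lemma cross3_smul_smul (α β : ℝ) (e f : E3) : cross3 (α • e) (β • f) = (α * β) • cross3 e f := by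
  ext i
  fin_cases i <;> simp <;> ring

/-- Gauss's sum in the reals. -/
lemma sum_range_real (n : ℕ) : ∑ k ∈ Finset.range n, (k : ℝ) = n * (n - 1) / 2 := by
  induction n with
  | zero => simp
  | succ n ih =>
    rw [Finset.sum_range_succ, ih]
    push_cast
    ring

/-- The total weight of the strips of a subdivided triangle. -/
lemma sum_strips (n : ℕ) (hn : 0 < n) :
    ∑ k : Fin n, ((1 / n : ℝ) * (1 - (k : ℝ) / n)) = (1 + 1 / n) / 2 := by
  have hn0 : (n : ℝ) ≠ 0 := by positivity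
  rw [Fin.sum_univ_eq_sum_range (fun k => (1 / n : ℝ) * (1 - (k : ℝ) / n)) n]
  rw [← Finset.mul_sum, Finset.sum_sub_distrib, ← Finset.sum_div, sum_range_real]
  simp only [Finset.sum_const, Finset.card_range, nsmul_eq_mul, mul_one]
  field_simp
  ring

/-- A strip of the subdivided triangle. -/
lemma strip_area (e f : E3) (n : ℕ) (hn : 0 < n) (k : Fin n) :
    ‖cross3 ((1 / n : ℝ) • e) ((1 - (k : ℝ) / n) • f)‖ =
      ((1 / n : ℝ) * (1 - (k : ℝ) / n)) * ‖cross3 e f‖ := by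
  have hn' : (0 : ℝ) < n := by exact_mod_cast hn
  have hk : (k : ℝ) < n := by exact_mod_cast k.2
  have h1 : 0 ≤ (1 - (k : ℝ) / n) := by
    rw [sub_nonneg, div_le_one hn']; exact hk.le
  have h2 : 0 ≤ (1 / n : ℝ) := by positivity
  rw [cross3_smul_smul, norm_smul, Real.norm_eq_abs, abs_of_nonneg (mul_nonneg h2 h1)]

/-- The strips cover the cylinder over the triangle. -/
lemma tri_subset_strips (p q r u : E3) (n : ℕ) (hn : 0 < n) (x : E3)
    (hx : ∃ β ∈ convexHull ℝ {p, q, r}, ∃ τ : ℝ, x = β + τ • u) :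
    ∃ k : Fin n, ∃ s ∈ Set.Icc (0 : ℝ) 1, ∃ t ∈ Set.Icc (0 : ℝ) 1, ∃ τ : ℝ,
      x = (p + ((k : ℝ) / n) • (q - p)) + s • ((1 / n : ℝ) • (q - p)) +
        t • ((1 - (k : ℝ) / n) • (r - p)) + τ • u := by
  obtain ⟨β, hβ, τ, rfl⟩ := hx
  obtain ⟨s', t', hs', ht', hst, rfl⟩ := mem_triangle_iff.1 hβ
  have hn' : (0 : ℝ) < n := by exact_mod_cast hn
  -- choose the strip
  obtain ⟨k, hk1, hk2, hk3⟩ : ∃ k : ℕ, k < n ∧ (k : ℝ) / n ≤ s' ∧ s' ≤ ((k : ℝ) + 1) / n := by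
    by_cases hfl : ⌊s' * n⌋₊ < n
    · refine ⟨⌊s' * n⌋₊, hfl, ?_, ?_⟩
      · rw [div_le_iff₀ hn']
        exact Nat.floor_le (by positivity)
      · rw [le_div_iff₀ hn']
        exact (Nat.lt_floor_add_one _).le
    · have h1 : (n : ℝ) ≤ s' * n := by
        have : n ≤ ⌊s' * n⌋₊ := not_lt.1 hfl
        have h3 : ((⌊s' * n⌋₊ : ℕ) : ℝ) ≤ s' * n := Nat.floor_le (by positivity)
        have h4 : (n : ℝ) ≤ ((⌊s' * n⌋₊ : ℕ) : ℝ) := by exact_mod_cast this
        linarith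
      have h2 : 1 ≤ s' := by
        by_contra hc
        push Not at hc
        nlinarith
      have h5 : s' = 1 := by linarith
      refine ⟨n - 1, by omega, ?_, ?_⟩
      · rw [h5, div_le_one hn']
        have : ((n - 1 : ℕ) : ℝ) = (n : ℝ) - 1 := by
          rw [Nat.cast_sub hn]; simp
        rw [this]; linarith
      · rw [h5, one_le_div hn']
        have : ((n - 1 : ℕ) : ℝ) = (n : ℝ) - 1 := by
          rw [Nat.cast_sub hn]; simp
        rw [this]; linarith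
  have hkn : (k : ℝ) < n := by exact_mod_cast hk1
  have hpos : 0 < 1 - (k : ℝ) / n := by
    rw [sub_pos, div_lt_one hn']; exact hkn
  refine ⟨⟨k, hk1⟩, (s' - (k : ℝ) / n) * n, ⟨?_, ?_⟩, t' / (1 - (k : ℝ) / n), ⟨?_, ?_⟩, τ, ?_⟩
  · exact mul_nonneg (by linarith) hn'.le
  · have : s' - (k : ℝ) / n ≤ 1 / n := by
      have e : ((k : ℝ) + 1) / n = (k : ℝ) / n + 1 / n := by ring
      linarith
    calc (s' - (k : ℝ) / n) * n ≤ 1 / n * n := by gcongr
      _ = 1 := by field_simp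
  · exact div_nonneg ht' hpos.le
  · rw [div_le_one hpos]; linarith
  · have e1 : (s' - (k : ℝ) / n) * n * (1 / n) = s' - (k : ℝ) / n := by field_simp
    have e2 : t' / (1 - (k : ℝ) / n) * (1 - (k : ℝ) / n) = t' := div_mul_cancel₀ _ hpos.ne'
    simp only [smul_smul]
    rw [e1, e2]
    module

/-! ### Triangles to relatively open sets -/

/-- Relatively open neighbourhoods of triangles with almost the same area. -/
theorem tri_open_nhd (u p q r : E3) (hu : ‖u‖ = 1)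
    (hp : inner ℝ p u = (0 : ℝ)) (hq : inner ℝ q u = (0 : ℝ)) (hr : inner ℝ r u = (0 : ℝ))
    (ε : ℝ) (hε : 0 < ε) :
    ∃ B : Set E3, Bornology.IsBounded B ∧
      (∃ O : Set E3, IsOpen O ∧ B = O ∩ {x | inner ℝ x u = (0 : ℝ)}) ∧
      convexHull ℝ {p, q, r} ⊆ B ∧
      ((μHE[2] : Measure E3) B).toReal ≤ ‖cross3 (q - p) (r - p)‖ / 2 + ε := by
  have hu0 : u ≠ 0 := by
    intro h; rw [h] at hu; simp at hu
  let W : Submodule ℝ E3 := (Submodule.span ℝ {u})ᗮ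
  have : Fact (Module.finrank ℝ E3 = 2 + 1) := ⟨by simp⟩
  have hfin : Module.finrank ℝ W = 2 := Submodule.finrank_orthogonal_span_singleton hu0
  have hmem : ∀ x : E3, x ∈ W ↔ inner ℝ x u = (0 : ℝ) := by
    intro x
    rw [Submodule.mem_orthogonal_singleton_iff_inner_right, real_inner_comm]
  set T : Set E3 := convexHull ℝ {p, q, r} with hT
  have hTW : T ⊆ (W : Set E3) := by
    apply convexHull_min
    · rintro x (rfl | rfl | rfl)
      · exact (hmem _).2 hp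
      · exact (hmem _).2 hq
      · exact (hmem _).2 hr
    · exact W.convex
  have hTc : IsCompact T := by
    apply Set.Finite.isCompact_convexHull
    simp
  have iso : Isometry (Subtype.val : W → E3) := isometry_subtype_coe
  have : (μHE[2] : Measure W).IsAddHaarMeasure := by
    have := MeasureTheory.isAddHaarMeasure_euclideanHausdorffMeasure (E := W)
    rwa [hfin] at this
  let A : Set W := Subtype.val ⁻¹' T
  have hA : IsCompact A := iso.isClosedEmbedding.isCompact_preimage hTc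
  have hAimg : Subtype.val '' A = T := Set.image_preimage_eq_of_subset (by simpa using hTW)
  have hμA : (μHE[2] : Measure W) A = ENNReal.ofReal (‖cross3 (q - p) (r - p)‖ / 2) := by
    rw [← tri_area, ← hT, ← hAimg, iso.euclideanHausdorffMeasure_image]
  have hε' : ENNReal.ofReal ε ≠ 0 := by simpa using hε
  obtain ⟨U, hAU, hUo, hU⟩ := A.exists_isOpen_lt_add (μ := (μHE[2] : Measure W))
    (by rw [hμA]; exact ENNReal.ofReal_ne_top) hε'
  obtain ⟨O, hO, hOU⟩ := isOpen_induced_iff.1 hUo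
  obtain ⟨R, hR⟩ := hTc.isBounded.subset_ball (0 : E3)
  refine ⟨(O ∩ Metric.ball 0 R) ∩ {x | inner ℝ x u = (0 : ℝ)}, ?_, ⟨O ∩ Metric.ball 0 R,
    hO.inter Metric.isOpen_ball, rfl⟩, ?_, ?_⟩
  · exact Metric.isBounded_ball.subset (fun x hx => hx.1.2)
  · intro x hx
    refine ⟨⟨?_, hR hx⟩, (hmem x).1 (hTW hx)⟩
    have hx' : (⟨x, hTW hx⟩ : W) ∈ A := hx
    have := hAU hx'
    rw [← hOU] at this
    exact this
  · have hsub : (O ∩ Metric.ball 0 R) ∩ {x | inner ℝ x u = (0 : ℝ)} ⊆ Subtype.val '' U := by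
      rintro x ⟨⟨hxO, -⟩, hxu⟩
      refine ⟨⟨x, (hmem x).2 hxu⟩, ?_, rfl⟩
      rw [← hOU]
      exact hxO
    have h1 := measure_mono (μ := (μHE[2] : Measure E3)) hsub
    rw [iso.euclideanHausdorffMeasure_image] at h1
    have h2 := h1.trans hU.le
    rw [hμA, ← ENNReal.ofReal_add (by positivity) hε.le] at h2
    have h3 := ENNReal.toReal_mono ENNReal.ofReal_ne_top h2
    rwa [ENNReal.toReal_ofReal (by positivity)] at h3

/-! ### Sums -/

lemma bounds_of_sum {ι : Type*} [Fintype ι] (S : E3 → ℝ) (s₀ κ : ℝ) (hs₀ : 0 < s₀) (hκ : 0 < κ)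
    (hS : ∀ v, ‖v‖ = 1 → s₀ ≤ S v) (u : ι → E3) (hu : ∀ i, ‖u i‖ = 1) (A : ι → ℝ)
    (hA : ∀ i, 0 ≤ A i) (hsum : ∑ i, A i ≤ s₀ * (1 / 2 - κ)) :
    (∃ δ : ℝ, 0 < δ ∧ ∀ v, ‖v‖ = 1 → ∑ i, A i + δ ≤ S v / 2) ∧ ∑ i, A i / S (u i) < 1 / 2 := by
  constructor
  · refine ⟨s₀ * κ, by positivity, fun v hv => ?_⟩
    have := hS v hv
    nlinarith
  · have h1 : ∀ i, A i / S (u i) ≤ A i / s₀ := by
      intro i
      exact div_le_div_of_nonneg_left (hA i) hs₀ (hS _ (hu i))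
    have h2 : ∑ i, A i / S (u i) ≤ (∑ i, A i) / s₀ := by
      rw [Finset.sum_div]
      exact Finset.sum_le_sum fun i _ => h1 i
    have h3 : (∑ i, A i) / s₀ ≤ 1 / 2 - κ := by
      rw [div_le_iff₀ hs₀]; linarith
    linarith

/-! ### The assembly -/

/-- The standard cover, as given by the explicit fan construction. -/
def StdCover : Prop :=
  ∃ (m : ℕ) (u p q r : Fin m → E3), IsCover stdK u p q r ∧
    ∑ i, ‖cross3 (q i - p i) (r i - p i)‖ / 2 ≤ Real.sqrt 2 * (1 / 2 - 1 / 100000)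

/-- The transferred family of triangles. -/
theorem general_cover (hstd : StdCover) (w : Fin 4 → E3) (ℓ : ℝ) (hℓ : 0 < ℓ)
    (hw : ∀ i j, i ≠ j → dist (w i) (w j) = ℓ) :
    ∃ (m : ℕ) (u p q r : Fin m → E3), IsCover (convexHull ℝ (Set.range w)) u p q r ∧
      ∑ i, ‖cross3 (q i - p i) (r i - p i)‖ / 2 ≤ ((ℓ / 2) ^ 2 * Real.sqrt 2) * (1 / 2 - 1 / 100000) ∧
      ∀ v : E3, ‖v‖ = 1 → (ℓ / 2) ^ 2 * Real.sqrt 2 ≤
        ((μHE[2] : Measure E3) ((fun y => y - inner ℝ y v • v) '' convexHull ℝ (Set.range w))).toReal := by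
  obtain ⟨Q, b, hsim⟩ := exists_similarity w ℓ hℓ hw
  have hσ : 0 < ℓ / 2 := by positivity
  obtain ⟨m, u, p, q, r, hc, hsum⟩ := hstd
  obtain ⟨u', p', q', r', hc', harea⟩ := cover_transfer (ℓ / 2) hσ Q b stdK u p q r hc
  rw [hsim] at hc'
  refine ⟨m, u', p', q', r', hc', ?_, ?_⟩
  · simp only [harea]
    have : ∑ i, (ℓ / 2) ^ 2 * ‖cross3 (q i - p i) (r i - p i)‖ / 2 =
        (ℓ / 2) ^ 2 * ∑ i, ‖cross3 (q i - p i) (r i - p i)‖ / 2 := by
      rw [Finset.mul_sum]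
      exact Finset.sum_congr rfl fun i _ => by ring
    rw [this, mul_assoc]
    exact mul_le_mul_of_nonneg_left hsum (by positivity)
  · intro v hv
    rw [← hsim]
    exact shadow_toReal_sim (ℓ / 2) hσ Q b v hv

/-- Part (1), parallelogram bases. -/
theorem part_one (hstd : StdCover) (w : Fin 4 → E3) (ℓ : ℝ) (hℓ : 0 < ℓ)
    (hw : ∀ i j, i ≠ j → dist (w i) (w j) = ℓ) :
    ∃ (k : ℕ) (u c a b : Fin k → EuclideanSpace ℝ (Fin 3)),
      (∀ i, ‖u i‖ = 1) ∧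
      (∀ i, inner ℝ (c i) (u i) = (0 : ℝ) ∧ inner ℝ (a i) (u i) = (0 : ℝ) ∧
        inner ℝ (b i) (u i) = (0 : ℝ)) ∧
      convexHull ℝ (Set.range w) ⊆ ⋃ i, {x : EuclideanSpace ℝ (Fin 3) |
        ∃ s ∈ Set.Icc (0 : ℝ) 1, ∃ t ∈ Set.Icc (0 : ℝ) 1, ∃ τ : ℝ,
          x = c i + s • a i + t • b i + τ • u i} ∧
      (∃ δ : ℝ, 0 < δ ∧ ∀ v : EuclideanSpace ℝ (Fin 3), ‖v‖ = 1 →
        (∑ i, (μHE[2] {x : EuclideanSpace ℝ (Fin 3) |
            ∃ s ∈ Set.Icc (0 : ℝ) 1, ∃ t ∈ Set.Icc (0 : ℝ) 1,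
              x = c i + s • a i + t • b i}).toReal) + δ ≤
          (μHE[2] ((fun y => y - inner ℝ y v • v) '' convexHull ℝ (Set.range w))).toReal / 2) ∧
      ∑ i, (μHE[2] {x : EuclideanSpace ℝ (Fin 3) |
            ∃ s ∈ Set.Icc (0 : ℝ) 1, ∃ t ∈ Set.Icc (0 : ℝ) 1,
              x = c i + s • a i + t • b i}).toReal /
          (μHE[2] ((fun y => y - inner ℝ y (u i) • u i) '' convexHull ℝ (Set.range w))).toReal <
        1 / 2 := by
  obtain ⟨m, u, p, q, r, ⟨hu, hperp, hcov⟩, hsum, hshadow⟩ := general_cover hstd w ℓ hℓ hw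
  set s₀ : ℝ := (ℓ / 2) ^ 2 * Real.sqrt 2 with hs₀def
  have hs₀ : 0 < s₀ := by positivity
  set n : ℕ := 100000 with hn
  have hnpos : 0 < n := by norm_num [hn]
  let ι := Fin m × Fin n
  let e : ι ≃ Fin (Fintype.card ι) := Fintype.equivFin ι
  let u₁ : ι → E3 := fun j => u j.1
  let c₁ : ι → E3 := fun j => p j.1 + (((j.2 : ℕ) : ℝ) / n) • (q j.1 - p j.1)
  let a₁ : ι → E3 := fun j => (1 / n : ℝ) • (q j.1 - p j.1)
  let b₁ : ι → E3 := fun j => (1 - ((j.2 : ℕ) : ℝ) / n) • (r j.1 - p j.1)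
  have hperpc : ∀ j : ι, inner ℝ (c₁ j) (u₁ j) = (0 : ℝ) := by
    intro j
    obtain ⟨h1, h2, -⟩ := hperp j.1
    simp only [c₁, u₁]
    rw [inner_add_left, real_inner_smul_left, inner_sub_left, h1, h2]
    simp
  have hperpa : ∀ j : ι, inner ℝ (a₁ j) (u₁ j) = (0 : ℝ) := by
    intro j
    obtain ⟨h1, h2, -⟩ := hperp j.1
    simp only [a₁, u₁]
    rw [real_inner_smul_left, inner_sub_left, h1, h2]
    simp
  have hperpb : ∀ j : ι, inner ℝ (b₁ j) (u₁ j) = (0 : ℝ) := by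
    intro j
    obtain ⟨h1, -, h3⟩ := hperp j.1
    simp only [b₁, u₁]
    rw [real_inner_smul_left, inner_sub_left, h1, h3]
    simp
  -- the total area
  have hareaj : ∀ j : ι, ((μHE[2] : Measure E3) {x : E3 |
      ∃ s ∈ Set.Icc (0 : ℝ) 1, ∃ t ∈ Set.Icc (0 : ℝ) 1, x = c₁ j + s • a₁ j + t • b₁ j}).toReal =
      ((1 / n : ℝ) * (1 - ((j.2 : ℕ) : ℝ) / n)) * ‖cross3 (q j.1 - p j.1) (r j.1 - p j.1)‖ := by
    intro j
    rw [par_area_toReal]
    exact strip_area _ _ n hnpos j.2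
  have htotal : ∑ j : ι, ((μHE[2] : Measure E3) {x : E3 |
      ∃ s ∈ Set.Icc (0 : ℝ) 1, ∃ t ∈ Set.Icc (0 : ℝ) 1, x = c₁ j + s • a₁ j + t • b₁ j}).toReal ≤
      s₀ * (1 / 2 - 1 / 250000) := by
    simp only [hareaj]
    rw [Fintype.sum_prod_type]
    have : ∀ i : Fin m, ∑ k : Fin n, ((1 / n : ℝ) * (1 - ((k : ℕ) : ℝ) / n)) *
        ‖cross3 (q i - p i) (r i - p i)‖ = (1 + 1 / n) * (‖cross3 (q i - p i) (r i - p i)‖ / 2) := by
      intro i
      rw [← Finset.sum_mul, sum_strips n hnpos]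
      ring
    simp only [this]
    rw [← Finset.mul_sum]
    have h1 : (0 : ℝ) ≤ 1 + 1 / n := by positivity
    have h2 := mul_le_mul_of_nonneg_left hsum h1
    refine h2.trans ?_
    have e1 : (1 + 1 / (n : ℝ)) = 1 + 1 / 100000 := by norm_num [hn]
    rw [e1]
    nlinarith
  refine ⟨Fintype.card ι, u₁ ∘ e.symm, c₁ ∘ e.symm, a₁ ∘ e.symm, b₁ ∘ e.symm, ?_, ?_, ?_, ?_⟩
  · intro i; exact hu _
  · intro i; exact ⟨hperpc _, hperpa _, hperpb _⟩
  · intro x hx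
    obtain ⟨i, β, hβ, τ, rfl⟩ := Set.mem_iUnion.1 (hcov hx)
    obtain ⟨k, s, hs, t, ht, τ', hx'⟩ := tri_subset_strips (p i) (q i) (r i) (u i) n hnpos _
      ⟨β, hβ, τ, rfl⟩
    refine Set.mem_iUnion.2 ⟨e (i, k), s, hs, t, ht, τ', ?_⟩
    simp only [Function.comp, Equiv.symm_apply_apply]
    exact hx'
  · have hsum' : ∑ i : Fin (Fintype.card ι), ((μHE[2] : Measure E3) {x : E3 |
        ∃ s ∈ Set.Icc (0 : ℝ) 1, ∃ t ∈ Set.Icc (0 : ℝ) 1,
          x = (c₁ ∘ e.symm) i + s • (a₁ ∘ e.symm) i + t • (b₁ ∘ e.symm) i}).toReal ≤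
        s₀ * (1 / 2 - 1 / 250000) := by
      refine le_trans (le_of_eq ?_) htotal
      exact Equiv.sum_comp e.symm (fun j : ι => ((μHE[2] : Measure E3) {x : E3 |
        ∃ s ∈ Set.Icc (0 : ℝ) 1, ∃ t ∈ Set.Icc (0 : ℝ) 1, x = c₁ j + s • a₁ j + t • b₁ j}).toReal)
    exact bounds_of_sum (fun v => ((μHE[2] : Measure E3)
        ((fun y => y - inner ℝ y v • v) '' convexHull ℝ (Set.range w))).toReal) s₀ (1 / 250000) hs₀
      (by norm_num) hshadow (u₁ ∘ e.symm) (fun i => hu _) _ (fun i => ENNReal.toReal_nonneg) hsum'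

/-- Part (2), relatively open bases. -/
theorem part_two (hstd : StdCover) (w : Fin 4 → E3) (ℓ : ℝ) (hℓ : 0 < ℓ)
    (hw : ∀ i j, i ≠ j → dist (w i) (w j) = ℓ) :
    ∃ (k : ℕ) (u : Fin k → EuclideanSpace ℝ (Fin 3)) (B : Fin k → Set (EuclideanSpace ℝ (Fin 3))),
      (∀ i, ‖u i‖ = 1) ∧
      (∀ i, Bornology.IsBounded (B i) ∧ ∃ O : Set (EuclideanSpace ℝ (Fin 3)), IsOpen O ∧
        B i = O ∩ {x | inner ℝ x (u i) = (0 : ℝ)}) ∧
      convexHull ℝ (Set.range w) ⊆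
        ⋃ i, {x : EuclideanSpace ℝ (Fin 3) | ∃ y ∈ B i, ∃ τ : ℝ, x = y + τ • u i} ∧
      (∃ δ : ℝ, 0 < δ ∧ ∀ v : EuclideanSpace ℝ (Fin 3), ‖v‖ = 1 →
        (∑ i, (μHE[2] (B i)).toReal) + δ ≤
          (μHE[2] ((fun y => y - inner ℝ y v • v) '' convexHull ℝ (Set.range w))).toReal / 2) ∧
      ∑ i, (μHE[2] (B i)).toReal /
          (μHE[2] ((fun y => y - inner ℝ y (u i) • u i) '' convexHull ℝ (Set.range w))).toReal <
        1 / 2 := by
  obtain ⟨m, u, p, q, r, ⟨hu, hperp, hcov⟩, hsum, hshadow⟩ := general_cover hstd w ℓ hℓ hw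
  set s₀ : ℝ := (ℓ / 2) ^ 2 * Real.sqrt 2 with hs₀def
  have hs₀ : 0 < s₀ := by positivity
  set ε : ℝ := s₀ * (1 / 200000) / (m + 1) with hε
  have hεpos : 0 < ε := by positivity
  choose B hB1 hB2 hB3 hB4 using fun i =>
    tri_open_nhd (u i) (p i) (q i) (r i) (hu i) (hperp i).1 (hperp i).2.1 (hperp i).2.2 ε hεpos
  refine ⟨m, u, B, hu, fun i => ⟨hB1 i, hB2 i⟩, ?_, ?_⟩
  · intro x hx
    obtain ⟨i, β, hβ, τ, rfl⟩ := Set.mem_iUnion.1 (hcov hx)
    exact Set.mem_iUnion.2 ⟨i, β, hB3 i hβ, τ, rfl⟩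
  · have hsum' : ∑ i, ((μHE[2] : Measure E3) (B i)).toReal ≤ s₀ * (1 / 2 - 1 / 200000) := by
      calc ∑ i, ((μHE[2] : Measure E3) (B i)).toReal
          ≤ ∑ i, (‖cross3 (q i - p i) (r i - p i)‖ / 2 + ε) := Finset.sum_le_sum fun i _ => hB4 i
        _ = ∑ i, ‖cross3 (q i - p i) (r i - p i)‖ / 2 + m * ε := by
            rw [Finset.sum_add_distrib]; simp
        _ ≤ s₀ * (1 / 2 - 1 / 100000) + s₀ * (1 / 200000) := by
            have : (m : ℝ) * ε ≤ s₀ * (1 / 200000) := by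
              rw [hε]
              have hm : (0 : ℝ) < (m : ℝ) + 1 := by positivity
              rw [mul_div_assoc', div_le_iff₀ hm]
              nlinarith [mul_pos hs₀ (by norm_num : (0 : ℝ) < 1 / 200000)]
            linarith
        _ = s₀ * (1 / 2 - 1 / 200000) := by ring
    exact bounds_of_sum (fun v => ((μHE[2] : Measure E3)
        ((fun y => y - inner ℝ y v • v) '' convexHull ℝ (Set.range w))).toReal) s₀ (1 / 200000) hs₀
      (by norm_num) hshadow u hu _ (fun i => ENNReal.toReal_nonneg) hsum'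

end Crest.Agent.CylSim
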