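import Mathlib
import Crest.Prelude.Def_TreePotentials
import Crest.Agent.Lib.AUCGame

/-!
# Generic potential spaces on the countably branching tree

Generic form of `Crest.AnalysisR.TreePotential`: the extra square-sum condition is a parameter `Ex`.
The key construction: from tests `f`, `g` and a finite ancestor-closed set `G` build two tests
`h₁`, `h₂` that equal `a f` on `G` and satisfy `h₁ - h₂ = b g` off `G`, when `a² + b² ≤ 1`, `2 b ≤ 1`.
-/

set_option autoImplicit false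

namespace Crest.Agent.PotLib

open Crest.AnalysisR Crest.AnalysisR.TreePotential Crest.Agent.AUCGame

/-- Tests of an extra condition. -/
def IsGTest (Ex : (List ℕ → ℝ) → Prop) (f : List ℕ → ℝ) : Prop :=
  (∀ s : List ℕ, |pathPotential f s| ≤ 1) ∧ Ex f

/-- The type of tests. -/
def GTest (Ex : (List ℕ → ℝ) → Prop) : Type := {f : List ℕ → ℝ // IsGTest Ex f}

theorem abs_le_two_of_potential (f : List ℕ → ℝ) (hf : ∀ s, |pathPotential f s| ≤ 1) (s : List ℕ) :
    |f s| ≤ 2 := by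
  cases s with
  | nil =>
    have h0 := hf []
    simp only [pathPotential] at h0
    linarith
  | cons a v =>
    have h1 := hf (a :: v)
    have h2 := hf v
    simp only [pathPotential] at h1
    rw [abs_le] at h1 h2 ⊢
    constructor <;> linarith [h1.1, h1.2, h2.1, h2.2]

variable {Ex : (List ℕ → ℝ) → Prop}

/-- Coordinate vectors. -/
noncomputable def gcoord (Ex : (List ℕ → ℝ) → Prop) (s : List ℕ) : lp (fun _ : GTest Ex => ℝ) ⊤ :=
  ⟨fun f => f.1 s, memℓp_infty ⟨2, by
    rintro _ ⟨f, rfl⟩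
    simpa [Real.norm_eq_abs] using abs_le_two_of_potential f.1 f.2.1 s⟩⟩

/-- The generated space. -/
noncomputable def gSpace (Ex : (List ℕ → ℝ) → Prop) :
    Submodule ℝ (lp (fun _ : GTest Ex => ℝ) ⊤) :=
  (Submodule.span ℝ (Set.range (gcoord Ex))).topologicalClosure

/-- Evaluation at a test. -/
noncomputable def ev (h : GTest Ex) : lp (fun _ : GTest Ex => ℝ) ⊤ →L[ℝ] ℝ :=
  LinearMap.mkContinuous
    { toFun := fun z => z h
      map_add' := fun _ _ => rfl
      map_smul' := fun _ _ => rfl } 1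
    (fun z => by
      rw [one_mul]
      exact lp.norm_apply_le_norm ENNReal.top_ne_zero z h)

@[simp] theorem ev_apply (h : GTest Ex) (z : lp (fun _ : GTest Ex => ℝ) ⊤) : ev h z = z h := rfl

@[simp] theorem gcoord_apply (s : List ℕ) (h : GTest Ex) : gcoord Ex s h = h.1 s := rfl

theorem ev_le_norm (h : GTest Ex) (z : lp (fun _ : GTest Ex => ℝ) ⊤) : z h ≤ ‖z‖ :=
  (le_abs_self _).trans (by simpa using lp.norm_apply_le_norm ENNReal.top_ne_zero z h)

theorem abs_ev_le_norm (h : GTest Ex) (z : lp (fun _ : GTest Ex => ℝ) ⊤) : |z h| ≤ ‖z‖ := by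
  simpa using lp.norm_apply_le_norm ENNReal.top_ne_zero z h

/-- A continuous functional vanishing on coordinates vanishes on the whole space. -/
theorem functional_zero_on_gSpace (Λ : lp (fun _ : GTest Ex => ℝ) ⊤ →L[ℝ] ℝ)
    (hΛ : ∀ s, Λ (gcoord Ex s) = 0) {z : lp (fun _ : GTest Ex => ℝ) ⊤} (hz : z ∈ gSpace Ex) :
    Λ z = 0 := by
  have hle : gSpace Ex ≤ LinearMap.ker (Λ : lp (fun _ : GTest Ex => ℝ) ⊤ →ₗ[ℝ] ℝ) := by
    refine Submodule.topologicalClosure_minimal _ (Submodule.span_le.mpr ?_) Λ.isClosed_ker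
    rintro _ ⟨s, rfl⟩
    exact hΛ s
  exact hle hz

/-- A continuous functional vanishing on some coordinates vanishes on their span. -/
theorem functional_zero_on_span (Λ : lp (fun _ : GTest Ex => ℝ) ⊤ →L[ℝ] ℝ) (G : Set (List ℕ))
    (hΛ : ∀ s ∈ G, Λ (gcoord Ex s) = 0) {z : lp (fun _ : GTest Ex => ℝ) ⊤}
    (hz : z ∈ Submodule.span ℝ (gcoord Ex '' G)) : Λ z = 0 := by
  have hle : Submodule.span ℝ (gcoord Ex '' G) ≤
      LinearMap.ker (Λ : lp (fun _ : GTest Ex => ℝ) ⊤ →ₗ[ℝ] ℝ) := by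
    refine Submodule.span_le.mpr ?_
    rintro _ ⟨s, hs, rfl⟩
    exact hΛ s hs
  exact hle hz

/-! ### Potentials of truncated and re-signed families -/

/-- Potential of `g` measured from the exit vertex of `G`. -/
def qPot (g : List ℕ → ℝ) (G : Finset (List ℕ)) : List ℕ → ℝ
  | [] => 0
  | c :: v => if c :: v ∈ G then 0 else qPot g G v + g (c :: v)

/-- Potential of `f` truncated to `G`. -/
def pPot (f : List ℕ → ℝ) (G : Finset (List ℕ)) : List ℕ → ℝ
  | [] => f []
  | c :: v => if c :: v ∈ G then pPot f G v + f (c :: v) else pPot f G v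

/-- The coefficient family with a given potential. -/
def hOf (Φ : List ℕ → ℝ) : List ℕ → ℝ
  | [] => Φ []
  | c :: v => Φ (c :: v) - Φ v

theorem pathPotential_hOf (Φ : List ℕ → ℝ) (s : List ℕ) : pathPotential (hOf Φ) s = Φ s := by
  induction s with
  | nil => rfl
  | cons c v ih =>
    simp only [pathPotential, hOf, ih]
    ring

theorem qPot_spec (g : List ℕ → ℝ) (G : Finset (List ℕ)) (s : List ℕ) :
    ∃ w, qPot g G s = pathPotential g s - pathPotential g w := by
  induction s with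
  | nil => exact ⟨[], by simp [qPot]⟩
  | cons c v ih =>
    by_cases h : c :: v ∈ G
    · exact ⟨c :: v, by simp [qPot, h]⟩
    · obtain ⟨w, hw⟩ := ih
      refine ⟨w, ?_⟩
      simp only [qPot, h, if_false, pathPotential, hw]
      ring

theorem abs_qPot_le {g : List ℕ → ℝ} (hg : ∀ s, |pathPotential g s| ≤ 1) (G : Finset (List ℕ))
    (s : List ℕ) : |qPot g G s| ≤ 2 := by
  obtain ⟨w, hw⟩ := qPot_spec g G s
  rw [hw]
  have h1 := hg s
  have h2 := hg w
  rw [abs_le] at h1 h2 ⊢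
  constructor <;> linarith [h1.1, h1.2, h2.1, h2.2]

theorem qPot_of_mem (g : List ℕ → ℝ) (G : Finset (List ℕ)) {s : List ℕ} (hs : s ∈ G) :
    qPot g G s = 0 := by
  cases s with
  | nil => rfl
  | cons c v => simp [qPot, hs]

theorem pPot_spec (f : List ℕ → ℝ) (G : Finset (List ℕ))
    (hanc : ∀ c v, c :: v ∈ G → v ∈ G) (s : List ℕ) :
    (s ∈ G → pPot f G s = pathPotential f s) ∧ ∃ w, pPot f G s = pathPotential f w := by
  induction s with
  | nil => exact ⟨fun _ => rfl, [], rfl⟩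
  | cons c v ih =>
    obtain ⟨ih1, w, hw⟩ := ih
    by_cases h : c :: v ∈ G
    · have e : pPot f G (c :: v) = pathPotential f (c :: v) := by
        simp only [pPot, h, if_true, pathPotential, ih1 (hanc c v h)]
      exact ⟨fun _ => e, c :: v, e⟩
    · refine ⟨fun h' => absurd h' h, w, ?_⟩
      simp only [pPot, h, if_false, hw]

theorem abs_pPot_le {f : List ℕ → ℝ} (hf : ∀ s, |pathPotential f s| ≤ 1) (G : Finset (List ℕ))
    (hanc : ∀ c v, c :: v ∈ G → v ∈ G) (s : List ℕ) : |pPot f G s| ≤ 1 := by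
  obtain ⟨-, w, hw⟩ := pPot_spec f G hanc s
  rw [hw]
  exact hf w

/-- First re-signed potential. -/
noncomputable def Phi1 (f g : List ℕ → ℝ) (G : Finset (List ℕ)) (a b : ℝ) (s : List ℕ) : ℝ :=
  a * pPot f G s +
    (if 0 ≤ pPot f G s then -(b * max (-(qPot g G s)) 0) else b * max (qPot g G s) 0)

/-- Second re-signed potential. -/
noncomputable def Phi2 (f g : List ℕ → ℝ) (G : Finset (List ℕ)) (a b : ℝ) (s : List ℕ) : ℝ :=
  a * pPot f G s +
    (if 0 ≤ pPot f G s then -(b * max (qPot g G s) 0) else b * max (-(qPot g G s)) 0)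

theorem range_aux {a b p m : ℝ} (ha : 0 ≤ a) (ha1 : a ≤ 1) (hb : 0 ≤ b) (hb2 : 2 * b ≤ 1)
    (hp : |p| ≤ 1) (hm0 : 0 ≤ m) (hm : m ≤ 2) :
    (0 ≤ p → |a * p + -(b * m)| ≤ 1) ∧ (¬ 0 ≤ p → |a * p + b * m| ≤ 1) := by
  rw [abs_le] at hp
  have h1 : 0 ≤ b * m := mul_nonneg hb hm0
  have h2 : b * m ≤ 1 := by nlinarith
  constructor
  · intro hp0
    have h3 : 0 ≤ a * p := mul_nonneg ha hp0
    have h4 : a * p ≤ 1 := by nlinarith [hp.2]
    rw [abs_le]
    constructor <;> linarith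
  · intro hp0
    push Not at hp0
    have h3 : a * p ≤ 0 := mul_nonpos_of_nonneg_of_nonpos ha hp0.le
    have h4 : -1 ≤ a * p := by nlinarith [hp.1]
    rw [abs_le]
    constructor <;> linarith

section pair

variable {f g : List ℕ → ℝ} {G : Finset (List ℕ)} {a b : ℝ}

theorem abs_Phi1_le (hf : ∀ s, |pathPotential f s| ≤ 1) (hg : ∀ s, |pathPotential g s| ≤ 1)
    (hanc : ∀ c v, c :: v ∈ G → v ∈ G) (ha : 0 ≤ a) (ha1 : a ≤ 1) (hb : 0 ≤ b) (hb2 : 2 * b ≤ 1)
    (s : List ℕ) : |Phi1 f g G a b s| ≤ 1 := by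
  have hp := abs_pPot_le hf G hanc s
  have hq := abs_le.mp (abs_qPot_le hg G s)
  unfold Phi1
  split_ifs with h
  · exact (range_aux ha ha1 hb hb2 hp (le_max_right _ _) (max_le (by linarith [hq.1]) (by norm_num))).1 h
  · exact (range_aux ha ha1 hb hb2 hp (le_max_right _ _) (max_le (by linarith [hq.2]) (by norm_num))).2 h

theorem abs_Phi2_le (hf : ∀ s, |pathPotential f s| ≤ 1) (hg : ∀ s, |pathPotential g s| ≤ 1)
    (hanc : ∀ c v, c :: v ∈ G → v ∈ G) (ha : 0 ≤ a) (ha1 : a ≤ 1) (hb : 0 ≤ b) (hb2 : 2 * b ≤ 1)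
    (s : List ℕ) : |Phi2 f g G a b s| ≤ 1 := by
  have hp := abs_pPot_le hf G hanc s
  have hq := abs_le.mp (abs_qPot_le hg G s)
  unfold Phi2
  split_ifs with h
  · exact (range_aux ha ha1 hb hb2 hp (le_max_right _ _) (max_le (by linarith [hq.2]) (by norm_num))).1 h
  · exact (range_aux ha ha1 hb hb2 hp (le_max_right _ _) (max_le (by linarith [hq.1]) (by norm_num))).2 h

theorem hOf_Phi1_of_mem (hanc : ∀ c v, c :: v ∈ G → v ∈ G) {s : List ℕ} (hs : s ∈ G) :
    hOf (Phi1 f g G a b) s = a * f s := by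
  cases s with
  | nil =>
    simp [hOf, Phi1, qPot, pPot]
  | cons c v =>
    have hv : v ∈ G := hanc c v hs
    simp only [hOf, Phi1, qPot_of_mem g G hs, qPot_of_mem g G hv]
    simp [pPot, hs]
    ring

theorem hOf_Phi2_of_mem (hanc : ∀ c v, c :: v ∈ G → v ∈ G) {s : List ℕ} (hs : s ∈ G) :
    hOf (Phi2 f g G a b) s = a * f s := by
  cases s with
  | nil =>
    simp [hOf, Phi2, qPot, pPot]
  | cons c v =>
    have hv : v ∈ G := hanc c v hs
    simp only [hOf, Phi2, qPot_of_mem g G hs, qPot_of_mem g G hv]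
    simp [pPot, hs]
    ring

theorem abs_hOf_Phi1_not_mem (hb : 0 ≤ b) (hroot : [] ∈ G) {s : List ℕ} (hs : s ∉ G) :
    |hOf (Phi1 f g G a b) s| ≤ b * |g s| := by
  cases s with
  | nil => exact absurd hroot hs
  | cons c v =>
    have hp : pPot f G (c :: v) = pPot f G v := by simp [pPot, hs]
    have hq : qPot g G (c :: v) = qPot g G v + g (c :: v) := by simp [qPot, hs]
    simp only [hOf, Phi1, hp, hq]
    split_ifs with h
    · have e : a * pPot f G v + -(b * max (-(qPot g G v + g (c :: v))) 0) -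
          (a * pPot f G v + -(b * max (-qPot g G v) 0)) =
          -(b * (max (-(qPot g G v + g (c :: v))) 0 - max (-qPot g G v) 0)) := by ring
      rw [e, abs_neg, abs_mul, abs_of_nonneg hb]
      refine mul_le_mul_of_nonneg_left ?_ hb
      refine (abs_max_sub_max_le_abs _ _ _).trans ?_
      rw [show -(qPot g G v + g (c :: v)) - -qPot g G v = -g (c :: v) by ring, abs_neg]
    · have e : a * pPot f G v + b * max (qPot g G v + g (c :: v)) 0 -
          (a * pPot f G v + b * max (qPot g G v) 0) =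
          b * (max (qPot g G v + g (c :: v)) 0 - max (qPot g G v) 0) := by ring
      rw [e, abs_mul, abs_of_nonneg hb]
      refine mul_le_mul_of_nonneg_left ?_ hb
      refine (abs_max_sub_max_le_abs _ _ _).trans ?_
      rw [show qPot g G v + g (c :: v) - qPot g G v = g (c :: v) by ring]

theorem abs_hOf_Phi2_not_mem (hb : 0 ≤ b) (hroot : [] ∈ G) {s : List ℕ} (hs : s ∉ G) :
    |hOf (Phi2 f g G a b) s| ≤ b * |g s| := by
  cases s with
  | nil => exact absurd hroot hs
  | cons c v =>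
    have hp : pPot f G (c :: v) = pPot f G v := by simp [pPot, hs]
    have hq : qPot g G (c :: v) = qPot g G v + g (c :: v) := by simp [qPot, hs]
    simp only [hOf, Phi2, hp, hq]
    split_ifs with h
    · have e : a * pPot f G v + -(b * max (qPot g G v + g (c :: v)) 0) -
          (a * pPot f G v + -(b * max (qPot g G v) 0)) =
          -(b * (max (qPot g G v + g (c :: v)) 0 - max (qPot g G v) 0)) := by ring
      rw [e, abs_neg, abs_mul, abs_of_nonneg hb]
      refine mul_le_mul_of_nonneg_left ?_ hb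
      refine (abs_max_sub_max_le_abs _ _ _).trans ?_
      rw [show qPot g G v + g (c :: v) - qPot g G v = g (c :: v) by ring]
    · have e : a * pPot f G v + b * max (-(qPot g G v + g (c :: v))) 0 -
          (a * pPot f G v + b * max (-qPot g G v) 0) =
          b * (max (-(qPot g G v + g (c :: v))) 0 - max (-qPot g G v) 0) := by ring
      rw [e, abs_mul, abs_of_nonneg hb]
      refine mul_le_mul_of_nonneg_left ?_ hb
      refine (abs_max_sub_max_le_abs _ _ _).trans ?_
      rw [show -(qPot g G v + g (c :: v)) - -qPot g G v = -g (c :: v) by ring, abs_neg]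

theorem hOf_Phi_sub_not_mem (hroot : [] ∈ G) {s : List ℕ} (hs : s ∉ G) :
    hOf (Phi1 f g G a b) s - hOf (Phi2 f g G a b) s = b * g s := by
  cases s with
  | nil => exact absurd hroot hs
  | cons c v =>
    have hp : pPot f G (c :: v) = pPot f G v := by simp [pPot, hs]
    have hq : qPot g G (c :: v) = qPot g G v + g (c :: v) := by simp [qPot, hs]
    have key1 := max_zero_sub_max_neg_zero_eq_self (qPot g G v + g (c :: v))
    have key2 := max_zero_sub_max_neg_zero_eq_self (qPot g G v)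
    simp only [hOf, Phi1, Phi2, hp, hq]
    split_ifs with h
    · linear_combination b * key1 - b * key2
    · linear_combination b * key1 - b * key2

end pair

/-- Admissibility of an extra condition. `Act` singles out the active coordinates. -/
structure Adm (Ex : (List ℕ → ℝ) → Prop) (Act : List ℕ → Prop) : Prop where
  zero : Ex fun _ => 0
  neg : ∀ f, Ex f → Ex fun s => -f s
  single : ∀ s, Act s → Ex fun u => if u = s then 1 else 0
  inactive : ∀ f s, Ex f → ¬ Act s → f s = 0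
  combine : ∀ (f g h : List ℕ → ℝ) (G : Finset (List ℕ)) (a b : ℝ), Ex f → Ex g → [] ∈ G →
    0 ≤ a → 0 ≤ b → a ^ 2 + b ^ 2 ≤ 1 → (∀ s ∈ G, h s = a * f s) →
    (∀ s, s ∉ G → |h s| ≤ b * |g s|) → Ex h
  sibling : ∀ (f : List ℕ → ℝ) (r : List ℕ) (A : Finset ℕ), Ex f → ∑ n ∈ A, f (n :: r) ^ 2 ≤ 1

variable {Act : List ℕ → Prop}

/-- Pairs of tests. -/
theorem exists_pair (hAdm : Adm Ex Act) (f g : GTest Ex) (G : Finset (List ℕ)) (hroot : [] ∈ G)
    (hanc : ∀ c v, c :: v ∈ G → v ∈ G) {a b : ℝ} (ha : 0 ≤ a) (hb : 0 ≤ b)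
    (hab : a ^ 2 + b ^ 2 ≤ 1) (hb2 : 2 * b ≤ 1) :
    ∃ h₁ h₂ : GTest Ex, (∀ s ∈ G, h₁.1 s = a * f.1 s ∧ h₂.1 s = a * f.1 s) ∧
      (∀ s, s ∉ G → h₁.1 s - h₂.1 s = b * g.1 s) ∧
      (∀ s, s ∉ G → |h₁.1 s| ≤ b * |g.1 s| ∧ |h₂.1 s| ≤ b * |g.1 s|) := by
  have ha1 : a ≤ 1 := by nlinarith [sq_nonneg b]
  refine ⟨⟨hOf (Phi1 f.1 g.1 G a b), ?_, ?_⟩, ⟨hOf (Phi2 f.1 g.1 G a b), ?_, ?_⟩, ?_, ?_, ?_⟩
  · intro s
    rw [pathPotential_hOf]
    exact abs_Phi1_le f.2.1 g.2.1 hanc ha ha1 hb hb2 s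
  · exact hAdm.combine f.1 g.1 _ G a b f.2.2 g.2.2 hroot ha hb hab
      (fun s hs => hOf_Phi1_of_mem hanc hs) (fun s hs => abs_hOf_Phi1_not_mem hb hroot hs)
  · intro s
    rw [pathPotential_hOf]
    exact abs_Phi2_le f.2.1 g.2.1 hanc ha ha1 hb hb2 s
  · exact hAdm.combine f.1 g.1 _ G a b f.2.2 g.2.2 hroot ha hb hab
      (fun s hs => hOf_Phi2_of_mem hanc hs) (fun s hs => abs_hOf_Phi2_not_mem hb hroot hs)
  · intro s hs
    exact ⟨hOf_Phi1_of_mem hanc hs, hOf_Phi2_of_mem hanc hs⟩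
  · intro s hs
    exact hOf_Phi_sub_not_mem hroot hs
  · intro s hs
    exact ⟨abs_hOf_Phi1_not_mem hb hroot hs, abs_hOf_Phi2_not_mem hb hroot hs⟩

end Crest.Agent.PotLib
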