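import Mathlib
import Crest.Agent.Lib.PotentialTests

/-!
# Norm inequalities in generic potential spaces
-/

set_option autoImplicit false
set_option linter.deprecated false
set_option linter.unusedSectionVars false

namespace Crest.Agent.PotLib

open Crest.AnalysisR Crest.AnalysisR.TreePotential Crest.Agent.AUCGame

variable {Ex : (List ℕ → ℝ) → Prop} {Act : List ℕ → Prop}

theorem cof_of_finite_ker {X : Type} [NormedAddCommGroup X] [NormedSpace ℝ X]
    {ι : Type} [Fintype ι] (φ : ι → X →L[ℝ] ℝ) : Cof {z : X | ∀ i, φ i z = 0} := by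
  set L : X →L[ℝ] (ι → ℝ) := ContinuousLinearMap.pi φ with hL
  refine ⟨LinearMap.ker (L : X →ₗ[ℝ] (ι → ℝ)), ?_, ?_, ?_⟩
  · ext z
    simp [hL, funext_iff]
  · have : {z : X | ∀ i, φ i z = 0} = (LinearMap.ker (L : X →ₗ[ℝ] (ι → ℝ)) : Set X) := by
      ext z
      simp [hL, funext_iff]
    rw [this]
    exact L.isClosed_ker
  · exact Module.Finite.equiv (LinearMap.quotKerEquivRange (L : X →ₗ[ℝ] (ι → ℝ))).symm

/-- Potential of the delta family. -/
theorem pathPotential_delta (u s : List ℕ) :
    (u <:+ s → pathPotential (fun v => if v = u then (1 : ℝ) else 0) s = 1) ∧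
    (¬ u <:+ s → pathPotential (fun v => if v = u then (1 : ℝ) else 0) s = 0) := by
  induction s with
  | nil =>
    constructor
    · intro h
      have : u = [] := List.suffix_nil.mp h
      subst this
      simp [pathPotential]
    · intro h
      have : [] ≠ u := by
        rintro rfl
        exact h (List.suffix_refl _)
      simp [pathPotential, this]
  | cons c v ih =>
    obtain ⟨ih1, ih2⟩ := ih
    constructor
    · intro h
      by_cases he : c :: v = u
      · have hnot : ¬ u <:+ v := by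
          rintro hs
          have := hs.length_le
          rw [← he] at this
          simp at this
        simp only [pathPotential, ih2 hnot, he]
        simp
      · have hs : u <:+ v := by
          rcases List.suffix_cons_iff.mp h with h' | h'
          · exact absurd h'.symm he
          · exact h'
        simp [pathPotential, ih1 hs, he]
    · intro h
      have hnot : ¬ u <:+ v := fun hs => h (hs.trans (List.suffix_cons c v))
      have he : c :: v ≠ u := by
        rintro rfl
        exact h (List.suffix_refl _)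
      simp [pathPotential, ih2 hnot, he]

theorem abs_pathPotential_delta (u s : List ℕ) :
    |pathPotential (fun v => if v = u then (1 : ℝ) else 0) s| ≤ 1 := by
  by_cases h : u <:+ s
  · rw [(pathPotential_delta u s).1 h]; simp
  · rw [(pathPotential_delta u s).2 h]; simp

theorem pathPotential_neg (f : List ℕ → ℝ) (s : List ℕ) :
    pathPotential (fun v => -f v) s = -pathPotential f s := by
  induction s with
  | nil => rfl
  | cons c v ih =>
    simp only [pathPotential, ih]
    ring

theorem pathPotential_zero (s : List ℕ) : pathPotential (fun _ => (0 : ℝ)) s = 0 := by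
  induction s with
  | nil => rfl
  | cons c v ih =>
    simp only [pathPotential, ih]
    ring

/-- The zero test. -/
def zeroT (hAdm : Adm Ex Act) : GTest Ex :=
  ⟨fun _ => 0, fun s => by rw [pathPotential_zero]; simp, hAdm.zero⟩

/-- The negated test. -/
def negT (hAdm : Adm Ex Act) (h : GTest Ex) : GTest Ex :=
  ⟨fun s => -h.1 s, fun s => by rw [pathPotential_neg, abs_neg]; exact h.2.1 s, hAdm.neg _ h.2.2⟩

open Classical in
/-- The delta test at an active vertex, zero otherwise. -/
noncomputable def dtestO (hAdm : Adm Ex Act) (u : List ℕ) : GTest Ex :=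
  if hu : Act u then
    ⟨fun v => if v = u then 1 else 0, abs_pathPotential_delta u, hAdm.single u hu⟩
  else zeroT hAdm

theorem dtestO_apply_ne (hAdm : Adm Ex Act) {u s : List ℕ} (h : s ≠ u) :
    (dtestO hAdm u).1 s = 0 := by
  by_cases hu : Act u
  · simp [dtestO, hu, h]
  · simp [dtestO, hu, zeroT]

theorem dtestO_apply_self (hAdm : Adm Ex Act) {u : List ℕ} (hu : Act u) :
    (dtestO hAdm u).1 u = 1 := by
  simp [dtestO, hu]

theorem mul_dtestO_self (hAdm : Adm Ex Act) (g : GTest Ex) (u : List ℕ) :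
    g.1 u * (dtestO hAdm u).1 u = g.1 u := by
  by_cases hu : Act u
  · rw [dtestO_apply_self hAdm hu, mul_one]
  · rw [hAdm.inactive g.1 u g.2.2 hu]
    ring

theorem sum_dtestO (hAdm : Adm Ex Act) (g : GTest Ex) (G : Finset (List ℕ)) (s : List ℕ) :
    ∑ u ∈ G, g.1 u * (dtestO hAdm u).1 s = if s ∈ G then g.1 s else 0 := by
  split_ifs with hs
  · rw [Finset.sum_eq_single_of_mem s hs, mul_dtestO_self]
    intro u _ hu
    rw [dtestO_apply_ne hAdm (Ne.symm hu), mul_zero]
  · refine Finset.sum_eq_zero fun u hu => ?_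
    have : s ≠ u := by
      rintro rfl
      exact hs hu
    rw [dtestO_apply_ne hAdm this, mul_zero]

variable (hAdm : Adm Ex Act)
include hAdm

theorem apply_negT {z : lp (fun _ : GTest Ex => ℝ) ⊤} (hz : z ∈ gSpace Ex) (h : GTest Ex) :
    z (negT hAdm h) = -z h := by
  have := functional_zero_on_gSpace (ev (negT hAdm h) + ev h)
    (fun s => by
      show -h.1 s + h.1 s = 0
      ring) hz
  simp only [ContinuousLinearMap.add_apply, ev_apply] at this
  linarith

theorem apply_zeroT {z : lp (fun _ : GTest Ex => ℝ) ⊤} (hz : z ∈ gSpace Ex) :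
    z (zeroT hAdm) = 0 := by
  have := functional_zero_on_gSpace (ev (zeroT hAdm))
    (fun s => rfl) hz
  simpa using this

theorem exists_test_near_norm {z : lp (fun _ : GTest Ex => ℝ) ⊤} (hz : z ∈ gSpace Ex) {ε : ℝ}
    (hε : 0 < ε) : ∃ h : GTest Ex, ‖z‖ - ε < z h := by
  by_contra hcon
  push Not at hcon
  have hc : 0 ≤ ‖z‖ - ε := by
    have := hcon (zeroT hAdm)
    rwa [apply_zeroT hAdm hz] at this
  have hle : ‖z‖ ≤ ‖z‖ - ε := by
    refine lp.norm_le_of_forall_le hc fun h => ?_
    rw [Real.norm_eq_abs, abs_le]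
    have h1 := hcon h
    have h2 := hcon (negT hAdm h)
    rw [apply_negT hAdm hz] at h2
    constructor <;> linarith
  linarith

theorem span_subset_gSpace (G : Set (List ℕ)) :
    Submodule.span ℝ (gcoord Ex '' G) ≤ gSpace Ex := by
  refine (Submodule.span_mono ?_).trans (Submodule.le_topologicalClosure _)
  exact Set.image_subset_range _ _

theorem apply_of_span {G : Set (List ℕ)} {x : lp (fun _ : GTest Ex => ℝ) ⊤}
    (hx : x ∈ Submodule.span ℝ (gcoord Ex '' G)) {h f : GTest Ex} {c : ℝ}
    (hh : ∀ s ∈ G, h.1 s = c * f.1 s) : x h = c * x f := by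
  have := functional_zero_on_span (ev h - c • ev f) G
    (fun s hs => by simp [hh s hs]) hx
  simp only [ContinuousLinearMap.sub_apply, ContinuousLinearMap.smul_apply, ev_apply,
    smul_eq_mul] at this
  linarith

/-- The orthogonality identity. -/
theorem apply_sub_of_perp {G : Finset (List ℕ)} {y : lp (fun _ : GTest Ex => ℝ) ⊤}
    (hy : y ∈ gSpace Ex) (hperp : ∀ u ∈ G, y (dtestO hAdm u) = 0) {h₁ h₂ g : GTest Ex} {b : ℝ}
    (h1 : ∀ s ∈ G, h₁.1 s = h₂.1 s) (h2 : ∀ s, s ∉ G → h₁.1 s - h₂.1 s = b * g.1 s) :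
    y h₁ - y h₂ = b * y g := by
  have key := functional_zero_on_gSpace
    (ev h₁ - ev h₂ - b • ev g + b • ∑ u ∈ G, g.1 u • ev (dtestO hAdm u)) (fun s => by
      have e := sum_dtestO hAdm g G s
      simp only [ContinuousLinearMap.add_apply, ContinuousLinearMap.sub_apply,
        ContinuousLinearMap.smul_apply, ev_apply, smul_eq_mul, gcoord_apply,
        ContinuousLinearMap.sum_apply]
      rw [e]
      split_ifs with hs
      · rw [h1 s hs]; ring
      · have := h2 s hs
        linear_combination this) hy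
  simp only [ContinuousLinearMap.add_apply, ContinuousLinearMap.sub_apply,
    ContinuousLinearMap.smul_apply, ev_apply, smul_eq_mul, ContinuousLinearMap.sum_apply] at key
  have e2 : ∑ u ∈ G, g.1 u * y (dtestO hAdm u) = 0 :=
    Finset.sum_eq_zero fun u hu => by rw [hperp u hu, mul_zero]
  rw [e2] at key
  linarith

/-- The vanishing identity for a test truncated to `G`. -/
theorem apply_eq_zero_of_perp {G : Finset (List ℕ)} {y : lp (fun _ : GTest Ex => ℝ) ⊤}
    (hy : y ∈ gSpace Ex) (hperp : ∀ u ∈ G, y (dtestO hAdm u) = 0) {h : GTest Ex}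
    (h0 : ∀ s, s ∉ G → h.1 s = 0) : y h = 0 := by
  have key := functional_zero_on_gSpace
    (ev h - ∑ u ∈ G, h.1 u • ev (dtestO hAdm u)) (fun s => by
      have e := sum_dtestO hAdm h G s
      simp only [ContinuousLinearMap.sub_apply,
        ContinuousLinearMap.smul_apply, ev_apply, smul_eq_mul, gcoord_apply,
        ContinuousLinearMap.sum_apply]
      rw [e]
      split_ifs with hs
      · ring
      · rw [h0 s hs]; ring) hy
  simp only [ContinuousLinearMap.sub_apply,
    ContinuousLinearMap.smul_apply, ev_apply, smul_eq_mul, ContinuousLinearMap.sum_apply] at key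
  have e2 : ∑ u ∈ G, h.1 u * y (dtestO hAdm u) = 0 :=
    Finset.sum_eq_zero fun u hu => by rw [hperp u hu, mul_zero]
  rw [e2] at key
  linarith

/-- `R1`: the averaged norm inequality. -/
theorem avg_ge {G : Finset (List ℕ)} (hroot : [] ∈ G) (hanc : ∀ c v, c :: v ∈ G → v ∈ G)
    {x y : lp (fun _ : GTest Ex => ℝ) ⊤} (hx : x ∈ Submodule.span ℝ (gcoord Ex '' (G : Set (List ℕ))))
    (hy : y ∈ gSpace Ex) (hperp : ∀ u ∈ G, y (dtestO hAdm u) = 0)
    {a b : ℝ} (ha : 0 ≤ a) (hb : 0 ≤ b) (hab : a ^ 2 + b ^ 2 ≤ 1) (hb2 : 2 * b ≤ 1) :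
    a * ‖x‖ + b / 2 * ‖y‖ ≤ (‖x + y‖ + ‖x - y‖) / 2 := by
  have hx' : x ∈ gSpace Ex := span_subset_gSpace hAdm _ hx
  have ha1 : a ≤ 1 := by nlinarith [sq_nonneg b]
  refine le_of_forall_pos_le_add fun ε hε => ?_
  obtain ⟨f, hf⟩ := exists_test_near_norm hAdm hx' (show 0 < ε / 2 by positivity)
  obtain ⟨g, hg⟩ := exists_test_near_norm hAdm hy (show 0 < ε / 2 by positivity)
  obtain ⟨h₁, h₂, hG, hnG, -⟩ := exists_pair hAdm f g G hroot hanc ha hb hab hb2
  have e1 : x h₁ = a * x f := apply_of_span hAdm hx (fun s hs => (hG s hs).1)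
  have e2 : x h₂ = a * x f := apply_of_span hAdm hx (fun s hs => (hG s hs).2)
  have e3 : y h₁ - y h₂ = b * y g :=
    apply_sub_of_perp hAdm hy hperp (fun s hs => by rw [(hG s hs).1, (hG s hs).2]) hnG
  have e4 : (x + y) h₁ ≤ ‖x + y‖ := ev_le_norm _ _
  have e5 : (x - y) h₂ ≤ ‖x - y‖ := ev_le_norm _ _
  have e6 : (x + y) h₁ = x h₁ + y h₁ := rfl
  have e7 : (x - y) h₂ = x h₂ - y h₂ := rfl
  rw [e6] at e4
  rw [e7] at e5
  have h3 : a * (‖x‖ - ε / 2) ≤ a * x f := by gcongr
  have h4 : b * (‖y‖ - ε / 2) ≤ b * y g := by gcongr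
  have h5 : a * (ε / 2) ≤ ε / 2 := by nlinarith
  have h6 : b * (ε / 2) ≤ ε / 2 := by nlinarith
  linarith

/-- `R2`: tail vectors do not decrease the norm of vectors supported on `G`. -/
theorem norm_le_add {G : Finset (List ℕ)} (hroot : [] ∈ G) (hanc : ∀ c v, c :: v ∈ G → v ∈ G)
    {x y : lp (fun _ : GTest Ex => ℝ) ⊤} (hx : x ∈ Submodule.span ℝ (gcoord Ex '' (G : Set (List ℕ))))
    (hy : y ∈ gSpace Ex) (hperp : ∀ u ∈ G, y (dtestO hAdm u) = 0) :
    ‖x‖ ≤ ‖x + y‖ := by
  have hx' : x ∈ gSpace Ex := span_subset_gSpace hAdm _ hx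
  refine le_of_forall_pos_le_add fun ε hε => ?_
  obtain ⟨f, hf⟩ := exists_test_near_norm hAdm hx' (show 0 < ε by positivity)
  obtain ⟨h₁, h₂, hG, -, h0⟩ := exists_pair hAdm f f G hroot hanc (a := 1) (b := 0)
    zero_le_one le_rfl (by norm_num) (by norm_num)
  have e1 : x h₁ = 1 * x f := apply_of_span hAdm hx (fun s hs => (hG s hs).1)
  have e3 : y h₁ = 0 := apply_eq_zero_of_perp hAdm hy hperp (fun s hs => by
    have := (h0 s hs).1
    simpa using this)
  have e4 : (x + y) h₁ ≤ ‖x + y‖ := ev_le_norm _ _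
  have e6 : (x + y) h₁ = x h₁ + y h₁ := rfl
  rw [e6, e1, e3] at e4
  linarith

/-! ### Coordinates, branches, siblings -/

omit hAdm in
theorem one_le_norm_gcoord (hAdm : Adm Ex Act) {s : List ℕ} (hs : Act s) : 1 ≤ ‖gcoord Ex s‖ := by
  have := ev_le_norm (dtestO hAdm s) (gcoord Ex s)
  rwa [gcoord_apply, dtestO_apply_self hAdm hs] at this

omit hAdm in
theorem branch_gcoord_apply (s : List ℕ) (h : GTest Ex) :
    (branch (gcoord Ex) s) h = pathPotential h.1 s - h.1 [] := by
  induction s with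
  | nil => simp [branch, pathPotential]
  | cons c v ih =>
    have e : (branch (gcoord Ex) (c :: v)) h = (branch (gcoord Ex) v) h + gcoord Ex (c :: v) h := rfl
    rw [e, ih, gcoord_apply]
    simp only [pathPotential]
    ring

omit hAdm in
theorem norm_branch_gcoord_le (s : List ℕ) : ‖branch (gcoord Ex) s‖ ≤ 2 := by
  refine lp.norm_le_of_forall_le (by norm_num) fun h => ?_
  rw [Real.norm_eq_abs, branch_gcoord_apply]
  have h1 := h.2.1 s
  have h2 := h.2.1 []
  simp only [pathPotential] at h2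
  rw [abs_le] at h1 h2 ⊢
  constructor <;> linarith [h1.1, h1.2, h2.1, h2.2]

theorem norm_sum_siblings_le (r : List ℕ) (A : Finset ℕ) :
    ‖∑ n ∈ A, gcoord Ex (n :: r)‖ ≤ 1 * Real.sqrt A.card := by
  refine lp.norm_le_of_forall_le (by positivity) fun h => ?_
  have e : (∑ n ∈ A, gcoord Ex (n :: r)) h = ∑ n ∈ A, h.1 (n :: r) := by
    exact map_sum (ev h) (fun n => gcoord Ex (n :: r)) A
  rw [Real.norm_eq_abs, e, one_mul]
  refine Real.abs_le_sqrt ?_
  have h1 := sq_sum_le_card_mul_sum_sq (s := A) (f := fun n => h.1 (n :: r))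
  have h2 := hAdm.sibling h.1 r A h.2.2
  have h3 : (A.card : ℝ) * ∑ n ∈ A, h.1 (n :: r) ^ 2 ≤ A.card * 1 := by gcongr
  linarith

/-! ### Approximation by finitely supported vectors -/

/-- Ancestor closure. -/
def ancClosure (S : Finset (List ℕ)) : Finset (List ℕ) :=
  insert [] (S.biUnion fun s => s.tails.toFinset)

omit hAdm in
theorem root_mem_ancClosure (S : Finset (List ℕ)) : [] ∈ ancClosure S := by
  simp [ancClosure]

omit hAdm in
theorem anc_ancClosure (S : Finset (List ℕ)) (c : ℕ) (v : List ℕ) (h : c :: v ∈ ancClosure S) :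
    v ∈ ancClosure S := by
  simp only [ancClosure, Finset.mem_insert, Finset.mem_biUnion, List.mem_toFinset, List.mem_tails,
    reduceCtorEq, false_or] at h ⊢
  obtain ⟨s, hs, hsuf⟩ := h
  exact Or.inr ⟨s, hs, (List.suffix_cons c v).trans hsuf⟩

omit hAdm in
theorem subset_ancClosure (S : Finset (List ℕ)) : S ⊆ ancClosure S := by
  intro s hs
  simp only [ancClosure, Finset.mem_insert, Finset.mem_biUnion, List.mem_toFinset, List.mem_tails]
  exact Or.inr ⟨s, hs, List.suffix_refl _⟩

omit hAdm in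
theorem exists_finset_of_mem_span {b : lp (fun _ : GTest Ex => ℝ) ⊤}
    (hb : b ∈ Submodule.span ℝ (Set.range (gcoord Ex))) :
    ∃ S : Finset (List ℕ), b ∈ Submodule.span ℝ (gcoord Ex '' (S : Set (List ℕ))) := by
  induction hb using Submodule.span_induction with
  | mem x hx =>
    obtain ⟨s, rfl⟩ := hx
    refine ⟨{s}, Submodule.subset_span ?_⟩
    simp
  | zero => exact ⟨∅, Submodule.zero_mem _⟩
  | add x y _ _ hx hy =>
    obtain ⟨S₁, h₁⟩ := hx
    obtain ⟨S₂, h₂⟩ := hy
    refine ⟨S₁ ∪ S₂, Submodule.add_mem _ ?_ ?_⟩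
    · refine Submodule.span_mono (Set.image_mono ?_) h₁
      simp
    · refine Submodule.span_mono (Set.image_mono ?_) h₂
      simp
  | smul c x _ hx =>
    obtain ⟨S, h⟩ := hx
    exact ⟨S, Submodule.smul_mem _ c h⟩

omit hAdm in
/-- Every vector of the space is approximated by a vector supported on a finite ancestor-closed
set. -/
theorem exists_approx {x : lp (fun _ : GTest Ex => ℝ) ⊤} (hx : x ∈ gSpace Ex) {ε : ℝ} (hε : 0 < ε) :
    ∃ G : Finset (List ℕ), [] ∈ G ∧ (∀ c v, c :: v ∈ G → v ∈ G) ∧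
      ∃ x' ∈ Submodule.span ℝ (gcoord Ex '' (G : Set (List ℕ))), ‖x - x'‖ < ε := by
  have hx2 : x ∈ closure (Submodule.span ℝ (Set.range (gcoord Ex)) :
      Set (lp (fun _ : GTest Ex => ℝ) ⊤)) := hx
  obtain ⟨b, hb, hxb⟩ := Metric.mem_closure_iff.mp hx2 ε hε
  obtain ⟨S, hS⟩ := exists_finset_of_mem_span hb
  refine ⟨ancClosure S, root_mem_ancClosure S, anc_ancClosure S, b, ?_, ?_⟩
  · refine Submodule.span_mono (Set.image_mono ?_) hS
    exact_mod_cast subset_ancClosure S
  · rwa [← dist_eq_norm]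

end Crest.Agent.PotLib
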