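import Mathlib
import Crest.Agent.Lib.PotentialSpace

/-!
# Main results for generic potential spaces: moduli and absence of AUC renormings
-/

set_option autoImplicit false
set_option linter.deprecated false
set_option linter.unusedSectionVars false

namespace Crest.Agent.PotLib

open Crest.AnalysisR Crest.AnalysisR.TreePotential Crest.Agent.AUCGame

variable {Ex : (List ℕ → ℝ) → Prop} {Act : List ℕ → Prop}

instance gSpace_complete (Ex : (List ℕ → ℝ) → Prop) : CompleteSpace (gSpace Ex) :=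
  (Submodule.isClosed_topologicalClosure _).completeSpace_coe

/-- The tail subspace of a finite set of vertices. -/
def tail (hAdm : Adm Ex Act) (G : Finset (List ℕ)) : Set (gSpace Ex) :=
  {z | ∀ i : G, ((ev (dtestO hAdm i.1)).comp (gSpace Ex).subtypeL) z = 0}

theorem cof_tail (hAdm : Adm Ex Act) (G : Finset (List ℕ)) : Cof (tail hAdm G) :=
  cof_of_finite_ker _

theorem perp_of_mem_tail (hAdm : Adm Ex Act) {G : Finset (List ℕ)} {y : gSpace Ex}
    (hy : y ∈ tail hAdm G) : ∀ u ∈ G, (y : lp (fun _ : GTest Ex => ℝ) ⊤) (dtestO hAdm u) = 0 :=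
  fun u hu => hy ⟨u, hu⟩

/-- The midpoint modulus of the generic space for `t² ≤ 4/3`. -/
theorem midpoint_gSpace (hAdm : Adm Ex Act) {t : ℝ} (ht0 : 0 < t) (ht1 : t ^ 2 ≤ 4 / 3)
    (x : gSpace Ex) (hx : ‖x‖ = 1) {η : ℝ} (hη : 0 < η) :
    ∃ F : Set (gSpace Ex), Cof F ∧ ∀ y ∈ F, ‖y‖ = 1 →
      Real.sqrt (1 + t ^ 2 / 4) - 1 - η ≤ (‖x + t • y‖ + ‖x - t • y‖) / 2 - 1 := by
  have hxm : (x : lp (fun _ : GTest Ex => ℝ) ⊤) ∈ gSpace Ex := x.2
  obtain ⟨G, hroot, hanc, x', hx', hxx'⟩ := exists_approx hxm (show 0 < η / 2 by positivity)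
  refine ⟨tail hAdm G, cof_tail hAdm G, fun y hy hyn => ?_⟩
  set R := Real.sqrt (1 + t ^ 2 / 4) with hR
  have hR2 : R ^ 2 = 1 + t ^ 2 / 4 := Real.sq_sqrt (by positivity)
  have hR0 : 0 < R := Real.sqrt_pos.mpr (by positivity)
  have hR1 : 1 ≤ R := by nlinarith
  have hty : t • (y : lp (fun _ : GTest Ex => ℝ) ⊤) ∈ gSpace Ex := Submodule.smul_mem _ _ y.2
  have hperp : ∀ u ∈ G, (t • (y : lp (fun _ : GTest Ex => ℝ) ⊤)) (dtestO hAdm u) = 0 := by
    intro u hu
    have := perp_of_mem_tail hAdm hy u hu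
    show t • ((y : lp (fun _ : GTest Ex => ℝ) ⊤) (dtestO hAdm u)) = 0
    rw [this, smul_zero]
  have ha : 0 ≤ 1 / R := by positivity
  have hb : 0 ≤ t / 2 / R := by positivity
  have hab : (1 / R) ^ 2 + (t / 2 / R) ^ 2 ≤ 1 := by
    have : (1 / R) ^ 2 + (t / 2 / R) ^ 2 = (1 + t ^ 2 / 4) / R ^ 2 := by
      field_simp
      ring
    rw [this, hR2, div_self (by positivity)]
  have hb2 : 2 * (t / 2 / R) ≤ 1 := by
    have : 2 * (t / 2 / R) = t / R := by field_simp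
    rw [this, div_le_one hR0]
    nlinarith
  have hmain := avg_ge hAdm hroot hanc hx' hty hperp ha hb hab hb2
  have hnty : ‖t • (y : lp (fun _ : GTest Ex => ℝ) ⊤)‖ = t := by
    rw [norm_smul, Real.norm_of_nonneg ht0.le]
    have : ‖(y : lp (fun _ : GTest Ex => ℝ) ⊤)‖ = 1 := hyn
    rw [this, mul_one]
  rw [hnty] at hmain
  -- passing from `x'` to `x`
  have hnx : ‖(x : lp (fun _ : GTest Ex => ℝ) ⊤)‖ = 1 := hx
  have hx'n : 1 - η / 2 ≤ ‖x'‖ := by
    have := norm_le_norm_sub_add (x : lp (fun _ : GTest Ex => ℝ) ⊤) x'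
    linarith
  have e1 : ‖x + t • y‖ = ‖(x : lp (fun _ : GTest Ex => ℝ) ⊤) + t • (y : lp (fun _ : GTest Ex => ℝ) ⊤)‖ :=
    rfl
  have e2 : ‖x - t • y‖ = ‖(x : lp (fun _ : GTest Ex => ℝ) ⊤) - t • (y : lp (fun _ : GTest Ex => ℝ) ⊤)‖ :=
    rfl
  have e3 : ‖x' + t • (y : lp (fun _ : GTest Ex => ℝ) ⊤)‖ ≤
      ‖(x : lp (fun _ : GTest Ex => ℝ) ⊤) + t • (y : lp (fun _ : GTest Ex => ℝ) ⊤)‖ + η / 2 := by
    have h1 : x' + t • (y : lp (fun _ : GTest Ex => ℝ) ⊤) =
        ((x : lp (fun _ : GTest Ex => ℝ) ⊤) + t • (y : lp (fun _ : GTest Ex => ℝ) ⊤)) -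
          ((x : lp (fun _ : GTest Ex => ℝ) ⊤) - x') := by abel
    rw [h1]
    refine (norm_sub_le _ _).trans ?_
    linarith
  have e4 : ‖x' - t • (y : lp (fun _ : GTest Ex => ℝ) ⊤)‖ ≤
      ‖(x : lp (fun _ : GTest Ex => ℝ) ⊤) - t • (y : lp (fun _ : GTest Ex => ℝ) ⊤)‖ + η / 2 := by
    have h1 : x' - t • (y : lp (fun _ : GTest Ex => ℝ) ⊤) =
        ((x : lp (fun _ : GTest Ex => ℝ) ⊤) - t • (y : lp (fun _ : GTest Ex => ℝ) ⊤)) -
          ((x : lp (fun _ : GTest Ex => ℝ) ⊤) - x') := by abel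
    rw [h1]
    refine (norm_sub_le _ _).trans ?_
    linarith
  rw [e1, e2]
  have h6 : 1 / R * ‖x'‖ + t / 2 / R / 2 * t ≥ R - η / 2 := by
    have h7 : 1 / R * (1 - η / 2) ≤ 1 / R * ‖x'‖ := by gcongr
    have h8 : 1 / R * (1 - η / 2) + t / 2 / R / 2 * t = R - (1 / R) * (η / 2) := by
      field_simp
      nlinarith [hR2]
    have h9 : (1 / R) * (η / 2) ≤ η / 2 := by
      have : 1 / R ≤ 1 := by
        rw [div_le_one hR0]; exact hR1
      nlinarith
    linarith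
  linarith

theorem sibling_bound (hAdm : Adm Ex Act) (r : List ℕ) (A : Finset ℕ) :
    ‖∑ n ∈ A, (⟨gcoord Ex (n :: r), Submodule.le_topologicalClosure _
      (Submodule.subset_span ⟨_, rfl⟩)⟩ : gSpace Ex)‖ ≤ 1 * Real.sqrt A.card := by
  have : ((∑ n ∈ A, (⟨gcoord Ex (n :: r), Submodule.le_topologicalClosure _
      (Submodule.subset_span ⟨_, rfl⟩)⟩ : gSpace Ex) : gSpace Ex) : lp (fun _ : GTest Ex => ℝ) ⊤) =
      ∑ n ∈ A, gcoord Ex (n :: r) := by
    rw [Submodule.coe_sum]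
  have e := norm_sum_siblings_le hAdm (Ex := Ex) r A
  rw [← this] at e
  exact e

/-- The coordinate vector as a vector of the space. -/
noncomputable def ucoord (Ex : (List ℕ → ℝ) → Prop) (s : List ℕ) : gSpace Ex :=
  ⟨gcoord Ex s, Submodule.le_topologicalClosure _ (Submodule.subset_span ⟨_, rfl⟩)⟩

theorem coe_branch_ucoord (s : List ℕ) :
    ((branch (ucoord Ex) s : gSpace Ex) : lp (fun _ : GTest Ex => ℝ) ⊤) = branch (gcoord Ex) s := by
  induction s with
  | nil => rfl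
  | cons c v ih =>
    simp only [branch, Submodule.coe_add, ih]
    rfl

/-- No equivalent AUC norm on a generic potential space. -/
theorem not_auc_gSpace (hAdm : Adm Ex Act) (hact : ∀ s, s ≠ [] → Act s)
    (N : gSpace Ex → ℝ) (hN : (mkRB (gSpace Ex)).IsEquivNorm N) : ¬ (mkRB (gSpace Ex)).IsAUC N := by
  refine not_auc_of_tree 2 1 1 one_pos (fun _ => ⟨ucoord Ex, ?_, ?_, ?_⟩) N hN
  · intro s hs _
    exact one_le_norm_gcoord hAdm (hact s hs)
  · intro s _
    have : ‖branch (ucoord Ex) s‖ = ‖branch (gcoord Ex) s‖ := by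
      rw [← coe_branch_ucoord]
      rfl
    rw [this]
    exact norm_branch_gcoord_le s
  · intro r _ A
    exact sibling_bound hAdm r A

theorem not_finiteDimensional_gSpace (hAdm : Adm Ex Act) (hact : ∀ s, s ≠ [] → Act s) :
    ¬ FiniteDimensional ℝ (gSpace Ex) :=
  not_finiteDimensional_of_sqrt_bound (fun n => ucoord Ex [n]) 1 1 one_pos
    (fun n => one_le_norm_gcoord hAdm (hact _ (by simp)))
    (fun A => sibling_bound hAdm [] A)

theorem separable_gSpace (Ex : (List ℕ → ℝ) → Prop) :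
    TopologicalSpace.SeparableSpace (gSpace Ex) := by
  have h1 : TopologicalSpace.IsSeparable (Set.range (gcoord Ex)) :=
    (Set.countable_range _).isSeparable
  have h2 := h1.span (R := ℝ)
  have h3 := h2.closure
  have h4 : TopologicalSpace.IsSeparable ((gSpace Ex : Submodule ℝ _) :
      Set (lp (fun _ : GTest Ex => ℝ) ⊤)) := h3
  exact h4.separableSpace

end Crest.Agent.PotLib
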