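/-
Biased Fourier analysis on the discrete cube `ι → Bool`, self-contained, for the sharp threshold
results S0077 and S0078.
-/
import Mathlib
import Crest.Prelude.Def_FinProb

set_option autoImplicit false
set_option linter.unusedSectionVars false
set_option linter.unusedSimpArgs false

namespace Crest.Agent.SharpLib

open Finset
open Crest.FinProb (bernoulliWeight bernoulliProb)

variable {ι : Type*} [Fintype ι] [DecidableEq ι]

/-- expectation under the product measure. -/
noncomputable def Ex (p : ℝ) (g : (ι → Bool) → ℝ) : ℝ := ∑ x, bernoulliWeight p x * g x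

/-- coordinate weight -/
noncomputable def wb (p : ℝ) (b : Bool) : ℝ := if b then p else 1 - p

lemma wt_eq (p : ℝ) (x : ι → Bool) : bernoulliWeight p x = ∏ i, wb p (x i) := rfl

lemma wb_pos {p : ℝ} (h0 : 0 < p) (h1 : p < 1) (b : Bool) : 0 < wb p b := by
  unfold wb; split_ifs <;> linarith

lemma wt_pos {p : ℝ} (h0 : 0 < p) (h1 : p < 1) (x : ι → Bool) : 0 < bernoulliWeight p x := by
  rw [wt_eq]; exact Finset.prod_pos (fun i _ => wb_pos h0 h1 _)

lemma wb_sum (p : ℝ) (φ : Bool → ℝ) :
    ∑ b : Bool, wb p b * φ b = p * φ true + (1 - p) * φ false := by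
  simp [wb]

/-- product formula. -/
lemma sum_prod (φ : ι → Bool → ℝ) :
    ∑ x : ι → Bool, ∏ i, φ i (x i) = ∏ i, (φ i true + φ i false) := by
  have := (Finset.prod_univ_sum (fun _ : ι => (univ : Finset Bool)) φ).symm
  simp only [Fintype.piFinset_univ] at this
  rw [this]
  simp

lemma Ex_prod (p : ℝ) (φ : ι → Bool → ℝ) :
    Ex p (fun x => ∏ i, φ i (x i)) = ∏ i, (p * φ i true + (1 - p) * φ i false) := by
  unfold Ex
  simp_rw [wt_eq, ← Finset.prod_mul_distrib]
  rw [sum_prod (fun i b => wb p b * φ i b)]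
  simp [wb]

lemma Ex_one (p : ℝ) : Ex p (fun _ : ι → Bool => (1 : ℝ)) = 1 := by
  have := Ex_prod (ι := ι) p (fun _ _ => 1)
  simpa using this

lemma Ex_add (p : ℝ) (g h : (ι → Bool) → ℝ) :
    Ex p (fun x => g x + h x) = Ex p g + Ex p h := by
  unfold Ex; simp [mul_add, Finset.sum_add_distrib]

lemma Ex_sub (p : ℝ) (g h : (ι → Bool) → ℝ) :
    Ex p (fun x => g x - h x) = Ex p g - Ex p h := by
  unfold Ex; simp [mul_sub, Finset.sum_sub_distrib]

lemma Ex_const_mul (p c : ℝ) (g : (ι → Bool) → ℝ) :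
    Ex p (fun x => c * g x) = c * Ex p g := by
  unfold Ex; simp only [Finset.mul_sum]; congr 1; ext x; ring

lemma Ex_mul_const (p c : ℝ) (g : (ι → Bool) → ℝ) :
    Ex p (fun x => g x * c) = Ex p g * c := by
  unfold Ex; simp only [Finset.sum_mul]; congr 1; ext x; ring

lemma Ex_const (p c : ℝ) : Ex p (fun _ : ι → Bool => c) = c := by
  have := Ex_const_mul (ι := ι) p c (fun _ => 1)
  simpa [Ex_one] using this

lemma Ex_sum {κ : Type*} (p : ℝ) (s : Finset κ) (g : κ → (ι → Bool) → ℝ) :
    Ex p (fun x => ∑ k ∈ s, g k x) = ∑ k ∈ s, Ex p (g k) := by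
  unfold Ex
  simp only [Finset.mul_sum]
  rw [Finset.sum_comm]

lemma Ex_mono {p : ℝ} (h0 : 0 < p) (h1 : p < 1) {g h : (ι → Bool) → ℝ}
    (hgh : ∀ x, g x ≤ h x) : Ex p g ≤ Ex p h := by
  unfold Ex
  apply Finset.sum_le_sum
  intro x _
  exact mul_le_mul_of_nonneg_left (hgh x) (wt_pos h0 h1 x).le

lemma Ex_nonneg {p : ℝ} (h0 : 0 < p) (h1 : p < 1) {g : (ι → Bool) → ℝ}
    (hg : ∀ x, 0 ≤ g x) : 0 ≤ Ex p g := by
  have := Ex_mono (ι := ι) h0 h1 (g := fun _ => 0) (h := g) hg
  simpa [Ex_const] using this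

lemma Ex_abs_le {p : ℝ} (h0 : 0 < p) (h1 : p < 1) (g : (ι → Bool) → ℝ) :
    |Ex p g| ≤ Ex p (fun x => |g x|) := by
  unfold Ex
  refine (Finset.abs_sum_le_sum_abs _ _).trans ?_
  apply Finset.sum_le_sum
  intro x _
  rw [abs_mul, abs_of_pos (wt_pos h0 h1 x)]

lemma Ex_congr {p : ℝ} {g h : (ι → Bool) → ℝ} (hgh : ∀ x, g x = h x) : Ex p g = Ex p h := by
  unfold Ex; simp [hgh]

/-- Cauchy–Schwarz for `Ex`. -/
lemma Ex_mul_sq_le {p : ℝ} (h0 : 0 < p) (h1 : p < 1) (g h : (ι → Bool) → ℝ) :
    (Ex p (fun x => g x * h x)) ^ 2 ≤ Ex p (fun x => g x ^ 2) * Ex p (fun x => h x ^ 2) := by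
  unfold Ex
  have := Finset.sum_mul_sq_le_sq_mul_sq (univ : Finset (ι → Bool))
    (fun x => √(bernoulliWeight p x) * g x) (fun x => √(bernoulliWeight p x) * h x)
  have hw : ∀ x : ι → Bool, √(bernoulliWeight p x) * √(bernoulliWeight p x) = bernoulliWeight p x :=
    fun x => Real.mul_self_sqrt (wt_pos h0 h1 x).le
  have e1 : ∀ x : ι → Bool, (√(bernoulliWeight p x) * g x) * (√(bernoulliWeight p x) * h x)
      = bernoulliWeight p x * (g x * h x) := by
    intro x; rw [← hw x]; simp only [Real.sqrt_mul_self (Real.sqrt_nonneg _)]; ring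
  have e2 : ∀ (k : (ι → Bool) → ℝ) (x : ι → Bool), (√(bernoulliWeight p x) * k x) ^ 2
      = bernoulliWeight p x * k x ^ 2 := by
    intro k x; rw [mul_pow, Real.sq_sqrt (wt_pos h0 h1 x).le]
  simp only [e1, e2] at this
  exact this

/-! ### Characters -/

/-- the standard deviation of a coin. -/
noncomputable def sig (p : ℝ) : ℝ := √(p * (1 - p))

lemma sig_pos {p : ℝ} (h0 : 0 < p) (h1 : p < 1) : 0 < sig p :=
  Real.sqrt_pos.mpr (mul_pos h0 (by linarith))

lemma sig_sq {p : ℝ} (h0 : 0 < p) (h1 : p < 1) : sig p ^ 2 = p * (1 - p) :=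
  Real.sq_sqrt (mul_pos h0 (by linarith)).le

/-- one-coordinate normalised character. -/
noncomputable def chiB (p : ℝ) (b : Bool) : ℝ := if b then (1 - p) / sig p else -p / sig p

/-- the character of a set of coordinates. -/
noncomputable def chi (p : ℝ) (S : Finset ι) (x : ι → Bool) : ℝ := ∏ e ∈ S, chiB p (x e)

lemma chi_empty (p : ℝ) (x : ι → Bool) : chi p ∅ x = 1 := by simp [chi]

lemma chi_eq_prod (p : ℝ) (S : Finset ι) (x : ι → Bool) :
    chi p S x = ∏ i, (if i ∈ S then chiB p (x i) else 1) := by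
  unfold chi
  rw [Finset.prod_ite_mem]
  simp

lemma chiB_mean {p : ℝ} (h0 : 0 < p) (h1 : p < 1) :
    p * chiB p true + (1 - p) * chiB p false = 0 := by
  have := (sig_pos h0 h1).ne'
  simp [chiB]; field_simp; ring

lemma chiB_var {p : ℝ} (h0 : 0 < p) (h1 : p < 1) :
    p * chiB p true ^ 2 + (1 - p) * chiB p false ^ 2 = 1 := by
  have h := (sig_pos h0 h1).ne'
  have h2 := sig_sq h0 h1
  simp only [chiB, if_true, Bool.false_eq_true, if_false]
  field_simp
  rw [h2]; ring

lemma chiB_kernel {p : ℝ} (h0 : 0 < p) (h1 : p < 1) (a b : Bool) :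
    1 + chiB p a * chiB p b = if a = b then 1 / wb p a else 0 := by
  have h := (sig_pos h0 h1).ne'
  have h2 := sig_sq h0 h1
  have hp : p ≠ 0 := h0.ne'
  have hq : 1 - p ≠ 0 := by linarith
  cases a <;> cases b <;> simp [chiB, wb] <;> field_simp <;> rw [h2] <;> field_simp <;> ring

/-- orthonormality of characters. -/
lemma Ex_chi_mul_chi {p : ℝ} (h0 : 0 < p) (h1 : p < 1) (S T : Finset ι) :
    Ex p (fun x => chi p S x * chi p T x) = if S = T then 1 else 0 := by
  have e : ∀ x : ι → Bool, chi p S x * chi p T x =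
      ∏ i, ((if i ∈ S then chiB p (x i) else 1) * (if i ∈ T then chiB p (x i) else 1)) := by
    intro x
    rw [chi_eq_prod, chi_eq_prod, Finset.prod_mul_distrib]
  simp_rw [e]
  rw [Ex_prod p (fun i b => ((if i ∈ S then chiB p b else 1) * (if i ∈ T then chiB p b else 1)))]
  have hm := chiB_mean h0 h1
  have hv := chiB_var h0 h1
  split_ifs with hST
  · subst hST
    apply Finset.prod_eq_one
    intro i _
    by_cases hi : i ∈ S
    · simp only [hi, if_true]; nlinarith
    · simp only [hi, if_false]; ring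
  · obtain ⟨i, hi⟩ : ∃ i, ¬ (i ∈ S ↔ i ∈ T) := by
      by_contra hcon
      push Not at hcon
      exact hST (Finset.ext hcon)
    apply Finset.prod_eq_zero (Finset.mem_univ i)
    by_cases hS : i ∈ S <;> by_cases hT : i ∈ T <;> simp_all

lemma Ex_chi {p : ℝ} (h0 : 0 < p) (h1 : p < 1) (S : Finset ι) :
    Ex p (chi p S) = if S = ∅ then 1 else 0 := by
  have := Ex_chi_mul_chi h0 h1 S (∅ : Finset ι)
  simpa [chi_empty] using this

lemma Ex_chi_sq {p : ℝ} (h0 : 0 < p) (h1 : p < 1) (S : Finset ι) :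
    Ex p (fun x => chi p S x ^ 2) = 1 := by
  have := Ex_chi_mul_chi h0 h1 S S
  simpa [sq] using this

/-- Fourier coefficient -/
noncomputable def fc (p : ℝ) (g : (ι → Bool) → ℝ) (S : Finset ι) : ℝ :=
  Ex p (fun x => g x * chi p S x)

lemma kernel {p : ℝ} (h0 : 0 < p) (h1 : p < 1) (x y : ι → Bool) :
    ∑ S : Finset ι, chi p S x * chi p S y = if x = y then 1 / bernoulliWeight p x else 0 := by
  have h := Finset.prod_one_add (s := (univ : Finset ι)) (f := fun i => chiB p (x i) * chiB p (y i))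
  rw [Finset.powerset_univ] at h
  have e : ∀ S : Finset ι, chi p S x * chi p S y = ∏ i ∈ S, (chiB p (x i) * chiB p (y i)) := by
    intro S; unfold chi; rw [Finset.prod_mul_distrib]
  simp_rw [e]
  rw [← h]
  simp_rw [chiB_kernel h0 h1]
  split_ifs with hxy
  · subst hxy
    simp [wt_eq, Finset.prod_inv_distrib]
  · obtain ⟨i, hi⟩ : ∃ i, x i ≠ y i := by
      by_contra hcon
      push Not at hcon
      exact hxy (funext hcon)
    apply Finset.prod_eq_zero (Finset.mem_univ i)
    simp [hi]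

/-- Fourier inversion. -/
lemma fourier_expansion {p : ℝ} (h0 : 0 < p) (h1 : p < 1) (g : (ι → Bool) → ℝ) (y : ι → Bool) :
    g y = ∑ S : Finset ι, fc p g S * chi p S y := by
  unfold fc Ex
  simp_rw [Finset.sum_mul]
  rw [Finset.sum_comm]
  have : ∀ x : ι → Bool, ∑ S : Finset ι, bernoulliWeight p x * (g x * chi p S x) * chi p S y
      = bernoulliWeight p x * g x * ∑ S : Finset ι, chi p S x * chi p S y := by
    intro x
    rw [Finset.mul_sum]
    apply Finset.sum_congr rfl
    intro S _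
    ring
  simp_rw [this, kernel h0 h1]
  rw [Finset.sum_eq_single y]
  · have := (wt_pos h0 h1 y).ne'
    simp; field_simp
  · intro x _ hxy
    simp [hxy]
  · simp

/-- Parseval. -/
lemma parseval {p : ℝ} (h0 : 0 < p) (h1 : p < 1) (g h : (ι → Bool) → ℝ) :
    Ex p (fun x => g x * h x) = ∑ S : Finset ι, fc p g S * fc p h S := by
  have : ∀ x, g x * h x = ∑ S : Finset ι, fc p h S * (g x * chi p S x) := by
    intro x
    conv_lhs => rw [fourier_expansion h0 h1 h x]
    rw [Finset.mul_sum]
    apply Finset.sum_congr rfl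
    intro S _
    ring
  simp_rw [this]
  rw [Ex_sum]
  apply Finset.sum_congr rfl
  intro S _
  rw [Ex_const_mul]
  unfold fc
  ring

lemma parseval_sq {p : ℝ} (h0 : 0 < p) (h1 : p < 1) (g : (ι → Bool) → ℝ) :
    Ex p (fun x => g x ^ 2) = ∑ S : Finset ι, fc p g S ^ 2 := by
  have := parseval h0 h1 g g
  simpa [sq] using this

/-- Bessel: a sub-sum of the Fourier weights. -/
lemma bessel {p : ℝ} (h0 : 0 < p) (h1 : p < 1) (g : (ι → Bool) → ℝ) (F : Finset (Finset ι)) :
    ∑ S ∈ F, fc p g S ^ 2 ≤ Ex p (fun x => g x ^ 2) := by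
  rw [parseval_sq h0 h1]
  exact Finset.sum_le_sum_of_subset_of_nonneg (Finset.subset_univ _) (fun _ _ _ => sq_nonneg _)

lemma fc_sum_chi {p : ℝ} (h0 : 0 < p) (h1 : p < 1) (c : Finset ι → ℝ) (F : Finset (Finset ι))
    (R : Finset ι) :
    fc p (fun x => ∑ S ∈ F, c S * chi p S x) R = if R ∈ F then c R else 0 := by
  unfold fc
  simp_rw [Finset.sum_mul]
  rw [Ex_sum]
  have : ∀ S, Ex p (fun x => c S * chi p S x * chi p R x) = c S * (if S = R then 1 else 0) := by
    intro S
    simp_rw [mul_assoc]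
    rw [Ex_const_mul, Ex_chi_mul_chi h0 h1]
  simp_rw [this]
  simp

/-- the square norm of a linear combination of characters. -/
lemma Ex_sq_sum_chi {p : ℝ} (h0 : 0 < p) (h1 : p < 1) (c : Finset ι → ℝ) (F : Finset (Finset ι)) :
    Ex p (fun x => (∑ S ∈ F, c S * chi p S x) ^ 2) = ∑ S ∈ F, c S ^ 2 := by
  rw [parseval_sq h0 h1]
  simp_rw [fc_sum_chi h0 h1]
  simp only [ite_pow, ne_eq, OfNat.ofNat_ne_zero, not_false_eq_true, zero_pow]
  rw [Finset.sum_ite_mem]
  simp

/-! ### Resampling -/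

/-- take coordinates in `A` from `z` and others from `x`. -/
def mix (A : Finset ι) (x z : ι → Bool) : ι → Bool := fun e => if e ∈ A then z e else x e

lemma wt_mix_mul (p : ℝ) (A : Finset ι) (x z : ι → Bool) :
    bernoulliWeight p (mix A x z) * bernoulliWeight p (mix A z x)
      = bernoulliWeight p x * bernoulliWeight p z := by
  simp only [wt_eq, ← Finset.prod_mul_distrib]
  apply Finset.prod_congr rfl
  intro i _
  by_cases hi : i ∈ A <;> simp [mix, hi, mul_comm]

lemma mix_mix_swap (A : Finset ι) (x z : ι → Bool) : mix A (mix A x z) (mix A z x) = x := by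
  funext e
  by_cases he : e ∈ A <;> simp [mix, he]

lemma mix_mix_swap' (A : Finset ι) (x z : ι → Bool) : mix A (mix A z x) (mix A x z) = z := by
  funext e
  by_cases he : e ∈ A <;> simp [mix, he]

/-- The tower property for resampling. -/
lemma tower (p : ℝ) (A : Finset ι) (φ : (ι → Bool) → ℝ) :
    Ex p (fun x => Ex p (fun z => φ (mix A x z))) = Ex p φ := by
  classical
  unfold Ex
  simp_rw [Finset.mul_sum]
  rw [← Finset.sum_product']
  let Φ : ((ι → Bool) × (ι → Bool)) → ((ι → Bool) × (ι → Bool)) :=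
    fun q => (mix A q.1 q.2, mix A q.2 q.1)
  have hΦ : Function.Involutive Φ := by
    intro q
    simp only [Φ]
    rw [mix_mix_swap, mix_mix_swap']
  let Φe : ((ι → Bool) × (ι → Bool)) ≃ ((ι → Bool) × (ι → Bool)) := hΦ.toPerm
  have key : ∀ q : (ι → Bool) × (ι → Bool),
      bernoulliWeight p q.1 * (bernoulliWeight p q.2 * φ (mix A q.1 q.2))
        = bernoulliWeight p (Φe q).1 * bernoulliWeight p (Φe q).2 * φ (Φe q).1 := by
    intro q
    show _ = bernoulliWeight p (mix A q.1 q.2) * bernoulliWeight p (mix A q.2 q.1) * φ (mix A q.1 q.2)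
    rw [wt_mix_mul]; ring
  have : ∑ q ∈ (univ : Finset (ι → Bool)) ×ˢ (univ : Finset (ι → Bool)),
      bernoulliWeight p q.1 * (bernoulliWeight p q.2 * φ (mix A q.1 q.2))
      = ∑ q : (ι → Bool) × (ι → Bool), bernoulliWeight p q.1 * bernoulliWeight p q.2 * φ q.1 := by
    rw [Finset.univ_product_univ]
    simp_rw [key]
    exact Equiv.sum_comp Φe (fun q => bernoulliWeight p q.1 * bernoulliWeight p q.2 * φ q.1)
  rw [this]
  rw [Fintype.sum_prod_type]
  apply Finset.sum_congr rfl
  intro x _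
  have hone : ∑ z : ι → Bool, bernoulliWeight p z = 1 := by
    have := Ex_one (ι := ι) p
    simpa [Ex] using this
  calc ∑ y : ι → Bool, bernoulliWeight p x * bernoulliWeight p y * φ x
      = bernoulliWeight p x * φ x * ∑ y : ι → Bool, bernoulliWeight p y := by
        rw [Finset.mul_sum]; apply Finset.sum_congr rfl; intro y _; ring
    _ = bernoulliWeight p x * φ x := by rw [hone, mul_one]

lemma chi_mix (p : ℝ) (S A : Finset ι) (x z : ι → Bool) :
    chi p S (mix A x z) = chi p (S \ A) x * chi p (S ∩ A) z := by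
  unfold chi
  rw [← Finset.prod_sdiff (Finset.inter_subset_left (s₁ := S) (s₂ := A))]
  rw [Finset.sdiff_inter_self_left]
  congr 1
  · apply Finset.prod_congr rfl
    intro e he
    have : e ∉ A := (Finset.mem_sdiff.mp he).2
    simp [mix, this]
  · apply Finset.prod_congr rfl
    intro e he
    have : e ∈ A := (Finset.mem_inter.mp he).2
    simp [mix, this]

/-- conditional expectation: integrate out `A`. -/
noncomputable def cond (p : ℝ) (A : Finset ι) (g : (ι → Bool) → ℝ) (y : ι → Bool) : ℝ :=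
  Ex p (fun z => g (mix A y z))

lemma cond_chi {p : ℝ} (h0 : 0 < p) (h1 : p < 1) (A R : Finset ι) (y : ι → Bool) :
    cond p A (chi p R) y = if Disjoint R A then chi p R y else 0 := by
  unfold cond
  simp_rw [chi_mix]
  rw [Ex_const_mul, Ex_chi h0 h1]
  have e : R ∩ A = ∅ ↔ Disjoint R A := Finset.disjoint_iff_inter_eq_empty.symm
  by_cases hd : Disjoint R A
  · have : R ∩ A = ∅ := e.mpr hd
    simp only [this, if_true, hd]
    have hs : R \ A = R := Finset.sdiff_eq_self_of_disjoint hd
    rw [hs, mul_one]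
  · have : R ∩ A ≠ ∅ := fun h => hd (e.mp h)
    simp [this, hd]

lemma cond_expansion {p : ℝ} (h0 : 0 < p) (h1 : p < 1) (A : Finset ι) (g : (ι → Bool) → ℝ)
    (y : ι → Bool) :
    cond p A g y = ∑ R : Finset ι, if Disjoint R A then fc p g R * chi p R y else 0 := by
  have e : ∀ z, g (mix A y z) = ∑ S : Finset ι, fc p g S * chi p S (mix A y z) := fun z =>
    fourier_expansion h0 h1 g _
  unfold cond
  simp_rw [e]
  rw [Ex_sum]
  apply Finset.sum_congr rfl
  intro S _
  rw [Ex_const_mul]
  have := cond_chi h0 h1 A S y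
  unfold cond at this
  rw [this]
  split_ifs <;> simp

/-- resampling a single coordinate. -/
lemma Ex_marginal (p : ℝ) (e : ι) (ζ : Bool → ℝ) :
    Ex p (fun z => ζ (z e)) = p * ζ true + (1 - p) * ζ false := by
  have h : ∀ z : ι → Bool, ζ (z e) = ∏ i, (if i = e then ζ (z i) else 1) := by
    intro z
    rw [Finset.prod_ite_eq' ]
    simp
  simp_rw [h]
  rw [Ex_prod p (fun i b => if i = e then ζ b else 1)]
  rw [Finset.prod_eq_single e]
  · simp
  · intro b _ hb
    simp [hb]
  · simp

lemma mix_singleton (e : ι) (x z : ι → Bool) : mix {e} x z = Function.update x e (z e) := by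
  funext i
  by_cases hi : i = e
  · subst hi; simp [mix]
  · simp [mix, hi, Function.update_of_ne hi]

/-- integrate one coordinate. -/
lemma Ex_update (p : ℝ) (e : ι) (φ : (ι → Bool) → ℝ) :
    Ex p φ = Ex p (fun x => p * φ (Function.update x e true)
      + (1 - p) * φ (Function.update x e false)) := by
  rw [← tower p {e} φ]
  apply Ex_congr
  intro x
  simp_rw [mix_singleton]
  exact Ex_marginal p e (fun b => φ (Function.update x e b))

/-- If `a` does not depend on coordinate `e` then it factors off. -/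
lemma Ex_indep (p : ℝ) (e : ι) (a : (ι → Bool) → ℝ)
    (ha : ∀ x b, a (Function.update x e b) = a x) (ζ : Bool → ℝ) :
    Ex p (fun x => a x * ζ (x e)) = Ex p a * (p * ζ true + (1 - p) * ζ false) := by
  rw [Ex_update p e]
  have : ∀ x : ι → Bool, p * (a (Function.update x e true) * ζ ((Function.update x e true) e))
      + (1 - p) * (a (Function.update x e false) * ζ ((Function.update x e false) e))
      = a x * (p * ζ true + (1 - p) * ζ false) := by
    intro x
    simp only [ha, Function.update_self]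
    ring
  simp_rw [this]
  rw [Ex_mul_const]

end Crest.Agent.SharpLib
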