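/-
The Bonami lemma for biased coins: low degree polynomials have bounded 4-norm.
-/
import Crest.Agent.Lib.SharpFourier

set_option autoImplicit false
set_option linter.unusedSectionVars false
set_option linter.unusedSimpArgs false

namespace Crest.Agent.SharpLib

open Finset
open Crest.FinProb (bernoulliWeight bernoulliProb)

variable {ι : Type*} [Fintype ι] [DecidableEq ι]

/-- the hypercontractive base. -/
noncomputable def bB (p : ℝ) : ℝ := 4 / (p * (1 - p))

lemma bB_ge {p : ℝ} (h0 : 0 < p) (h1 : p < 1) : 16 ≤ bB p := by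
  have hpos : 0 < p * (1 - p) := mul_pos h0 (by linarith)
  unfold bB
  rw [le_div_iff₀ hpos]
  nlinarith [sq_nonneg (p - 1 / 2)]

lemma chi_update_of_notMem (p : ℝ) {R : Finset ι} {e : ι} (he : e ∉ R) (x : ι → Bool) (b : Bool) :
    chi p R (Function.update x e b) = chi p R x := by
  unfold chi
  apply Finset.prod_congr rfl
  intro i hi
  have : i ≠ e := fun h => he (h ▸ hi)
  simp [Function.update_of_ne this]

lemma chi_insert (p : ℝ) {R : Finset ι} {e : ι} (he : e ∉ R) (x : ι → Bool) :
    chi p (insert e R) x = chiB p (x e) * chi p R x := by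
  unfold chi
  rw [Finset.prod_insert he]

lemma mu1 {p : ℝ} (h0 : 0 < p) (h1 : p < 1) :
    p * chiB p true + (1 - p) * chiB p false = 0 := chiB_mean h0 h1

lemma mu2 {p : ℝ} (h0 : 0 < p) (h1 : p < 1) :
    p * chiB p true ^ 2 + (1 - p) * chiB p false ^ 2 = 1 := chiB_var h0 h1

/-- the third moment squared is dominated by the fourth moment; the fourth moment by `bB`. -/
lemma mu34 {p : ℝ} (h0 : 0 < p) (h1 : p < 1) :
    (p * chiB p true ^ 3 + (1 - p) * chiB p false ^ 3) ^ 2
        ≤ p * chiB p true ^ 4 + (1 - p) * chiB p false ^ 4 ∧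
      3 * (p * chiB p true ^ 4 + (1 - p) * chiB p false ^ 4) ≤ bB p := by
  have h := (sig_pos h0 h1)
  have hs := sig_sq h0 h1
  have hq : 0 < 1 - p := by linarith
  have hpq : 0 < p * (1 - p) := mul_pos h0 hq
  set s := sig p with hsdef
  have e4 : p * chiB p true ^ 4 + (1 - p) * chiB p false ^ 4 = ((1 - p) ^ 3 + p ^ 3) / (p * (1 - p)) := by
    simp only [chiB, if_true, Bool.false_eq_true, if_false]
    have : s ^ 4 = (p * (1 - p)) ^ 2 := by rw [← hs]; ring
    rw [div_pow, div_pow, this]
    field_simp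
  have e3 : (p * chiB p true ^ 3 + (1 - p) * chiB p false ^ 3) ^ 2 = (1 - 2 * p) ^ 2 / (p * (1 - p)) := by
    simp only [chiB, if_true, Bool.false_eq_true, if_false]
    have : s ^ 6 = (p * (1 - p)) ^ 3 := by rw [← hs]; ring
    rw [div_pow, div_pow]
    have e : p * ((1 - p) ^ 3 / s ^ 3) + (1 - p) * ((-p) ^ 3 / s ^ 3)
        = (p * (1 - p) * (1 - 2 * p)) / s ^ 3 := by
      field_simp; ring
    rw [e, div_pow, ← pow_mul]
    norm_num
    rw [this]
    field_simp
  rw [e4, e3]
  constructor
  · apply div_le_div_of_nonneg_right _ hpq.le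
    nlinarith [mul_pos h0 hq]
  · unfold bB
    rw [mul_div_assoc', div_le_div_iff_of_pos_right hpq]
    nlinarith [mul_pos h0 hq]

private lemma indep_aux (p : ℝ) (e : ι) (u : (ι → Bool) → ℝ)
    (hu : ∀ x b, u (Function.update x e b) = u x) (k : ℕ) :
    Ex p (fun x => u x * chiB p (x e) ^ k) =
      Ex p u * (p * chiB p true ^ k + (1 - p) * chiB p false ^ k) :=
  Ex_indep p e u hu (fun b => chiB p b ^ k)

/-- sum in a powerset, independent of `e`. -/
lemma sum_chi_update (p : ℝ) {A : Finset ι} {e : ι} (he : e ∉ A) (c : Finset ι → ℝ)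
    (x : ι → Bool) (b : Bool) :
    ∑ R ∈ A.powerset, c R * chi p R (Function.update x e b) = ∑ R ∈ A.powerset, c R * chi p R x := by
  apply Finset.sum_congr rfl
  intro R hR
  rw [chi_update_of_notMem p (fun h => he (Finset.mem_powerset.mp hR h))]

lemma Ex_sq_powerset {p : ℝ} (h0 : 0 < p) (h1 : p < 1) (A : Finset ι) (c : Finset ι → ℝ) :
    Ex p (fun x => (∑ R ∈ A.powerset, c R * chi p R x) ^ 2) = ∑ R ∈ A.powerset, c R ^ 2 :=
  Ex_sq_sum_chi h0 h1 c A.powerset

/-- Bonami's lemma for biased coins, with the polynomial supported on subsets of `A`. -/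
theorem bonami_powerset {p : ℝ} (h0 : 0 < p) (h1 : p < 1) (A : Finset ι) :
    ∀ (a : ℕ) (c : Finset ι → ℝ), (∀ R ∈ A.powerset, c R ≠ 0 → R.card ≤ a) →
      Ex p (fun x => (∑ R ∈ A.powerset, c R * chi p R x) ^ 4)
        ≤ bB p ^ a * (∑ R ∈ A.powerset, c R ^ 2) ^ 2 := by
  classical
  have hB16 := bB_ge h0 h1
  have hBpos : 0 < bB p := by linarith
  induction A using Finset.induction_on with
  | empty =>
    intro a c _
    simp only [Finset.powerset_empty, Finset.sum_singleton, chi_empty, mul_one]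
    rw [Ex_const]
    have : (1 : ℝ) ≤ bB p ^ a := one_le_pow₀ (by linarith)
    have h2 : c ∅ ^ 4 = (c ∅ ^ 2) ^ 2 := by ring
    rw [h2]
    nlinarith [sq_nonneg (c ∅ ^ 2)]
  | insert e A' he ih =>
    intro a c hc
    -- split
    have hsplit : ∀ x : ι → Bool, ∑ R ∈ (insert e A').powerset, c R * chi p R x =
        (∑ R ∈ A'.powerset, c R * chi p R x)
          + chiB p (x e) * ∑ R ∈ A'.powerset, c (insert e R) * chi p R x := by
      intro x
      rw [Finset.sum_powerset_insert he, Finset.mul_sum]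
      congr 1
      apply Finset.sum_congr rfl
      intro R hR
      rw [chi_insert p (fun h => he (Finset.mem_powerset.mp hR h))]
      ring
    have hsq : ∑ R ∈ (insert e A').powerset, c R ^ 2 =
        (∑ R ∈ A'.powerset, c R ^ 2) + ∑ R ∈ A'.powerset, c (insert e R) ^ 2 :=
      Finset.sum_powerset_insert he _
    set g₀ : (ι → Bool) → ℝ := fun x => ∑ R ∈ A'.powerset, c R * chi p R x with hg₀
    set g₁ : (ι → Bool) → ℝ := fun x => ∑ R ∈ A'.powerset, c (insert e R) * chi p R x with hg₁
    have hg₀u : ∀ x b, g₀ (Function.update x e b) = g₀ x := fun x b =>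
      sum_chi_update p he c x b
    have hg₁u : ∀ x b, g₁ (Function.update x e b) = g₁ x := fun x b =>
      sum_chi_update p he _ x b
    have hc₀ : ∀ R ∈ A'.powerset, c R ≠ 0 → R.card ≤ a := by
      intro R hR hne
      apply hc R _ hne
      rw [Finset.mem_powerset] at hR ⊢
      exact hR.trans (Finset.subset_insert _ _)
    have hX := ih a c hc₀
    set α := ∑ R ∈ A'.powerset, c R ^ 2 with hα
    set β := ∑ R ∈ A'.powerset, c (insert e R) ^ 2 with hβ
    have hα0 : 0 ≤ α := Finset.sum_nonneg (fun _ _ => sq_nonneg _)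
    have hβ0 : 0 ≤ β := Finset.sum_nonneg (fun _ _ => sq_nonneg _)
    rw [hsq]
    simp_rw [hsplit]
    -- the expansion of the fourth power
    have hexp : Ex p (fun x => (g₀ x + chiB p (x e) * g₁ x) ^ 4) =
        Ex p (fun x => g₀ x ^ 4) + 6 * Ex p (fun x => g₀ x ^ 2 * g₁ x ^ 2)
        + 4 * (p * chiB p true ^ 3 + (1 - p) * chiB p false ^ 3) * Ex p (fun x => g₀ x * g₁ x ^ 3)
        + (p * chiB p true ^ 4 + (1 - p) * chiB p false ^ 4) * Ex p (fun x => g₁ x ^ 4) := by
      have e1 : ∀ x : ι → Bool, (g₀ x + chiB p (x e) * g₁ x) ^ 4 =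
          g₀ x ^ 4 + (4 * (g₀ x ^ 3 * g₁ x) * chiB p (x e) ^ 1
            + ((6 * (g₀ x ^ 2 * g₁ x ^ 2)) * chiB p (x e) ^ 2
            + ((4 * (g₀ x * g₁ x ^ 3)) * chiB p (x e) ^ 3
            + g₁ x ^ 4 * chiB p (x e) ^ 4))) := by
        intro x; ring
      simp_rw [e1]
      rw [Ex_add, Ex_add, Ex_add, Ex_add]
      have i1 := indep_aux p e (fun x => 4 * (g₀ x ^ 3 * g₁ x))
        (fun x b => by simp only [hg₀u, hg₁u]) 1
      have i2 := indep_aux p e (fun x => 6 * (g₀ x ^ 2 * g₁ x ^ 2))
        (fun x b => by simp only [hg₀u, hg₁u]) 2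
      have i3 := indep_aux p e (fun x => 4 * (g₀ x * g₁ x ^ 3))
        (fun x b => by simp only [hg₀u, hg₁u]) 3
      have i4 := indep_aux p e (fun x => g₁ x ^ 4)
        (fun x b => by simp only [hg₁u]) 4
      rw [i1, i2, i3, i4]
      have m1 := mu1 h0 h1
      have m2 := mu2 h0 h1
      simp only [pow_one] at i1 ⊢
      rw [m1, m2, Ex_const_mul, Ex_const_mul, Ex_const_mul]
      ring
    rw [hexp]
    set τ := p * chiB p true ^ 3 + (1 - p) * chiB p false ^ 3 with hτ
    set κ := p * chiB p true ^ 4 + (1 - p) * chiB p false ^ 4 with hκ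
    obtain ⟨hτκ, hκB⟩ := mu34 h0 h1
    rw [← hτ, ← hκ] at hτκ
    rw [← hκ] at hκB
    have hκ0 : 0 ≤ κ := le_trans (sq_nonneg _) hτκ
    set X := Ex p (fun x => g₀ x ^ 4) with hXdef
    set Y := Ex p (fun x => g₁ x ^ 4) with hYdef
    set Z := Ex p (fun x => g₀ x ^ 2 * g₁ x ^ 2) with hZdef
    have hZ0 : 0 ≤ Z := Ex_nonneg h0 h1 (fun x => by positivity)
    have hX0 : 0 ≤ X := Ex_nonneg h0 h1 (fun x => by positivity)
    have hY0 : 0 ≤ Y := Ex_nonneg h0 h1 (fun x => by positivity)
    -- the third moment term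
    have hthird : 4 * τ * Ex p (fun x => g₀ x * g₁ x ^ 3) ≤ 2 * Z + 2 * κ * Y := by
      have hp : Ex p (fun x => 4 * τ * (g₀ x * g₁ x ^ 3)) ≤
          Ex p (fun x => 2 * (g₀ x ^ 2 * g₁ x ^ 2) + 2 * κ * g₁ x ^ 4) := by
        apply Ex_mono h0 h1
        intro x
        have h1' : 0 ≤ (g₀ x * g₁ x - τ * g₁ x ^ 2) ^ 2 := sq_nonneg _
        have h2' : 0 ≤ (κ - τ ^ 2) * g₁ x ^ 4 :=
          mul_nonneg (by linarith) (by positivity)
        nlinarith
      rw [Ex_const_mul, Ex_add, Ex_const_mul, Ex_const_mul] at hp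
      exact hp
    have htotal : X + 6 * Z + 4 * τ * Ex p (fun x => g₀ x * g₁ x ^ 3) + κ * Y
        ≤ X + 8 * Z + 3 * κ * Y := by linarith
    refine htotal.trans ?_
    -- now split on a
    rcases a with _ | a
    · -- degree zero: g₁ vanishes
      have hc1 : ∀ R ∈ A'.powerset, c (insert e R) = 0 := by
        intro R hR
        by_contra hne
        have hm : insert e R ∈ (insert e A').powerset := by
          rw [Finset.mem_powerset] at hR ⊢
          exact Finset.insert_subset_insert _ hR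
        have := hc _ hm hne
        simp at this
      have hg1z : ∀ x, g₁ x = 0 := by
        intro x
        simp only [hg₁]
        apply Finset.sum_eq_zero
        intro R hR
        rw [hc1 R hR, zero_mul]
      have hY' : Y = 0 := by
        simp only [hYdef, hg1z]; simpa using Ex_const (ι := ι) p 0
      have hZ' : Z = 0 := by
        simp only [hZdef, hg1z]; simpa using Ex_const (ι := ι) p 0
      have hβ' : β = 0 := by
        simp only [hβ]
        apply Finset.sum_eq_zero
        intro R hR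
        rw [hc1 R hR]; simp
      rw [hY', hZ', hβ']
      simpa using hX
    · -- degree a+1
      have hc₁ : ∀ R ∈ A'.powerset, c (insert e R) ≠ 0 → R.card ≤ a := by
        intro R hR hne
        have hm : insert e R ∈ (insert e A').powerset := by
          rw [Finset.mem_powerset] at hR ⊢
          exact Finset.insert_subset_insert _ hR
        have := hc _ hm hne
        have hnot : e ∉ R := fun h => he (Finset.mem_powerset.mp hR h)
        rw [Finset.card_insert_of_notMem hnot] at this
        omega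
      have hY := ih a (fun R => c (insert e R)) hc₁
      have hZsq : Z ^ 2 ≤ X * Y := by
        have := Ex_mul_sq_le h0 h1 (fun x => g₀ x ^ 2) (fun x => g₁ x ^ 2)
        have e1 : ∀ x, (g₀ x ^ 2) ^ 2 = g₀ x ^ 4 := fun x => by ring
        have e2 : ∀ x, (g₁ x ^ 2) ^ 2 = g₁ x ^ 4 := fun x => by ring
        simp only [e1, e2] at this
        exact this
      set s := √(bB p) with hs
      have hs2 : s ^ 2 = bB p := Real.sq_sqrt hBpos.le
      have hs4 : 4 ≤ s := by
        rw [hs]
        apply Real.le_sqrt_of_sq_le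
        norm_num; linarith
      have hs0 : 0 < s := by linarith
      -- Z bound
      have hZb : Z ≤ s ^ (2 * a + 1) * (α * β) := by
        have hnn : 0 ≤ s ^ (2 * a + 1) * (α * β) := by positivity
        apply abs_le_of_sq_le_sq' _ hnn |>.2
        calc Z ^ 2 ≤ X * Y := hZsq
          _ ≤ (bB p ^ (a + 1) * α ^ 2) * (bB p ^ a * β ^ 2) := by
            apply mul_le_mul hX hY hY0 (by positivity)
          _ = (s ^ (2 * a + 1) * (α * β)) ^ 2 := by
            rw [← hs2]; ring
      have hκY : κ * Y ≤ κ * (bB p ^ a * β ^ 2) := mul_le_mul_of_nonneg_left hY hκ0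
      have hκY' : 3 * κ * Y ≤ 3 * κ * (bB p ^ a * β ^ 2) := by
        have := mul_le_mul_of_nonneg_left hκY (by norm_num : (0:ℝ) ≤ 3)
        calc 3 * κ * Y = 3 * (κ * Y) := by ring
          _ ≤ 3 * (κ * (bB p ^ a * β ^ 2)) := this
          _ = _ := by ring
      have hfin : bB p ^ (a + 1) * α ^ 2 + 8 * (s ^ (2 * a + 1) * (α * β))
          + 3 * κ * (bB p ^ a * β ^ 2) ≤ bB p ^ (a + 1) * (α + β) ^ 2 := by
        have e1 : bB p ^ (a + 1) = s * s ^ (2 * a + 1) := by rw [← hs2]; ring
        have h8 : 8 * (s ^ (2 * a + 1) * (α * β)) ≤ 2 * (bB p ^ (a + 1) * (α * β)) := by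
          rw [e1]
          have h0' : 0 ≤ s ^ (2 * a + 1) * (α * β) := by positivity
          have := mul_nonneg (sub_nonneg.mpr hs4) h0'
          have e2 : (s - 4) * (s ^ (2 * a + 1) * (α * β)) =
            s * s ^ (2 * a + 1) * (α * β) - 4 * (s ^ (2 * a + 1) * (α * β)) := by ring
          rw [e2] at this
          linarith
        have h3 : 3 * κ * (bB p ^ a * β ^ 2) ≤ bB p ^ (a + 1) * β ^ 2 := by
          have : bB p ^ (a + 1) * β ^ 2 = bB p * (bB p ^ a * β ^ 2) := by ring
          rw [this]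
          have h' : 0 ≤ bB p ^ a * β ^ 2 := by positivity
          exact mul_le_mul_of_nonneg_right hκB h'
        have e3 : bB p ^ (a + 1) * (α + β) ^ 2 = bB p ^ (a + 1) * α ^ 2
            + 2 * (bB p ^ (a + 1) * (α * β)) + bB p ^ (a + 1) * β ^ 2 := by ring
        rw [e3]
        linarith
      linarith

/-- Bonami's lemma for arbitrary coefficient families with support of size at most `a`. -/
theorem bonami {p : ℝ} (h0 : 0 < p) (h1 : p < 1) (a : ℕ) (c : Finset ι → ℝ)
    (hc : ∀ R, c R ≠ 0 → R.card ≤ a) :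
    Ex p (fun x => (∑ R : Finset ι, c R * chi p R x) ^ 4)
      ≤ bB p ^ a * (Ex p (fun x => (∑ R : Finset ι, c R * chi p R x) ^ 2)) ^ 2 := by
  have := bonami_powerset h0 h1 (univ : Finset ι) a c (fun R _ => hc R)
  rw [Finset.powerset_univ] at this
  rw [Ex_sq_sum_chi h0 h1]
  exact this

end Crest.Agent.SharpLib
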