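/-
Influences of Boolean functions: the hybrid bound, the spectral formula for total influence.
-/
import Crest.Agent.Lib.SharpBonami

set_option autoImplicit false
set_option linter.unusedSectionVars false
set_option linter.unusedSimpArgs false

namespace Crest.Agent.SharpLib

open Finset
open Crest.FinProb (bernoulliWeight bernoulliProb)

variable {ι : Type*} [Fintype ι] [DecidableEq ι]

/-- 0/1 value of a Bool. -/
def bv (b : Bool) : ℝ := if b then 1 else 0

lemma bv_nonneg (b : Bool) : 0 ≤ bv b := by cases b <;> simp [bv]
lemma bv_le (b : Bool) : bv b ≤ 1 := by cases b <;> simp [bv]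
lemma bv_sq (b : Bool) : bv b ^ 2 = bv b := by cases b <;> simp [bv]

lemma abs_bv_sub (a b : Bool) : |bv a - bv b| = if a ≠ b then 1 else 0 := by
  cases a <;> cases b <;> simp [bv]

/-- pivotality indicator -/
noncomputable def piv (f : (ι → Bool) → Bool) (e : ι) (x : ι → Bool) : ℝ :=
  if f (Function.update x e true) ≠ f (Function.update x e false) then 1 else 0

/-- influence as an expectation. -/
noncomputable def Inf (p : ℝ) (f : (ι → Bool) → Bool) (e : ι) : ℝ := Ex p (piv f e)

lemma piv_nonneg (f : (ι → Bool) → Bool) (e : ι) (x : ι → Bool) : 0 ≤ piv f e x := by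
  unfold piv; split_ifs <;> norm_num

lemma Inf_nonneg {p : ℝ} (h0 : 0 < p) (h1 : p < 1) (f : (ι → Bool) → Bool) (e : ι) :
    0 ≤ Inf p f e := Ex_nonneg h0 h1 (piv_nonneg f e)

lemma piv_update (f : (ι → Bool) → Bool) (e : ι) (x : ι → Bool) (b : Bool) :
    piv f e (Function.update x e b) = piv f e x := by
  unfold piv
  simp only [Function.update_idem]

lemma bernoulliProb_eq_Ex (p : ℝ) (E : Set (ι → Bool)) [DecidablePred (· ∈ E)] :
    bernoulliProb p E = Ex p (fun x => if x ∈ E then 1 else 0) := by
  unfold bernoulliProb Ex
  have : (Classical.decPred (· ∈ E)) = (inferInstance : DecidablePred (· ∈ E)) :=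
    Subsingleton.elim _ _
  simp only [this]
  rw [Finset.sum_filter]
  apply Finset.sum_congr rfl
  intro x _
  split_ifs <;> simp

lemma pivotal_eq_Inf (p : ℝ) (f : (ι → Bool) → Bool) (e : ι) :
    bernoulliProb p {x | f (Function.update x e true) ≠ f (Function.update x e false)} = Inf p f e := by
  classical
  rw [bernoulliProb_eq_Ex]
  rfl

/-- one-step hybrid estimate -/
lemma step_true (f : (ι → Bool) → Bool) (e : ι) (v : ι → Bool) (b : Bool) :
    |bv (f v) - bv (f (Function.update v e b))| = piv f e v * (if v e = b then 0 else 1) := by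
  rw [abs_bv_sub]
  unfold piv
  by_cases hb : v e = b
  · have : Function.update v e b = v := by rw [← hb]; simp
    simp [this, hb]
  · have hv : v e = !b := by cases hve : v e <;> cases b <;> simp_all
    have h1 : v = Function.update v e (!b) := by rw [← hv]; simp
    cases b
    · have h2 : v = Function.update v e true := by simpa using h1
      simp only [hb, if_false, mul_one]
      conv_lhs => rw [h2]
      simp
    · have h2 : v = Function.update v e false := by simpa using h1
      simp only [hb, if_false, mul_one]
      conv_lhs => rw [h2]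
      simp [ne_comm]

/-- the hybrid quantity -/
noncomputable def hyb (p : ℝ) (f : (ι → Bool) → Bool) (B : Finset ι) : ℝ :=
  Ex p (fun x => Ex p (fun z => |bv (f x) - bv (f (mix B x z))|))

lemma mix_insert {B : Finset ι} {e : ι} (he : e ∉ B) (x z : ι → Bool) :
    mix (insert e B) x z = Function.update (mix B x z) e (z e) := by
  funext i
  by_cases hi : i = e
  · subst hi; simp [mix]
  · simp [mix, hi, Function.update_of_ne hi]

lemma mix_update_notMem {B : Finset ι} {e : ι} (he : e ∉ B) (x z : ι → Bool) (b : Bool) :
    mix B x (Function.update z e b) = mix B x z := by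
  funext i
  by_cases hi : i ∈ B
  · have : i ≠ e := fun h => he (h ▸ hi)
    simp [mix, hi, Function.update_of_ne this]
  · simp [mix, hi]

lemma step_expect {p : ℝ} (h0 : 0 < p) (h1 : p < 1) (f : (ι → Bool) → Bool) (e : ι) {B : Finset ι}
    (he : e ∉ B) :
    Ex p (fun x => Ex p (fun z => |bv (f (mix B x z)) - bv (f (Function.update (mix B x z) e (z e)))|))
      = 2 * (p * (1 - p)) * Inf p f e := by
  -- decouple the coordinate `e` of `z`
  have h : ∀ x : ι → Bool,
      Ex p (fun z => |bv (f (mix B x z)) - bv (f (Function.update (mix B x z) e (z e)))|)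
      = Ex p (fun z => p * (piv f e (mix B x z) * (if (mix B x z) e = true then 0 else 1))
          + (1 - p) * (piv f e (mix B x z) * (if (mix B x z) e = false then 0 else 1))) := by
    intro x
    rw [Ex_update p e]
    apply Ex_congr
    intro z
    simp only [mix_update_notMem he, Function.update_self, step_true]
  simp_rw [h]
  have e1 : ∀ x : ι → Bool, Ex p (fun z => p * (piv f e (mix B x z) * (if (mix B x z) e = true then 0 else 1))
          + (1 - p) * (piv f e (mix B x z) * (if (mix B x z) e = false then 0 else 1)))
      = p * Ex p (fun z => (piv f e (mix B x z) * (if (mix B x z) e = true then 0 else 1)))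
        + (1 - p) * Ex p (fun z => (piv f e (mix B x z) * (if (mix B x z) e = false then 0 else 1))) := by
    intro x
    rw [Ex_add, Ex_const_mul, Ex_const_mul]
  simp_rw [e1]
  rw [Ex_add, Ex_const_mul, Ex_const_mul]
  rw [tower p B (fun v => piv f e v * (if v e = true then 0 else 1))]
  rw [tower p B (fun v => piv f e v * (if v e = false then 0 else 1))]
  have i1 := Ex_indep p e (piv f e) (fun x b => piv_update f e x b) (fun b => if b = true then (0:ℝ) else 1)
  have i2 := Ex_indep p e (piv f e) (fun x b => piv_update f e x b) (fun b => if b = false then (0:ℝ) else 1)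
  rw [i1, i2]
  unfold Inf
  simp
  ring

/-- the hybrid bound. -/
lemma hyb_le {p : ℝ} (h0 : 0 < p) (h1 : p < 1) (f : (ι → Bool) → Bool) (B : Finset ι) :
    hyb p f B ≤ ∑ e ∈ B, 2 * (p * (1 - p)) * Inf p f e := by
  classical
  induction B using Finset.induction_on with
  | empty =>
    unfold hyb
    have : ∀ x z : ι → Bool, mix ∅ x z = x := by
      intro x z; funext i; simp [mix]
    simp [this]
    simp [Ex_const]
  | insert e B he ih =>
    rw [Finset.sum_insert he]
    have hle : hyb p f (insert e B) ≤
        Ex p (fun x => Ex p (fun z => |bv (f (mix B x z)) - bv (f (Function.update (mix B x z) e (z e)))|))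
        + hyb p f B := by
      unfold hyb
      rw [← Ex_add]
      apply Ex_mono h0 h1
      intro x
      rw [← Ex_add]
      apply Ex_mono h0 h1
      intro z
      rw [mix_insert he]
      have := abs_sub_le (bv (f x)) (bv (f (mix B x z))) (bv (f (Function.update (mix B x z) e (z e))))
      linarith
    rw [step_expect h0 h1 f e he] at hle
    linarith

/-- coordinate derivative -/
noncomputable def dv (f : (ι → Bool) → Bool) (e : ι) (x : ι → Bool) : ℝ :=
  bv (f (Function.update x e true)) - bv (f (Function.update x e false))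

lemma dv_sq (f : (ι → Bool) → Bool) (e : ι) (x : ι → Bool) : dv f e x ^ 2 = piv f e x := by
  unfold dv piv
  cases f (Function.update x e true) <;> cases f (Function.update x e false) <;> simp [bv]

lemma chi_erase (p : ℝ) {S : Finset ι} {e : ι} (he : e ∈ S) (x : ι → Bool) :
    chi p S x = chiB p (x e) * chi p (S.erase e) x := by
  unfold chi
  rw [Finset.mul_prod_erase S (fun i => chiB p (x i)) he]

lemma fc_eq_dv {p : ℝ} (h0 : 0 < p) (h1 : p < 1) (f : (ι → Bool) → Bool) {S : Finset ι} {e : ι}
    (he : e ∈ S) :
    fc p (fun x => bv (f x)) S = sig p * fc p (dv f e) (S.erase e) := by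
  unfold fc
  rw [Ex_update p e]
  rw [← Ex_const_mul]
  apply Ex_congr
  intro x
  have hs := (sig_pos h0 h1).ne'
  have hss := sig_sq h0 h1
  have hne : e ∉ S.erase e := Finset.notMem_erase e S
  have e1 : ∀ b, chi p S (Function.update x e b) = chiB p b * chi p (S.erase e) x := by
    intro b
    rw [chi_erase p he, Function.update_self, chi_update_of_notMem p hne]
  simp only [e1]
  unfold dv
  have e2 : p * chiB p true = sig p := by
    simp only [chiB, if_true]
    field_simp
    try rw [hss]
  have e3 : (1 - p) * chiB p false = - sig p := by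
    simp only [chiB, Bool.false_eq_true, if_false]
    field_simp
    try rw [hss]
    try ring
  calc p * (bv (f (Function.update x e true)) * (chiB p true * chi p (S.erase e) x))
        + (1 - p) * (bv (f (Function.update x e false)) * (chiB p false * chi p (S.erase e) x))
      = (p * chiB p true) * (bv (f (Function.update x e true)) * chi p (S.erase e) x)
        + ((1 - p) * chiB p false) * (bv (f (Function.update x e false)) * chi p (S.erase e) x) := by ring
    _ = _ := by rw [e2, e3]; ring

/-- Fourier weight on sets containing `e` is the influence. -/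
lemma sum_fc_sq_mem_le {p : ℝ} (h0 : 0 < p) (h1 : p < 1) (f : (ι → Bool) → Bool) (e : ι) :
    ∑ S ∈ univ.filter (fun S : Finset ι => e ∈ S), fc p (fun x => bv (f x)) S ^ 2
      ≤ p * (1 - p) * Inf p f e := by
  classical
  have hss := sig_sq h0 h1
  have e1 : ∀ S ∈ univ.filter (fun S : Finset ι => e ∈ S), fc p (fun x => bv (f x)) S ^ 2
      = (p * (1 - p)) * fc p (dv f e) (S.erase e) ^ 2 := by
    intro S hS
    rw [fc_eq_dv h0 h1 f (Finset.mem_filter.mp hS).2, mul_pow, hss]
  rw [Finset.sum_congr rfl e1, ← Finset.mul_sum]
  apply mul_le_mul_of_nonneg_left _ (mul_pos h0 (by linarith)).le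
  have hinj : Set.InjOn (fun S : Finset ι => S.erase e) (univ.filter (fun S : Finset ι => e ∈ S)) := by
    intro S hS S' hS' h
    have hS1 : e ∈ S := (Finset.mem_filter.mp (Finset.mem_coe.mp hS)).2
    have hS2 : e ∈ S' := (Finset.mem_filter.mp (Finset.mem_coe.mp hS')).2
    have := congrArg (insert e) h
    simpa [Finset.insert_erase hS1, Finset.insert_erase hS2] using this
  rw [← Finset.sum_image (f := fun S => fc p (dv f e) S ^ 2) hinj]
  refine (bessel h0 h1 (dv f e) _).trans ?_
  unfold Inf
  apply le_of_eq
  apply Ex_congr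
  intro x
  exact dv_sq f e x

/-- total influence as a spectral sum. -/
lemma sum_card_fc_sq_le {p : ℝ} (h0 : 0 < p) (h1 : p < 1) (f : (ι → Bool) → Bool) :
    ∑ S : Finset ι, (S.card : ℝ) * fc p (fun x => bv (f x)) S ^ 2
      ≤ p * (1 - p) * ∑ e, Inf p f e := by
  classical
  have e1 : ∀ S : Finset ι, (S.card : ℝ) * fc p (fun x => bv (f x)) S ^ 2
      = ∑ e : ι, if e ∈ S then fc p (fun x => bv (f x)) S ^ 2 else 0 := by
    intro S
    rw [Finset.sum_ite_mem]
    simp
  simp_rw [e1]
  rw [Finset.sum_comm, Finset.mul_sum]
  apply Finset.sum_le_sum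
  intro e _
  have := sum_fc_sq_mem_le h0 h1 f e
  rw [Finset.sum_filter] at this
  exact this

/-- variance as a spectral sum. -/
lemma variance_eq {p : ℝ} (h0 : 0 < p) (h1 : p < 1) (f : (ι → Bool) → Bool) :
    Ex p (fun x => bv (f x)) * (1 - Ex p (fun x => bv (f x)))
      = ∑ S ∈ univ.filter (fun S : Finset ι => S ≠ ∅), fc p (fun x => bv (f x)) S ^ 2 := by
  classical
  have hp := parseval_sq h0 h1 (fun x => bv (f x))
  have e0 : fc p (fun x => bv (f x)) ∅ = Ex p (fun x => bv (f x)) := by
    unfold fc; simp [chi_empty]
  simp only [bv_sq] at hp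
  rw [← Finset.sum_erase_add _ _ (Finset.mem_univ (∅ : Finset ι)), e0] at hp
  have : univ.filter (fun S : Finset ι => S ≠ ∅) = (univ : Finset (Finset ι)).erase ∅ := by
    ext S; simp
  rw [this]
  nlinarith

end Crest.Agent.SharpLib
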