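/-
The core inequality behind the sharp threshold theorems.

Fix a block `T` of vertices and a vertex `u ∉ T`. Integrating out all coordinates touching `T`,
the remaining dependence of the function on the star of `u` is small in `L²` by symmetry
(Hoeffding), and its `L¹` norm is bounded by influences (hybrid argument).
By Bonami's lemma for low degree in the star of `u` we bound the Fourier weight of sets
having a low degree vertex.
-/
import Crest.Agent.Lib.SharpInfluence

set_option autoImplicit false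
set_option linter.unusedSectionVars false
set_option linter.unusedSimpArgs false
set_option linter.unusedVariables false

namespace Crest.Agent.SharpLib

open Finset
open Crest.FinProb (bernoulliWeight bernoulliProb)

variable {ι V : Type} [Fintype ι] [DecidableEq ι] [Fintype V] [DecidableEq V]

lemma wt_comp_perm (p : ℝ) (τ : Equiv.Perm ι) (z : ι → Bool) :
    bernoulliWeight p (z ∘ τ) = bernoulliWeight p z := by
  simp only [wt_eq, Function.comp]
  exact Equiv.prod_comp τ (fun i => wb p (z i))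

lemma Ex_comp_perm (p : ℝ) (τ : Equiv.Perm ι) (φ : (ι → Bool) → ℝ) :
    Ex p (fun z => φ (z ∘ τ)) = Ex p φ := by
  unfold Ex
  let ρ : (ι → Bool) ≃ (ι → Bool) := τ.symm.arrowCongr (Equiv.refl Bool)
  have hρ : ∀ z, ρ z = z ∘ τ := fun z => by
    funext i; simp [ρ, Equiv.arrowCongr]
  have := Equiv.sum_comp ρ (fun z => bernoulliWeight p z * φ z)
  simp only [hρ, wt_comp_perm] at this
  exact this

lemma chi_comp_perm (p : ℝ) (τ : Equiv.Perm ι) (R : Finset ι) (z : ι → Bool) :
    chi p R (z ∘ τ) = chi p (R.map τ.toEmbedding) z := by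
  unfold chi
  rw [Finset.prod_map]
  rfl

/-- Two nested Cauchy–Schwarz inequalities. -/
lemma four_moment {p : ℝ} (h0 : 0 < p) (h1 : p < 1) (P Q : (ι → Bool) → ℝ) :
    (Ex p (fun y => P y * Q y)) ^ 4
      ≤ (Ex p (fun y => |P y|)) ^ 2 * Ex p (fun y => P y ^ 2) * Ex p (fun y => Q y ^ 4) := by
  have h1' : (Ex p (fun y => P y * Q y)) ^ 2 ≤
      Ex p (fun y => |P y|) * Ex p (fun y => |P y| * Q y ^ 2) := by
    have hCS := Ex_mul_sq_le h0 h1 (fun y => √|P y|) (fun y => √|P y| * |Q y|)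
    have e1 : ∀ y, √|P y| ^ 2 = |P y| := fun y => Real.sq_sqrt (abs_nonneg _)
    have e2 : ∀ y, (√|P y| * |Q y|) ^ 2 = |P y| * Q y ^ 2 := by
      intro y; rw [mul_pow, e1, sq_abs]
    have e3 : ∀ y, √|P y| * (√|P y| * |Q y|) = |P y * Q y| := by
      intro y
      rw [← mul_assoc, Real.mul_self_sqrt (abs_nonneg _), abs_mul]
    simp only [e1, e2, e3] at hCS
    have hab := Ex_abs_le h0 h1 (fun y => P y * Q y)
    have : (Ex p (fun y => P y * Q y)) ^ 2 ≤ (Ex p (fun y => |P y * Q y|)) ^ 2 :=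
      sq_le_sq' (by linarith [abs_le.mp hab]) (by linarith [abs_le.mp hab])
    linarith
  have h2' : (Ex p (fun y => |P y| * Q y ^ 2)) ^ 2 ≤ Ex p (fun y => P y ^ 2) * Ex p (fun y => Q y ^ 4) := by
    have hCS := Ex_mul_sq_le h0 h1 (fun y => |P y|) (fun y => Q y ^ 2)
    simp only [sq_abs] at hCS
    have e : ∀ y, (Q y ^ 2) ^ 2 = Q y ^ 4 := fun y => by ring
    simpa only [e] using hCS
  have hA : 0 ≤ Ex p (fun y => |P y|) := Ex_nonneg h0 h1 (fun y => abs_nonneg _)
  have hB : 0 ≤ Ex p (fun y => |P y| * Q y ^ 2) := Ex_nonneg h0 h1 (fun y => by positivity)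
  calc (Ex p (fun y => P y * Q y)) ^ 4 = ((Ex p (fun y => P y * Q y)) ^ 2) ^ 2 := by ring
    _ ≤ (Ex p (fun y => |P y|) * Ex p (fun y => |P y| * Q y ^ 2)) ^ 2 :=
        pow_le_pow_left₀ (sq_nonneg _) h1' 2
    _ = (Ex p (fun y => |P y|)) ^ 2 * (Ex p (fun y => |P y| * Q y ^ 2)) ^ 2 := by ring
    _ ≤ (Ex p (fun y => |P y|)) ^ 2 * (Ex p (fun y => P y ^ 2) * Ex p (fun y => Q y ^ 4)) :=
        mul_le_mul_of_nonneg_left h2' (sq_nonneg _)
    _ = _ := by ring

section Setup

variable (vs : ι → Finset V) (act : Equiv.Perm V → Equiv.Perm ι)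

/-- coordinates touching a vertex set -/
def Wset (T' : Finset V) : Finset ι := univ.filter (fun e => ¬ Disjoint (vs e) T')

/-- coordinates at `u` avoiding `T` -/
def Bset (T : Finset V) (u : V) : Finset ι := univ.filter (fun e => u ∈ vs e ∧ Disjoint (vs e) T)

lemma Bset_subset_Wset (T : Finset V) (u : V) : Bset vs T u ⊆ Wset vs (insert u T) := by
  intro e he
  simp only [Bset, Wset, mem_filter, mem_univ, true_and] at he ⊢
  rw [Finset.not_disjoint_iff]
  exact ⟨u, he.1, Finset.mem_insert_self _ _⟩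

/-- the fibre function -/
noncomputable def Fx (f : (ι → Bool) → Bool) (W : Finset ι) (x z : ι → Bool) : ℝ :=
  bv (f (mix W x z))

variable (vs_act : ∀ σ e, vs (act σ e) = (vs e).image σ) (vs_inj : Function.Injective vs)
variable (f : (ι → Bool) → Bool) (hf : ∀ σ (y : ι → Bool), f (y ∘ act σ) = f y)

include vs_act vs_inj in
lemma act_fix {T' : Finset V} {t u : V} (ht : t ∈ T') (hu : u ∈ T') {e : ι}
    (he : Disjoint (vs e) T') : act (Equiv.swap t u) e = e := by
  apply vs_inj
  rw [vs_act]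
  have : ∀ v ∈ vs e, Equiv.swap t u v = v := by
    intro v hv
    have hvn : v ∉ T' := Finset.disjoint_left.mp he hv
    apply Equiv.swap_apply_of_ne_of_ne
    · rintro rfl; exact hvn ht
    · rintro rfl; exact hvn hu
  rw [Finset.image_congr (g := id) (fun v hv => this v hv)]
  simp

include vs_act in
lemma act_mem_W {T' : Finset V} {t u : V} (ht : t ∈ T') (hu : u ∈ T') {e : ι}
    (he : ¬ Disjoint (vs e) T') : ¬ Disjoint (vs (act (Equiv.swap t u) e)) T' := by
  rw [Finset.not_disjoint_iff] at he ⊢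
  obtain ⟨v, hv, hvT⟩ := he
  refine ⟨Equiv.swap t u v, ?_, ?_⟩
  · rw [vs_act]; exact Finset.mem_image_of_mem _ hv
  · by_cases h1 : v = t
    · subst h1; simpa using hu
    · by_cases h2 : v = u
      · subst h2; simpa using ht
      · rw [Equiv.swap_apply_of_ne_of_ne h1 h2]; exact hvT

include vs_act vs_inj in
lemma mix_comp {T' : Finset V} {t u : V} (ht : t ∈ T') (hu : u ∈ T') (x z : ι → Bool) :
    mix (Wset vs T') x (z ∘ act (Equiv.swap t u)) = (mix (Wset vs T') x z) ∘ act (Equiv.swap t u) := by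
  funext e
  by_cases he : ¬ Disjoint (vs e) T'
  · have h1 : e ∈ Wset vs T' := by simp [Wset, he]
    have h2 : act (Equiv.swap t u) e ∈ Wset vs T' := by
      simp only [Wset, mem_filter, mem_univ, true_and]
      exact act_mem_W vs act vs_act ht hu he
    simp [mix, h1, h2]
  · have hd : Disjoint (vs e) T' := not_not.mp he
    have h1 : e ∉ Wset vs T' := by simp [Wset, hd]
    have hfix := act_fix vs act vs_act vs_inj ht hu hd
    simp [mix, h1, hfix]

include vs_act vs_inj hf in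
lemma Fx_inv {T' : Finset V} {t u : V} (ht : t ∈ T') (hu : u ∈ T') (x z : ι → Bool) :
    Fx f (Wset vs T') x (z ∘ act (Equiv.swap t u)) = Fx f (Wset vs T') x z := by
  unfold Fx
  rw [mix_comp vs act vs_act vs_inj ht hu, hf]

include vs_act vs_inj hf in
lemma fc_Fx_map (p : ℝ) {T' : Finset V} {t u : V} (ht : t ∈ T') (hu : u ∈ T') (x : ι → Bool)
    (R : Finset ι) :
    fc p (Fx f (Wset vs T') x) (R.map (act (Equiv.swap t u)).toEmbedding)
      = fc p (Fx f (Wset vs T') x) R := by
  unfold fc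
  rw [← Ex_comp_perm p (act (Equiv.swap t u)) (fun z => Fx f (Wset vs T') x z * chi p R z)]
  apply Ex_congr
  intro z
  rw [Fx_inv vs act vs_act vs_inj f hf ht hu, chi_comp_perm]

/-- Nonempty subsets of `B`. -/
def Rfam (B : Finset ι) : Finset (Finset ι) := B.powerset.erase ∅

include vs_act in
lemma mem_vs_act_iff {T : Finset V} {u : V} {e : ι} (he : e ∈ Bset vs T u)
    {t v : V} (ht : t ∈ insert u T) (hv : v ∈ insert u T) :
    v ∈ vs (act (Equiv.swap t u) e) ↔ v = t := by
  simp only [Bset, mem_filter, mem_univ, true_and] at he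
  obtain ⟨heu, hed⟩ := he
  rw [vs_act, Finset.mem_image]
  constructor
  · rintro ⟨w, hw, hwv⟩
    by_contra hne
    have hw_eq : w = Equiv.swap t u v := by
      rw [← hwv]; simp
    by_cases hvu : v = u
    · subst hvu
      have : w = t := by rw [hw_eq]; simp
      subst this
      have htT : w ∈ T := by
        rcases Finset.mem_insert.mp ht with h | h
        · exact absurd h.symm hne
        · exact h
      exact Finset.disjoint_left.mp hed hw htT
    · have : w = v := by rw [hw_eq]; exact Equiv.swap_apply_of_ne_of_ne hne hvu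
      subst this
      have htT : w ∈ T := by
        rcases Finset.mem_insert.mp hv with h | h
        · exact absurd h hvu
        · exact h
      exact Finset.disjoint_left.mp hed hw htT
  · rintro rfl
    exact ⟨u, heu, by simp⟩

lemma bv_Fx_sq_le {W : Finset ι} (p : ℝ) (h0 : 0 < p) (h1 : p < 1) (x : ι → Bool) :
    Ex p (fun z => Fx f W x z ^ 2) ≤ 1 := by
  have : Ex p (fun z => Fx f W x z ^ 2) ≤ Ex p (fun _ : ι → Bool => (1:ℝ)) := by
    apply Ex_mono h0 h1
    intro z
    unfold Fx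
    rw [bv_sq]
    exact bv_le _
  simpa [Ex_one] using this

include vs_act vs_inj hf in
/-- The symmetric `L²` bound. -/
lemma Fx_L2 {p : ℝ} (h0 : 0 < p) (h1 : p < 1) {T : Finset V} {u : V} (hu : u ∉ T) (x : ι → Bool) :
    ((T.card : ℝ) + 1) * ∑ R ∈ Rfam (Bset vs T u), fc p (Fx f (Wset vs (insert u T)) x) R ^ 2 ≤ 1 := by
  classical
  set T' := insert u T with hT'
  set F := Fx f (Wset vs T') x with hF
  set Rf := Rfam (Bset vs T u) with hRf
  have hcard : (T'.card : ℝ) = (T.card : ℝ) + 1 := by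
    rw [hT', Finset.card_insert_of_notMem hu]; push_cast; ring
  have huT' : u ∈ T' := Finset.mem_insert_self _ _
  let Φ : V × Finset ι → Finset ι := fun q => q.2.map (act (Equiv.swap q.1 u)).toEmbedding
  have hinj : Set.InjOn Φ (T' ×ˢ Rf : Finset (V × Finset ι)) := by
    rintro ⟨t, R⟩ hq ⟨t', R'⟩ hq' hΦ
    simp only [Finset.coe_product, Set.mem_prod, Finset.mem_coe] at hq hq'
    obtain ⟨ht, hR⟩ := hq
    obtain ⟨ht', hR'⟩ := hq'
    simp only [hRf, Rfam, Finset.mem_erase, Finset.mem_powerset] at hR hR'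
    obtain ⟨e, heR⟩ := Finset.nonempty_iff_ne_empty.mpr hR.1
    have hmem : act (Equiv.swap t u) e ∈ Φ (t', R') := by
      rw [← hΦ]
      simp only [Φ, Finset.mem_map]
      exact ⟨e, heR, rfl⟩
    simp only [Φ, Finset.mem_map] at hmem
    obtain ⟨e', he', hee'⟩ := hmem
    have h1' : t ∈ vs (act (Equiv.swap t u) e) :=
      (mem_vs_act_iff vs act vs_act (hR.2 heR) ht ht).mpr rfl
    have h2' : t ∈ vs (act (Equiv.swap t' u) e') := by
      have : (act (Equiv.swap t' u)).toEmbedding e' = act (Equiv.swap t u) e := hee'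
      simp only [Equiv.coe_toEmbedding] at this
      rw [this]; exact h1'
    have htt' : t = t' := (mem_vs_act_iff vs act vs_act (hR'.2 he') ht' ht).mp h2'
    subst htt'
    have : R = R' := Finset.map_injective _ hΦ
    subst this
    rfl
  have hsum : ∑ q ∈ T' ×ˢ Rf, fc p F (Φ q) ^ 2 = (T'.card : ℝ) * ∑ R ∈ Rf, fc p F R ^ 2 := by
    rw [Finset.sum_product]
    have : ∀ t ∈ T', ∑ R ∈ Rf, fc p F (Φ (t, R)) ^ 2 = ∑ R ∈ Rf, fc p F R ^ 2 := by
      intro t ht
      apply Finset.sum_congr rfl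
      intro R _
      simp only [Φ]
      rw [hF, fc_Fx_map vs act vs_act vs_inj f hf p ht huT' x R]
    rw [Finset.sum_congr rfl this, Finset.sum_const, nsmul_eq_mul]
  have himg : ∑ q ∈ T' ×ˢ Rf, fc p F (Φ q) ^ 2 = ∑ y ∈ (T' ×ˢ Rf).image Φ, fc p F y ^ 2 :=
    (Finset.sum_image (f := fun y => fc p F y ^ 2) hinj).symm
  have hbes := bessel h0 h1 F ((T' ×ˢ Rf).image Φ)
  have hle := bv_Fx_sq_le (W := Wset vs T') f p h0 h1 x
  rw [← hcard, ← hsum, himg]
  exact hbes.trans hle

/-- the function `P`. -/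
noncomputable def Pf (p : ℝ) (f : (ι → Bool) → Bool) (W B : Finset ι) (x y : ι → Bool) : ℝ :=
  ∑ R ∈ Rfam B, fc p (Fx f W x) R * chi p R y

lemma Ex_Fx_eq (p : ℝ) (W : Finset ι) (x : ι → Bool) :
    fc p (Fx f W x) ∅ = Ex p (Fx f W x) := by
  unfold fc; simp [chi_empty]

lemma cond_Fx_eq {p : ℝ} (h0 : 0 < p) (h1 : p < 1) (W B : Finset ι) (x y : ι → Bool) :
    cond p Bᶜ (Fx f W x) y = Ex p (Fx f W x) + Pf p f W B x y := by
  rw [cond_expansion h0 h1]
  rw [← Finset.sum_filter]
  have : univ.filter (fun R : Finset ι => Disjoint R Bᶜ) = B.powerset := by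
    ext R
    simp only [mem_filter, mem_univ, true_and, mem_powerset]
    constructor
    · intro h e he
      by_contra hne
      exact Finset.disjoint_left.mp h he (Finset.mem_compl.mpr hne)
    · intro h
      rw [Finset.disjoint_left]
      intro e he hc
      exact Finset.mem_compl.mp hc (h he)
  rw [this]
  unfold Pf Rfam
  rw [← Finset.add_sum_erase _ _ (Finset.empty_mem_powerset B), Ex_Fx_eq, chi_empty, mul_one]

lemma Ex_comm (p : ℝ) (φ : (ι → Bool) → (ι → Bool) → ℝ) :
    Ex p (fun a => Ex p (fun b => φ a b)) = Ex p (fun b => Ex p (fun a => φ a b)) := by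
  unfold Ex
  simp only [Finset.mul_sum]
  rw [Finset.sum_comm]
  apply Finset.sum_congr rfl
  intro b _
  apply Finset.sum_congr rfl
  intro a _
  ring

lemma mix_three {W B : Finset ι} (hBW : B ⊆ W) (x y y' z : ι → Bool) :
    mix W x (mix Bᶜ y' z) = mix B (mix W x (mix Bᶜ y z)) y' := by
  funext e
  by_cases he : e ∈ B
  · have heW : e ∈ W := hBW he
    simp [mix, he, heW]
  · by_cases heW : e ∈ W <;> simp [mix, he, heW]

/-- The `L¹` bound for `P`. -/
lemma Pf_L1 {p : ℝ} (h0 : 0 < p) (h1 : p < 1) {W B : Finset ι} (hBW : B ⊆ W) :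
    Ex p (fun x => Ex p (fun y => |Pf p f W B x y|)) ≤ hyb p f B := by
  have hpt : ∀ x y : ι → Bool, |Pf p f W B x y| ≤
      Ex p (fun y' => Ex p (fun z => |bv (f (mix W x (mix Bᶜ y z)))
        - bv (f (mix B (mix W x (mix Bᶜ y z)) y'))|)) := by
    intro x y
    have e1 : Pf p f W B x y = cond p Bᶜ (Fx f W x) y - Ex p (Fx f W x) := by
      rw [cond_Fx_eq f h0 h1 W B x y]; ring
    have e2 : Ex p (Fx f W x) = Ex p (fun y' => cond p Bᶜ (Fx f W x) y') :=
      (tower p Bᶜ (Fx f W x)).symm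
    have e3 : cond p Bᶜ (Fx f W x) y = Ex p (fun _ : ι → Bool => cond p Bᶜ (Fx f W x) y) :=
      (Ex_const p _).symm
    rw [e1, e2, e3, ← Ex_sub]
    refine (Ex_abs_le h0 h1 _).trans ?_
    apply Ex_mono h0 h1
    intro y'
    have e4 : cond p Bᶜ (Fx f W x) y - cond p Bᶜ (Fx f W x) y'
        = Ex p (fun z => Fx f W x (mix Bᶜ y z) - Fx f W x (mix Bᶜ y' z)) := by
      unfold cond; rw [Ex_sub]
    rw [e4]
    refine (Ex_abs_le h0 h1 _).trans ?_
    apply Ex_mono h0 h1
    intro z
    unfold Fx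
    rw [mix_three hBW x y y' z]
  have h2 : Ex p (fun x => Ex p (fun y => |Pf p f W B x y|)) ≤
      Ex p (fun x => Ex p (fun y => Ex p (fun y' => Ex p (fun z =>
        |bv (f (mix W x (mix Bᶜ y z))) - bv (f (mix B (mix W x (mix Bᶜ y z)) y'))|)))) := by
    apply Ex_mono h0 h1
    intro x
    apply Ex_mono h0 h1
    intro y
    exact hpt x y
  refine h2.trans (le_of_eq ?_)
  -- rearrangement
  set Ψ : (ι → Bool) → (ι → Bool) → ℝ := fun y' v => |bv (f v) - bv (f (mix B v y'))| with hΨ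
  have e1 : ∀ x : ι → Bool, Ex p (fun y => Ex p (fun y' => Ex p (fun z => Ψ y' (mix W x (mix Bᶜ y z)))))
      = Ex p (fun y' => Ex p (fun w => Ψ y' (mix W x w))) := by
    intro x
    rw [Ex_comm]
    apply Ex_congr
    intro y'
    exact tower p Bᶜ (fun w => Ψ y' (mix W x w))
  have e2 : Ex p (fun x => Ex p (fun y => Ex p (fun y' => Ex p (fun z => Ψ y' (mix W x (mix Bᶜ y z))))))
      = Ex p (fun v => Ex p (fun y' => Ψ y' v)) := by
    simp_rw [e1]
    rw [Ex_comm]
    have : ∀ y' : ι → Bool, Ex p (fun x => Ex p (fun w => Ψ y' (mix W x w))) = Ex p (Ψ y') :=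
      fun y' => tower p W (Ψ y')
    simp_rw [this]
    rw [Ex_comm]
  simp only [hΨ] at e2
  rw [e2]
  rfl

include vs_act vs_inj in
/-- The key inequality at one vertex `u ∉ T`. -/
theorem per_u {p : ℝ} (h0 : 0 < p) (h1 : p < 1) (hf : ∀ σ (y : ι → Bool), f (y ∘ act σ) = f y)
    (a : ℕ) {T : Finset V} {u : V} (hu : u ∉ T)
    (𝓢 : Finset (Finset ι))
    (hS : ∀ S ∈ 𝓢, S ∩ Wset vs (insert u T) ∈ Rfam (Bset vs T u)
      ∧ (S ∩ Wset vs (insert u T)).card ≤ a) :
    ∑ S ∈ 𝓢, fc p (fun x => bv (f x)) S ^ 2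
      ≤ √(1 / ((T.card : ℝ) + 1)) * √(bB p) ^ a * hyb p f (Bset vs T u) := by
  classical
  set W := Wset vs (insert u T) with hW
  set B := Bset vs T u with hB
  set fF : (ι → Bool) → ℝ := fun x => bv (f x) with hfF
  set g : Finset ι → ℝ := fun S => fc p fF S with hg
  set A := ∑ S ∈ 𝓢, g S ^ 2 with hA
  set h : (ι → Bool) → ℝ := fun z => ∑ S ∈ 𝓢, g S * chi p S z with hh
  set v := √(1 / ((T.card : ℝ) + 1)) with hv
  set s := √(bB p) with hs
  have hBpos : 0 < bB p := by linarith [bB_ge h0 h1]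
  have hs2 : s ^ 2 = bB p := Real.sq_sqrt hBpos.le
  have hs0 : 0 ≤ s := Real.sqrt_nonneg _
  have hv0 : 0 ≤ v := Real.sqrt_nonneg _
  have hcpos : (0:ℝ) < (T.card : ℝ) + 1 := by positivity
  have hv2 : v ^ 2 = 1 / ((T.card : ℝ) + 1) := Real.sq_sqrt (by positivity)
  have hA0 : 0 ≤ A := Finset.sum_nonneg (fun _ _ => sq_nonneg _)
  have hhyb0 : 0 ≤ hyb p f B :=
    Ex_nonneg h0 h1 (fun x => Ex_nonneg h0 h1 (fun z => abs_nonneg _))
  -- Fibre objects
  set F : (ι → Bool) → (ι → Bool) → ℝ := fun x => Fx f W x with hF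
  set P : (ι → Bool) → (ι → Bool) → ℝ := fun x => Pf p f W B x with hP
  set Q : (ι → Bool) → (ι → Bool) → ℝ := fun x y => h (mix W x y) with hQ
  set I : (ι → Bool) → ℝ := fun x => Ex p (fun y => F x y * Q x y) with hI
  -- A as an expectation
  have hA1 : A = Ex p I := by
    have e1 : Ex p (fun z => fF z * h z) = A := by
      have : ∀ z, fF z * h z = ∑ S ∈ 𝓢, g S * (fF z * chi p S z) := by
        intro z
        simp only [hh, Finset.mul_sum]
        apply Finset.sum_congr rfl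
        intro S _
        ring
      simp_rw [this]
      rw [Ex_sum]
      apply Finset.sum_congr rfl
      intro S _
      rw [Ex_const_mul]
      show g S * fc p fF S = g S ^ 2
      rw [sq]
    rw [← e1, ← tower p W (fun z => fF z * h z)]
    rfl
  -- Q expansions
  have hQexp : ∀ x y, Q x y = ∑ S ∈ 𝓢, (g S * chi p (S \ W) x) * chi p (S ∩ W) y := by
    intro x y
    simp only [hQ, hh, chi_mix]
    apply Finset.sum_congr rfl
    intro S _
    ring
  -- replacing F by P
  have hFP : ∀ x (S : Finset ι), S ∈ 𝓢 →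
      Ex p (fun y => F x y * chi p (S ∩ W) y) = Ex p (fun y => P x y * chi p (S ∩ W) y) := by
    intro x S hSm
    have e1 : Ex p (fun y => P x y * chi p (S ∩ W) y) = fc p (P x) (S ∩ W) := rfl
    have e2 : fc p (P x) (S ∩ W) = fc p (F x) (S ∩ W) := by
      have := fc_sum_chi h0 h1 (fun R => fc p (F x) R) (Rfam B) (S ∩ W)
      simp only [(hS S hSm).1, if_true] at this
      exact this
    rw [e1, e2]
    rfl
  have hIP : ∀ x, I x = Ex p (fun y => P x y * Q x y) := by
    intro x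
    have key : ∀ (G : (ι → Bool) → ℝ), Ex p (fun y => G y * Q x y)
        = ∑ S ∈ 𝓢, (g S * chi p (S \ W) x) * Ex p (fun y => G y * chi p (S ∩ W) y) := by
      intro G
      have : ∀ y, G y * Q x y = ∑ S ∈ 𝓢, (g S * chi p (S \ W) x) * (G y * chi p (S ∩ W) y) := by
        intro y
        rw [hQexp, Finset.mul_sum]
        apply Finset.sum_congr rfl
        intro S _
        ring
      simp_rw [this]
      rw [Ex_sum]
      apply Finset.sum_congr rfl
      intro S _
      rw [Ex_const_mul]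
    show Ex p (fun y => F x y * Q x y) = _
    rw [key (F x), key (P x)]
    apply Finset.sum_congr rfl
    intro S hSm
    rw [hFP x S hSm]
  -- Bonami for Q
  have hBon : ∀ x, Ex p (fun y => Q x y ^ 4) ≤ bB p ^ a * (Ex p (fun y => Q x y ^ 2)) ^ 2 := by
    intro x
    set c : Finset ι → ℝ := fun R => ∑ S ∈ 𝓢 with S ∩ W = R, (g S * chi p (S \ W) x) with hc
    have hQc : ∀ y, Q x y = ∑ R : Finset ι, c R * chi p R y := by
      intro y
      rw [hQexp]
      rw [← Finset.sum_fiberwise 𝓢 (fun S => S ∩ W)]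
      apply Finset.sum_congr rfl
      intro R _
      simp only [hc]
      rw [Finset.sum_mul]
      apply Finset.sum_congr rfl
      intro S hSm
      rw [(Finset.mem_filter.mp hSm).2]
    have hc0 : ∀ R, c R ≠ 0 → R.card ≤ a := by
      intro R hne
      obtain ⟨S, hSm, _⟩ := Finset.exists_ne_zero_of_sum_ne_zero hne
      obtain ⟨hS1, hS2⟩ := Finset.mem_filter.mp hSm
      rw [← hS2]
      exact (hS S hS1).2
    have := bonami h0 h1 a c hc0
    simp_rw [hQc]
    exact this
  -- the L² bound for P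
  have hPL2 : ∀ x, Ex p (fun y => P x y ^ 2) ≤ v ^ 2 := by
    intro x
    have e := Ex_sq_sum_chi h0 h1 (fun R => fc p (F x) R) (Rfam B)
    have h3 := Fx_L2 vs act vs_act vs_inj f hf h0 h1 hu x
    show Ex p (fun y => (∑ R ∈ Rfam B, fc p (F x) R * chi p R y) ^ 2) ≤ v ^ 2
    rw [e, hv2, le_div_iff₀ hcpos]
    linarith
  set p₁ : (ι → Bool) → ℝ := fun x => Ex p (fun y => |P x y|) with hp₁
  set q₂ : (ι → Bool) → ℝ := fun x => Ex p (fun y => Q x y ^ 2) with hq₂
  have hp₁0 : ∀ x, 0 ≤ p₁ x := fun x => Ex_nonneg h0 h1 (fun y => abs_nonneg _)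
  have hq₂0 : ∀ x, 0 ≤ q₂ x := fun x => Ex_nonneg h0 h1 (fun y => sq_nonneg _)
  set c := v * s ^ a with hc
  have hc0 : 0 ≤ c := by positivity
  -- the pointwise bound
  have hIsq : ∀ x, I x ^ 2 ≤ c * p₁ x * q₂ x := by
    intro x
    have h4 := four_moment h0 h1 (P x) (Q x)
    rw [← hIP x] at h4
    have h5 : I x ^ 4 ≤ (c * p₁ x * q₂ x) ^ 2 := by
      refine h4.trans ?_
      have h6 := hPL2 x
      have h7 := hBon x
      have hq4 : 0 ≤ Ex p (fun y => Q x y ^ 4) := Ex_nonneg h0 h1 (fun y => by positivity)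
      have hPn : 0 ≤ Ex p (fun y => P x y ^ 2) := Ex_nonneg h0 h1 (fun y => sq_nonneg _)
      calc p₁ x ^ 2 * Ex p (fun y => P x y ^ 2) * Ex p (fun y => Q x y ^ 4)
          ≤ p₁ x ^ 2 * v ^ 2 * (bB p ^ a * q₂ x ^ 2) := by
            apply mul_le_mul _ h7 hq4 (by positivity)
            exact mul_le_mul_of_nonneg_left h6 (sq_nonneg _)
        _ = (c * p₁ x * q₂ x) ^ 2 := by
            rw [hc, ← hs2]; ring
    have h8 : 0 ≤ c * p₁ x * q₂ x := mul_nonneg (mul_nonneg hc0 (hp₁0 x)) (hq₂0 x)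
    have e : I x ^ 4 = (I x ^ 2) ^ 2 := by ring
    rw [e] at h5
    exact abs_le_of_sq_le_sq' h5 h8 |>.2
  have hIle : ∀ x, I x ≤ √(c * p₁ x) * √(q₂ x) := by
    intro x
    rw [← Real.sqrt_mul (mul_nonneg hc0 (hp₁0 x))]
    exact (le_abs_self _).trans (Real.abs_le_sqrt (hIsq x))
  have hAle : A ≤ Ex p (fun x => √(c * p₁ x) * √(q₂ x)) := by
    rw [hA1]
    exact Ex_mono h0 h1 hIle
  have hAsq : A ^ 2 ≤ Ex p (fun x => c * p₁ x) * Ex p q₂ := by
    have hCS := Ex_mul_sq_le h0 h1 (fun x => √(c * p₁ x)) (fun x => √(q₂ x))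
    have e1 : ∀ x, √(c * p₁ x) ^ 2 = c * p₁ x := fun x =>
      Real.sq_sqrt (mul_nonneg hc0 (hp₁0 x))
    have e2 : ∀ x, √(q₂ x) ^ 2 = q₂ x := fun x => Real.sq_sqrt (hq₂0 x)
    simp only [e1, e2] at hCS
    refine le_trans ?_ hCS
    exact pow_le_pow_left₀ hA0 hAle 2
  have hq₂A : Ex p q₂ = A := by
    have e1 : Ex p q₂ = Ex p (fun z => h z ^ 2) := tower p W (fun z => h z ^ 2)
    rw [e1]
    exact Ex_sq_sum_chi h0 h1 g 𝓢
  have hp₁le : Ex p p₁ ≤ hyb p f B :=
    Pf_L1 f h0 h1 (Bset_subset_Wset vs T u)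
  rw [hq₂A, Ex_const_mul] at hAsq
  by_cases hA00 : A = 0
  · rw [hA00]; positivity
  · have hApos : 0 < A := lt_of_le_of_ne hA0 (Ne.symm hA00)
    have : A ≤ c * Ex p p₁ := by
      have e : A ^ 2 = A * A := by ring
      rw [e] at hAsq
      exact le_of_mul_le_mul_right hAsq hApos
    exact this.trans (mul_le_mul_of_nonneg_left hp₁le hc0)

/-- vertex set of a family of coordinates -/
def Vof (S : Finset ι) : Finset V := S.biUnion vs

/-- degree -/
def degOf (S : Finset ι) (u : V) : ℕ := (S.filter (fun e => u ∈ vs e)).card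

/-- sum of hybrids over all vertices -/
lemma sum_hyb_le {p : ℝ} (h0 : 0 < p) (h1 : p < 1) (T : Finset V) (r : ℕ)
    (hr : ∀ e, (vs e).card = r) :
    ∑ u ∈ Tᶜ, hyb p f (Bset vs T u) ≤ 2 * (p * (1 - p)) * (r * ∑ e, Inf p f e) := by
  classical
  have hq : 0 ≤ 2 * (p * (1 - p)) := by
    have : 0 < p * (1 - p) := mul_pos h0 (by linarith)
    linarith
  have h2 : ∀ u, hyb p f (Bset vs T u) ≤
      2 * (p * (1 - p)) * ∑ e, (if u ∈ vs e then Inf p f e else 0) := by
    intro u
    refine (hyb_le h0 h1 f _).trans ?_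
    rw [← Finset.mul_sum]
    apply mul_le_mul_of_nonneg_left _ hq
    rw [← Finset.sum_filter]
    apply Finset.sum_le_sum_of_subset_of_nonneg
    · intro e he
      simp only [Bset, mem_filter, mem_univ, true_and] at he ⊢
      exact he.1
    · intro e _ _
      exact Inf_nonneg h0 h1 f e
  calc ∑ u ∈ Tᶜ, hyb p f (Bset vs T u)
      ≤ ∑ u ∈ Tᶜ, 2 * (p * (1 - p)) * ∑ e, (if u ∈ vs e then Inf p f e else 0) :=
        Finset.sum_le_sum (fun u _ => h2 u)
    _ ≤ ∑ u : V, 2 * (p * (1 - p)) * ∑ e, (if u ∈ vs e then Inf p f e else 0) := by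
        apply Finset.sum_le_sum_of_subset_of_nonneg (Finset.subset_univ _)
        intro u _ _
        apply mul_nonneg hq
        apply Finset.sum_nonneg
        intro e _
        split_ifs
        · exact Inf_nonneg h0 h1 f e
        · exact le_rfl
    _ = 2 * (p * (1 - p)) * ∑ u : V, ∑ e, (if u ∈ vs e then Inf p f e else 0) := by
        rw [Finset.mul_sum]
    _ = 2 * (p * (1 - p)) * (r * ∑ e, Inf p f e) := by
        congr 1
        rw [Finset.sum_comm, Finset.mul_sum]
        apply Finset.sum_congr rfl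
        intro e _
        rw [← Finset.sum_filter]
        simp [hr e]

include vs_act vs_inj in
/-- The Fourier weight of the low sets avoiding the block `T`. -/
theorem core_T {p : ℝ} (h0 : 0 < p) (h1 : p < 1) (hf : ∀ σ (y : ι → Bool), f (y ∘ act σ) = f y)
    (r : ℕ) (hr : ∀ e, (vs e).card = r)
    (a : ℕ) (T : Finset V) (𝓛 : Finset (Finset ι))
    (hL : ∀ S ∈ 𝓛, Disjoint (Vof vs S) T ∧ ∃ u ∈ Vof vs S, degOf vs S u ≤ a) :
    ∑ S ∈ 𝓛, fc p (fun x => bv (f x)) S ^ 2
      ≤ √(1 / ((T.card : ℝ) + 1)) * √(bB p) ^ a *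
          (2 * (p * (1 - p)) * (r * ∑ e, Inf p f e)) := by
  classical
  rcases 𝓛.eq_empty_or_nonempty with rfl | ⟨S₀, hS₀⟩
  · have : 0 ≤ ∑ e, Inf p f e := Finset.sum_nonneg (fun e _ => Inf_nonneg h0 h1 f e)
    have hpq : 0 < p * (1 - p) := mul_pos h0 (by linarith)
    simp only [Finset.sum_empty]
    positivity
  haveI : Nonempty V := ⟨(hL S₀ hS₀).2.choose⟩
  choose! ufun hu1 hu2 using (fun S hS => (hL S hS).2)
  have hdis := fun S hS => (hL S hS).1
  have hfib := Finset.sum_fiberwise 𝓛 ufun (fun S => fc p (fun x => bv (f x)) S ^ 2)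
  rw [← hfib]
  have hc0 : 0 ≤ √(1 / ((T.card : ℝ) + 1)) * √(bB p) ^ a := by positivity
  have hnot : ∀ u ∈ T, ∑ S ∈ 𝓛 with ufun S = u, fc p (fun x => bv (f x)) S ^ 2 = 0 := by
    intro u hu
    apply Finset.sum_eq_zero
    intro S hS
    obtain ⟨hS1, hS2⟩ := Finset.mem_filter.mp hS
    exfalso
    have := hu1 S hS1
    rw [hS2] at this
    exact Finset.disjoint_left.mp (hdis S hS1) this hu
  have hsplit : ∑ u : V, ∑ S ∈ 𝓛 with ufun S = u, fc p (fun x => bv (f x)) S ^ 2
      = ∑ u ∈ Tᶜ, ∑ S ∈ 𝓛 with ufun S = u, fc p (fun x => bv (f x)) S ^ 2 := by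
    symm
    apply Finset.sum_subset (Finset.subset_univ _)
    intro u _ hu
    apply hnot
    simpa using hu
  rw [hsplit]
  have hper : ∀ u ∈ Tᶜ, ∑ S ∈ 𝓛 with ufun S = u, fc p (fun x => bv (f x)) S ^ 2
      ≤ √(1 / ((T.card : ℝ) + 1)) * √(bB p) ^ a * hyb p f (Bset vs T u) := by
    intro u hu
    have huT : u ∉ T := by simpa using hu
    apply per_u vs act vs_act vs_inj f h0 h1 hf a huT
    intro S hS
    obtain ⟨hS1, hS2⟩ := Finset.mem_filter.mp hS
    have hdisS := hdis S hS1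
    have hvs : ∀ e ∈ S, Disjoint (vs e) T := by
      intro e he
      rw [Finset.disjoint_left]
      intro v hv
      exact Finset.disjoint_left.mp hdisS (Finset.mem_biUnion.mpr ⟨e, he, hv⟩)
    have heq : S ∩ Wset vs (insert u T) = S.filter (fun e => u ∈ vs e) := by
      ext e
      simp only [mem_inter, Wset, mem_filter, mem_univ, true_and]
      constructor
      · rintro ⟨heS, hnd⟩
        refine ⟨heS, ?_⟩
        rw [Finset.not_disjoint_iff] at hnd
        obtain ⟨v, hv, hvT⟩ := hnd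
        rcases Finset.mem_insert.mp hvT with h | h
        · exact h ▸ hv
        · exact absurd h (Finset.disjoint_left.mp (hvs e heS) hv)
      · rintro ⟨heS, heu⟩
        refine ⟨heS, ?_⟩
        rw [Finset.not_disjoint_iff]
        exact ⟨u, heu, Finset.mem_insert_self _ _⟩
    rw [heq]
    constructor
    · simp only [Rfam, Finset.mem_erase, Finset.mem_powerset]
      constructor
      · have := hu1 S hS1
        rw [hS2] at this
        obtain ⟨e, he, heu⟩ := Finset.mem_biUnion.mp this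
        exact Finset.ne_empty_of_mem (Finset.mem_filter.mpr ⟨he, heu⟩)
      · intro e he
        obtain ⟨heS, heu⟩ := Finset.mem_filter.mp he
        simp only [Bset, mem_filter, mem_univ, true_and]
        exact ⟨heu, hvs e heS⟩
    · have := hu2 S hS1
      rw [hS2] at this
      exact this
  refine (Finset.sum_le_sum hper).trans ?_
  rw [← Finset.mul_sum]
  exact mul_le_mul_of_nonneg_left (sum_hyb_le vs f h0 h1 T r hr) hc0

end Setup

end Crest.Agent.SharpLib
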