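/-
The main variance inequality: combining the core bound over blocks, the combinatorics of
hypergraphs with large minimum degree, and the choice of parameters.
-/
import Crest.Agent.Lib.SharpCore

set_option autoImplicit false
set_option linter.unusedSectionVars false
set_option linter.unusedSimpArgs false
set_option linter.unusedVariables false

namespace Crest.Agent.SharpLib

open Finset
open Crest.FinProb (bernoulliWeight bernoulliProb)

variable {ι V : Type} [Fintype ι] [DecidableEq ι] [Fintype V] [DecidableEq V]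

section Combi

variable (vs : ι → Finset V) (vs_inj : Function.Injective vs)

include vs_inj in
/-- a uniform hypergraph with all degrees large has many edges. -/
lemma exists_low_vertex {r : ℕ} (hr2 : 2 ≤ r) (hr : ∀ e, (vs e).card = r) (a : ℕ)
    {S : Finset ι} (hne : S.Nonempty) (hS : (r * S.card) ^ (r - 1) < (a + 1) ^ r) :
    ∃ u ∈ Vof vs S, degOf vs S u ≤ a := by
  classical
  by_contra hcon
  push Not at hcon
  have hdeg : ∀ u ∈ Vof vs S, a + 1 ≤ degOf vs S u := fun u hu => hcon u hu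
  set k := (Vof vs S).card with hk
  -- double counting
  have hdc : ∑ u ∈ Vof vs S, degOf vs S u = r * S.card := by
    unfold degOf
    simp_rw [Finset.card_filter]
    rw [Finset.sum_comm]
    have : ∀ e ∈ S, ∑ u ∈ Vof vs S, (if u ∈ vs e then 1 else 0) = r := by
      intro e he
      rw [← Finset.card_filter]
      have : (Vof vs S).filter (fun u => u ∈ vs e) = vs e := by
        ext u
        simp only [mem_filter, Vof, mem_biUnion]
        exact ⟨fun h => h.2, fun h => ⟨⟨e, he, h⟩, h⟩⟩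
      rw [this, hr e]
    rw [Finset.sum_congr rfl this]
    simp [mul_comm]
  have h1 : k * (a + 1) ≤ r * S.card := by
    rw [← hdc]
    calc k * (a + 1) = ∑ _u ∈ Vof vs S, (a + 1) := by simp [hk]
      _ ≤ _ := Finset.sum_le_sum hdeg
  -- a vertex
  obtain ⟨e₀, he₀⟩ := hne
  have hne0 : (vs e₀).Nonempty := by
    rw [← Finset.card_pos, hr e₀]; omega
  obtain ⟨u, hu⟩ := hne0
  have huV : u ∈ Vof vs S := Finset.mem_biUnion.mpr ⟨e₀, he₀, hu⟩
  have h2 : degOf vs S u ≤ (k - 1).choose (r - 1) := by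
    have hcard : ((Vof vs S).erase u).card = k - 1 := by
      rw [Finset.card_erase_of_mem huV]
    rw [← hcard, ← Finset.card_powersetCard]
    unfold degOf
    apply Finset.card_le_card_of_injOn (fun e => (vs e).erase u)
    · intro e he
      obtain ⟨heS, heu⟩ := Finset.mem_filter.mp (Finset.mem_coe.mp he)
      rw [Finset.mem_coe, Finset.mem_powersetCard]
      constructor
      · apply Finset.erase_subset_erase
        intro v hv
        exact Finset.mem_biUnion.mpr ⟨e, heS, hv⟩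
      · rw [Finset.card_erase_of_mem heu, hr e]
    · intro e he e' he' h
      obtain ⟨_, heu⟩ := Finset.mem_filter.mp (Finset.mem_coe.mp he)
      obtain ⟨_, heu'⟩ := Finset.mem_filter.mp (Finset.mem_coe.mp he')
      apply vs_inj
      have := congrArg (insert u) h
      simpa [Finset.insert_erase heu, Finset.insert_erase heu'] using this
  have h3 : (k - 1).choose (r - 1) ≤ k ^ (r - 1) := by
    calc (k - 1).choose (r - 1) ≤ (k - 1) ^ (r - 1) := Nat.choose_le_pow _ _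
      _ ≤ k ^ (r - 1) := Nat.pow_le_pow_left (Nat.sub_le _ _) _
  have h4 : a + 1 ≤ k ^ (r - 1) := (hdeg u huV).trans (h2.trans h3)
  have h5 : (a + 1) ^ r ≤ (r * S.card) ^ (r - 1) := by
    have e : r = (r - 1) + 1 := by omega
    calc (a + 1) ^ r = (a + 1) ^ (r - 1) * (a + 1) := by
          conv_lhs => rw [e]
          rw [pow_succ]
      _ ≤ (a + 1) ^ (r - 1) * k ^ (r - 1) := Nat.mul_le_mul_left _ h4
      _ = (k * (a + 1)) ^ (r - 1) := by rw [mul_pow]; ring
      _ ≤ _ := Nat.pow_le_pow_left h1 _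
  omega

end Combi

/-- Choice of `D` given `a`. -/
lemma exists_D {r : ℕ} (hr2 : 2 ≤ r) (a : ℕ) :
    ∃ D : ℕ, (r * D) ^ (r - 1) < (a + 1) ^ r ∧ (a + 1) ^ r ≤ (r * (D + 1)) ^ (r - 1) ∧
      r * D < (a + 1) ^ 2 := by
  classical
  have hex : ∃ D : ℕ, (a + 1) ^ r ≤ (r * (D + 1)) ^ (r - 1) := by
    refine ⟨(a + 1) ^ r, ?_⟩
    have h1 : (a + 1) ^ r ≤ r * ((a + 1) ^ r + 1) := by
      nlinarith [Nat.zero_le ((a + 1) ^ r)]
    calc (a + 1) ^ r ≤ r * ((a + 1) ^ r + 1) := h1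
      _ = (r * ((a + 1) ^ r + 1)) ^ 1 := by ring
      _ ≤ _ := Nat.pow_le_pow_right (by positivity) (by omega)
  refine ⟨Nat.find hex, ?_, Nat.find_spec hex, ?_⟩
  · rcases hD : Nat.find hex with _ | D
    · simp only [mul_zero]
      rw [zero_pow (by omega)]
      positivity
    · have := Nat.find_min hex (m := D) (by omega)
      omega
  · have hlt : (r * Nat.find hex) ^ (r - 1) < (a + 1) ^ r := by
      rcases hD : Nat.find hex with _ | D
      · simp only [mul_zero]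
        rw [zero_pow (by omega)]
        positivity
      · have := Nat.find_min hex (m := D) (by omega)
        omega
    by_contra hcon
    push Not at hcon
    have h2 : (a + 1) ^ r ≤ ((a + 1) ^ 2) ^ (r - 1) := by
      rw [← pow_mul]
      apply Nat.pow_le_pow_right (by omega)
      omega
    have h3 : ((a + 1) ^ 2) ^ (r - 1) ≤ (r * Nat.find hex) ^ (r - 1) :=
      Nat.pow_le_pow_left hcon _
    omega


section Var

/-- Poincaré inequality. -/
lemma poincare {p : ℝ} (h0 : 0 < p) (h1 : p < 1) (f : (ι → Bool) → Bool) :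
    Ex p (fun x => bv (f x)) * (1 - Ex p (fun x => bv (f x))) ≤ p * (1 - p) * ∑ e, Inf p f e := by
  classical
  rw [variance_eq h0 h1 f]
  refine le_trans ?_ (sum_card_fc_sq_le h0 h1 f)
  rw [Finset.sum_filter]
  apply Finset.sum_le_sum
  intro S _
  split_ifs with h
  · have : 1 ≤ (S.card : ℝ) := by
      exact_mod_cast Finset.card_pos.mpr (Finset.nonempty_iff_ne_empty.mpr h)
    nlinarith [sq_nonneg (fc p (fun x => bv (f x)) S)]
  · positivity

/-- the Fourier weight above level `D`. -/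
lemma high_bound {p : ℝ} (h0 : 0 < p) (h1 : p < 1) (f : (ι → Bool) → Bool) (D : ℕ) :
    ∑ S ∈ univ.filter (fun S : Finset ι => D < S.card), fc p (fun x => bv (f x)) S ^ 2
      ≤ 1 / ((D : ℝ) + 1) * (p * (1 - p) * ∑ e, Inf p f e) := by
  classical
  have hD : (0 : ℝ) < (D : ℝ) + 1 := by positivity
  have := sum_card_fc_sq_le h0 h1 f
  rw [div_mul_eq_mul_div, one_mul, le_div_iff₀ hD]
  refine le_trans ?_ this
  rw [Finset.sum_mul, Finset.sum_filter]
  apply Finset.sum_le_sum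
  intro S _
  split_ifs with h
  · have : (D : ℝ) + 1 ≤ S.card := by exact_mod_cast h
    nlinarith [sq_nonneg (fc p (fun x => bv (f x)) S)]
  · positivity

variable (vs : ι → Finset V) (act : Equiv.Perm V → Equiv.Perm ι)
  (vs_act : ∀ σ e, vs (act σ e) = (vs e).image σ) (vs_inj : Function.Injective vs)
  (f : (ι → Bool) → Bool)

include vs_act vs_inj in
/-- the Fourier weight on nonempty sets of size at most `D`, averaging over blocks. -/
lemma low_bound {p : ℝ} (h0 : 0 < p) (h1 : p < 1)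
    (hf : ∀ σ (y : ι → Bool), f (y ∘ act σ) = f y)
    {r : ℕ} (hr2 : 2 ≤ r) (hr : ∀ e, (vs e).card = r) (a D : ℕ) (hD : 1 ≤ D)
    (hDa : (r * D) ^ (r - 1) < (a + 1) ^ r)
    (c : V → Fin (2 * r * D)) (m : ℕ) (hm : ∀ i, m ≤ (univ.filter (fun v => c v = i)).card) :
    ∑ S ∈ univ.filter (fun S : Finset ι => S ≠ ∅ ∧ S.card ≤ D), fc p (fun x => bv (f x)) S ^ 2
      ≤ 2 * (√(1 / ((m : ℝ) + 1)) * √(bB p) ^ a *
          (2 * (p * (1 - p)) * (r * ∑ e, Inf p f e))) := by
  classical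
  set g : Finset ι → ℝ := fun S => fc p (fun x => bv (f x)) S ^ 2 with hg
  have hg0 : ∀ S, 0 ≤ g S := fun S => sq_nonneg _
  set 𝓛 := univ.filter (fun S : Finset ι => S ≠ ∅ ∧ S.card ≤ D) with h𝓛
  set T : Fin (2 * r * D) → Finset V := fun i => univ.filter (fun v => c v = i) with hT
  set c₀ : ℝ := √(1 / ((m : ℝ) + 1)) * √(bB p) ^ a *
          (2 * (p * (1 - p)) * (r * ∑ e, Inf p f e)) with hc₀
  have hI : 0 ≤ ∑ e, Inf p f e := Finset.sum_nonneg (fun e _ => Inf_nonneg h0 h1 f e)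
  have hpq : 0 < p * (1 - p) := mul_pos h0 (by linarith)
  have hBpos : 0 ≤ √(bB p) ^ a := by positivity
  -- each block
  have hblock : ∀ i, ∑ S ∈ 𝓛.filter (fun S => Disjoint (Vof vs S) (T i)), g S ≤ c₀ := by
    intro i
    have hcore := core_T vs act vs_act vs_inj f h0 h1 hf r hr a (T i)
      (𝓛.filter (fun S => Disjoint (Vof vs S) (T i))) (by
        intro S hS
        obtain ⟨hS1, hS2⟩ := Finset.mem_filter.mp hS
        obtain ⟨_, hne, hle⟩ := Finset.mem_filter.mp hS1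
        refine ⟨hS2, ?_⟩
        apply exists_low_vertex vs vs_inj hr2 hr a (Finset.nonempty_iff_ne_empty.mpr hne)
        refine lt_of_le_of_lt ?_ hDa
        exact Nat.pow_le_pow_left (Nat.mul_le_mul_left _ hle) _)
    refine le_trans hcore ?_
    rw [hc₀]
    have hmono : √(1 / (((T i).card : ℝ) + 1)) ≤ √(1 / ((m : ℝ) + 1)) := by
      apply Real.sqrt_le_sqrt
      apply one_div_le_one_div_of_le (by positivity)
      have : (m : ℝ) ≤ ((T i).card : ℝ) := by exact_mod_cast hm i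
      linarith
    apply mul_le_mul_of_nonneg_right
    · exact mul_le_mul_of_nonneg_right hmono hBpos
    · positivity
  -- each set is disjoint from many blocks
  have hrD : 0 < r * D := by positivity
  have hgood : ∀ S ∈ 𝓛, r * D ≤ (univ.filter (fun i => Disjoint (Vof vs S) (T i))).card := by
    intro S hS
    obtain ⟨_, hne, hle⟩ := Finset.mem_filter.mp hS
    have hbad : univ.filter (fun i => ¬ Disjoint (Vof vs S) (T i)) ⊆ (Vof vs S).image c := by
      intro i hi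
      have hi' := (Finset.mem_filter.mp hi).2
      rw [Finset.not_disjoint_iff] at hi'
      obtain ⟨v, hv, hvT⟩ := hi'
      have : c v = i := (Finset.mem_filter.mp hvT).2
      exact Finset.mem_image.mpr ⟨v, hv, this⟩
    have hcardV : (Vof vs S).card ≤ r * D := by
      calc (Vof vs S).card ≤ S.card * r :=
            Finset.card_biUnion_le_card_mul _ _ _ (fun e _ => (hr e).le)
        _ ≤ D * r := Nat.mul_le_mul_right _ hle
        _ = r * D := Nat.mul_comm _ _
    have hbad' : (univ.filter (fun i => ¬ Disjoint (Vof vs S) (T i))).card ≤ r * D :=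
      (Finset.card_le_card hbad).trans (Finset.card_image_le.trans hcardV)
    have hsum := Finset.card_filter_add_card_filter_not (s := (univ : Finset (Fin (2 * r * D))))
      (fun i => Disjoint (Vof vs S) (T i))
    have hcard : (univ : Finset (Fin (2 * r * D))).card = 2 * r * D := by simp
    rw [hcard] at hsum
    have : 2 * r * D = 2 * (r * D) := by ring
    omega
  -- double counting
  have hdc : ((r * D : ℕ) : ℝ) * ∑ S ∈ 𝓛, g S
      ≤ ∑ i : Fin (2 * r * D), ∑ S ∈ 𝓛.filter (fun S => Disjoint (Vof vs S) (T i)), g S := by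
    simp_rw [Finset.sum_filter]
    rw [Finset.sum_comm, Finset.mul_sum]
    apply Finset.sum_le_sum
    intro S hS
    rw [← Finset.sum_filter, Finset.sum_const, nsmul_eq_mul]
    apply mul_le_mul_of_nonneg_right _ (hg0 S)
    exact_mod_cast hgood S hS
  have hup : ∑ i : Fin (2 * r * D), ∑ S ∈ 𝓛.filter (fun S => Disjoint (Vof vs S) (T i)), g S
      ≤ ((2 * r * D : ℕ) : ℝ) * c₀ := by
    calc _ ≤ ∑ i : Fin (2 * r * D), c₀ := Finset.sum_le_sum (fun i _ => hblock i)
      _ = _ := by simp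
  have hpos : (0 : ℝ) < ((r * D : ℕ) : ℝ) := by exact_mod_cast hrD
  have e2 : ((2 * r * D : ℕ) : ℝ) = 2 * ((r * D : ℕ) : ℝ) := by push_cast; ring
  rw [e2] at hup
  have := hdc.trans hup
  have h3 : ((r * D : ℕ) : ℝ) * ∑ S ∈ 𝓛, g S ≤ ((r * D : ℕ) : ℝ) * (2 * c₀) := by linarith
  exact le_of_mul_le_mul_left h3 hpos

include vs_act vs_inj in
/-- The main variance bound with free parameters. -/
lemma var_bound {p : ℝ} (h0 : 0 < p) (h1 : p < 1)
    (hf : ∀ σ (y : ι → Bool), f (y ∘ act σ) = f y)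
    {r : ℕ} (hr2 : 2 ≤ r) (hr : ∀ e, (vs e).card = r) (a D : ℕ) (hD : 1 ≤ D)
    (hDa : (r * D) ^ (r - 1) < (a + 1) ^ r)
    (c : V → Fin (2 * r * D)) (m : ℕ) (hm : ∀ i, m ≤ (univ.filter (fun v => c v = i)).card) :
    Ex p (fun x => bv (f x)) * (1 - Ex p (fun x => bv (f x)))
      ≤ (p * (1 - p) * ∑ e, Inf p f e) *
          (1 / ((D : ℝ) + 1) + 4 * r * √(bB p) ^ a * √(1 / ((m : ℝ) + 1))) := by
  classical
  rw [variance_eq h0 h1 f]
  have hlow := low_bound vs act vs_act vs_inj f h0 h1 hf hr2 hr a D hD hDa c m hm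
  have hhigh := high_bound h0 h1 f D
  have hsplit : ∑ S ∈ univ.filter (fun S : Finset ι => S ≠ ∅), fc p (fun x => bv (f x)) S ^ 2
      ≤ ∑ S ∈ univ.filter (fun S : Finset ι => S ≠ ∅ ∧ S.card ≤ D), fc p (fun x => bv (f x)) S ^ 2
        + ∑ S ∈ univ.filter (fun S : Finset ι => D < S.card), fc p (fun x => bv (f x)) S ^ 2 := by
    simp only [Finset.sum_filter]
    rw [← Finset.sum_add_distrib]
    apply Finset.sum_le_sum
    intro S _
    have := sq_nonneg (fc p (fun x => bv (f x)) S)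
    by_cases h1 : S ≠ ∅ <;> by_cases h2 : S.card ≤ D <;> simp [h1, h2, not_lt.mpr, lt_of_not_ge] <;>
      first | positivity | skip
  refine hsplit.trans ?_
  have e : (p * (1 - p) * ∑ e, Inf p f e) *
          (1 / ((D : ℝ) + 1) + 4 * r * √(bB p) ^ a * √(1 / ((m : ℝ) + 1)))
      = 2 * (√(1 / ((m : ℝ) + 1)) * √(bB p) ^ a * (2 * (p * (1 - p)) * (r * ∑ e, Inf p f e)))
        + 1 / ((D : ℝ) + 1) * (p * (1 - p) * ∑ e, Inf p f e) := by ring
  rw [e]
  exact add_le_add hlow hhigh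

end Var

/-- blocks of `Fin n`. -/
lemma fin_blocks (n B₀ : ℕ) (hB₀ : 0 < B₀) :
    ∃ c : Fin n → Fin B₀, ∀ i, n / B₀ ≤ (univ.filter (fun v => c v = i)).card := by
  refine ⟨fun v => ⟨v.1 % B₀, Nat.mod_lt _ hB₀⟩, fun i => ?_⟩
  have hcard : (univ : Finset (Fin (n / B₀))).card = n / B₀ := by simp
  rw [← hcard]
  have hlt : ∀ j : Fin (n / B₀), j.1 * B₀ + i.1 < n := by
    intro j
    have h1 : (j.1 + 1) * B₀ ≤ (n / B₀) * B₀ := Nat.mul_le_mul_right _ j.2
    have h2 : (n / B₀) * B₀ ≤ n := Nat.div_mul_le_self _ _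
    have h3 := i.2
    nlinarith
  apply Finset.card_le_card_of_injOn (fun j => ⟨j.1 * B₀ + i.1, hlt j⟩)
  · intro j _
    simp only [Finset.coe_filter, Finset.mem_univ, true_and, Set.mem_ofPred_eq]
    apply Fin.ext
    simp [Nat.add_mod, Nat.mod_eq_of_lt i.2]
  · intro j _ j' _ h
    have := congrArg Fin.val h
    simp only at this
    apply Fin.ext
    have h4 : j.1 * B₀ = j'.1 * B₀ := by omega
    exact Nat.eq_of_mul_eq_mul_right hB₀ h4


section Param

lemma log_bB_ge {p : ℝ} (h0 : 0 < p) (h1 : p < 1) : 2.75 ≤ Real.log (bB p) := by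
  have h16 := bB_ge h0 h1
  have h2 : Real.log 16 ≤ Real.log (bB p) := Real.log_le_log (by norm_num) h16
  have h3 : Real.log 16 = 4 * Real.log 2 := by
    rw [show (16 : ℝ) = 2 ^ 4 by norm_num, Real.log_pow]; norm_num
  have h4 := Real.log_two_gt_d9
  linarith

lemma sqrt_pow_le_exp {B : ℝ} (hB : 0 < B) (a : ℕ) {L : ℝ} (ha : a * Real.log B ≤ L / 2) :
    √B ^ a ≤ Real.exp (L / 4) := by
  have h1 : √B = Real.exp (Real.log B / 2) := by
    rw [← Real.log_sqrt hB.le, Real.exp_log (Real.sqrt_pos.mpr hB)]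
  rw [h1, ← Real.exp_nat_mul]
  apply Real.exp_le_exp.mpr
  linarith

lemma eps_le {r a D n : ℕ} {B : ℝ} (hb : 2.75 ≤ Real.log B) (hB : 0 < B) (hr2 : 2 ≤ r) (hD : 1 ≤ D)
    (hn : 0 < n) (hL : (23592960 : ℝ) * r ≤ Real.log n ^ 3)
    (ha : a = ⌊Real.log n / (2 * Real.log B)⌋₊) (hrD : r * D < (a + 1) ^ 2) :
    4 * r * √B ^ a * √(1 / (((n / (2 * r * D) : ℕ) : ℝ) + 1)) ≤ 1 / ((D : ℝ) + 1) := by
  set L := Real.log n with hLdef
  set b := Real.log B with hbdef
  have hnR : (0 : ℝ) < n := by exact_mod_cast hn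
  have hL0 : 0 ≤ L := Real.log_natCast_nonneg n
  have hr0 : (2 : ℝ) ≤ r := by exact_mod_cast hr2
  have hb0 : 0 < b := by linarith
  have hL2 : 2 ≤ L := by
    by_contra hcon
    push Not at hcon
    have h8 : L ^ 3 < 2 ^ 3 := pow_lt_pow_left₀ hcon hL0 (by norm_num)
    nlinarith
  have ha1 : (a : ℝ) ≤ L / (2 * b) := by
    rw [ha]; exact Nat.floor_le (by positivity)
  have ha2 : (a : ℝ) * (2 * b) ≤ L := by
    rwa [le_div_iff₀ (by positivity)] at ha1
  have ha0 : (0 : ℝ) ≤ a := by positivity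
  have ha3 : (a : ℝ) + 1 ≤ L := by nlinarith
  have hs : √B ^ a ≤ Real.exp (L / 4) := sqrt_pow_le_exp hB a (by linarith)
  have hkpos : 0 < 2 * r * D := by positivity
  set m := n / (2 * r * D) with hm
  have hm1 : (n : ℝ) ≤ ((m : ℝ) + 1) * ((2 * r * D : ℕ) : ℝ) := by
    have := (Nat.lt_mul_div_succ n hkpos).le
    have h2 : ((n : ℕ) : ℝ) ≤ (((2 * r * D) * (n / (2 * r * D) + 1) : ℕ) : ℝ) := by exact_mod_cast this
    rw [← hm] at h2
    push_cast at h2 ⊢
    linarith
  have hrDR : ((r : ℝ) * D) ≤ ((a : ℝ) + 1) ^ 2 := by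
    have : r * D ≤ (a + 1) ^ 2 := hrD.le
    exact_mod_cast this
  have hk : ((2 * r * D : ℕ) : ℝ) ≤ 4 * ((a : ℝ) + 1) ^ 2 := by
    push_cast
    have : (0:ℝ) ≤ (r : ℝ) * D := by positivity
    nlinarith
  set E := Real.exp (-(L / 2)) with hE
  have hE2 : E ^ 2 = 1 / (n : ℝ) := by
    rw [hE, ← Real.exp_nat_mul]
    have : ((2 : ℕ) : ℝ) * (-(L / 2)) = -L := by push_cast; ring
    rw [this, Real.exp_neg, hLdef, Real.exp_log hnR, one_div]
  have hm2 : 1 / ((m : ℝ) + 1) ≤ (2 * ((a : ℝ) + 1) * E) ^ 2 := by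
    have hm0 : (0 : ℝ) < (m : ℝ) + 1 := by positivity
    rw [mul_pow, hE2, div_le_iff₀ hm0]
    have : (2 * ((a : ℝ) + 1)) ^ 2 * (1 / (n : ℝ)) * ((m : ℝ) + 1) * (n : ℝ)
        = (2 * ((a : ℝ) + 1)) ^ 2 * ((m : ℝ) + 1) := by field_simp
    have h3 : (n : ℝ) * 1 ≤ (2 * ((a : ℝ) + 1)) ^ 2 * ((m : ℝ) + 1) := by
      calc (n : ℝ) * 1 = n := mul_one _
        _ ≤ ((m : ℝ) + 1) * ((2 * r * D : ℕ) : ℝ) := hm1
        _ ≤ ((m : ℝ) + 1) * (4 * ((a : ℝ) + 1) ^ 2) := mul_le_mul_of_nonneg_left hk hm0.le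
        _ = _ := by ring
    have h4 : (2 * ((a : ℝ) + 1)) ^ 2 * (1 / (n : ℝ)) * ((m : ℝ) + 1)
        = ((2 * ((a : ℝ) + 1)) ^ 2 * ((m : ℝ) + 1)) / n := by ring
    rw [h4, le_div_iff₀ hnR]
    linarith
  have hEpos : 0 < E := Real.exp_pos _
  have hsq : √(1 / ((m : ℝ) + 1)) ≤ 2 * ((a : ℝ) + 1) * E :=
    Real.sqrt_le_iff.mpr ⟨by positivity, hm2⟩
  have hDpos : (0 : ℝ) < (D : ℝ) + 1 := by positivity
  have hDle : (D : ℝ) + 1 ≤ ((a : ℝ) + 1) ^ 2 := by
    have h1 : (D : ℝ) ≥ 1 := by exact_mod_cast hD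
    nlinarith
  -- the exponential beats a power
  have hexp : 8 * (r : ℝ) * L ^ 3 ≤ Real.exp (L / 4) := by
    have h6 := Real.pow_div_factorial_le_exp (L / 4) (by positivity) 6
    have h7 : ((6 : ℕ).factorial : ℝ) = 720 := by norm_num [Nat.factorial]
    rw [h7] at h6
    have h9 : 0 ≤ L ^ 3 := by positivity
    have h10 : (L / 4) ^ 6 / 720 = L ^ 3 * L ^ 3 / 2949120 := by ring
    rw [h10] at h6
    have h11 : (23592960 * (r : ℝ)) * L ^ 3 ≤ L ^ 3 * L ^ 3 :=
      mul_le_mul_of_nonneg_right hL h9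
    nlinarith
  rw [le_div_iff₀ hDpos]
  have hEs : Real.exp (L / 4) * E = (Real.exp (L / 4))⁻¹ := by
    rw [hE, ← Real.exp_add, ← Real.exp_neg]
    congr 1
    ring
  have hpos4 : 0 < Real.exp (L / 4) := Real.exp_pos _
  have ha1pos : (0 : ℝ) < (a : ℝ) + 1 := by positivity
  calc 4 * (r : ℝ) * √B ^ a * √(1 / ((m : ℝ) + 1)) * ((D : ℝ) + 1)
      ≤ 4 * (r : ℝ) * Real.exp (L / 4) * (2 * ((a : ℝ) + 1) * E) * (((a : ℝ) + 1) ^ 2) := by
        gcongr
    _ = 8 * (r : ℝ) * ((a : ℝ) + 1) ^ 3 * (Real.exp (L / 4) * E) := by ring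
    _ = 8 * (r : ℝ) * ((a : ℝ) + 1) ^ 3 * (Real.exp (L / 4))⁻¹ := by rw [hEs]
    _ ≤ 8 * (r : ℝ) * L ^ 3 * (Real.exp (L / 4))⁻¹ := by gcongr
    _ ≤ Real.exp (L / 4) * (Real.exp (L / 4))⁻¹ := by gcongr
    _ = 1 := mul_inv_cancel₀ hpos4.ne'

end Param

section Final

variable {ι' : Type} [Fintype ι'] [DecidableEq ι']

/-- The variance inequality with `(log n)^q`. -/
theorem var_final {n : ℕ} (vs : ι' → Finset (Fin n)) (act : Equiv.Perm (Fin n) → Equiv.Perm ι')
    (vs_act : ∀ σ e, vs (act σ e) = (vs e).image σ) (vs_inj : Function.Injective vs)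
    (f : (ι' → Bool) → Bool) {p : ℝ} (h0 : 0 < p) (h1 : p < 1)
    (hf : ∀ σ (y : ι' → Bool), f (y ∘ act σ) = f y)
    {r : ℕ} (hr2 : 2 ≤ r) (hr : ∀ e, (vs e).card = r) (hn : 0 < n)
    (hL : (23592960 : ℝ) * r ≤ Real.log n ^ 3) :
    Ex p (fun x => bv (f x)) * (1 - Ex p (fun x => bv (f x))) *
        Real.log n ^ ((r : ℝ) / ((r : ℝ) - 1))
      ≤ 128 * r * ∑ e, Inf p f e := by
  classical
  set L := Real.log n with hLdef
  set B := bB p with hBdef
  set b := Real.log B with hbdef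
  set Var := Ex p (fun x => bv (f x)) * (1 - Ex p (fun x => bv (f x))) with hVar
  set I := ∑ e, Inf p f e with hI
  set t := p * (1 - p) with ht
  have ht0 : 0 < t := mul_pos h0 (by linarith)
  have hI0 : 0 ≤ I := Finset.sum_nonneg (fun e _ => Inf_nonneg h0 h1 f e)
  have hb : 2.75 ≤ b := log_bB_ge h0 h1
  have hB0 : 0 < B := by have := bB_ge h0 h1; linarith
  have hL0 : 0 ≤ L := Real.log_natCast_nonneg n
  have hr0 : (2 : ℝ) ≤ r := by exact_mod_cast hr2
  have hLpos : 0 < L := by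
    rcases hL0.lt_or_eq with h | h
    · exact h
    · rw [← h] at hL; norm_num at hL; linarith
  set a := ⌊L / (2 * b)⌋₊ with ha
  obtain ⟨D, hD1, hD2, hD3⟩ := exists_D hr2 a
  have hDpos : (0 : ℝ) < (D : ℝ) + 1 := by positivity
  have hpoin := poincare h0 h1 f
  have hVar0 : 0 ≤ Var := by
    rw [hVar]
    rw [variance_eq h0 h1 f]
    exact Finset.sum_nonneg (fun S _ => sq_nonneg _)
  have hmain : Var ≤ t * I * (2 / ((D : ℝ) + 1)) := by
    rcases Nat.eq_zero_or_pos D with h | hDp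
    · subst h
      have : 0 ≤ t * I := by positivity
      simp only [Nat.cast_zero, zero_add] at *
      linarith
    · have hk : 0 < 2 * r * D := by positivity
      obtain ⟨c, hc⟩ := fin_blocks n (2 * r * D) hk
      have h3 := var_bound vs act vs_act vs_inj f h0 h1 hf hr2 hr a D hDp hD1 c _ hc
      refine h3.trans ?_
      apply mul_le_mul_of_nonneg_left _ (by positivity)
      have h4 := eps_le hb hB0 hr2 hDp hn hL ha hD3
      have : 2 / ((D : ℝ) + 1) = 1 / ((D : ℝ) + 1) + 1 / ((D : ℝ) + 1) := by ring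
      rw [this]
      linarith
  -- convert the exponent
  set q : ℝ := (r : ℝ) / ((r : ℝ) - 1) with hq
  have hr1 : (0 : ℝ) < (r : ℝ) - 1 := by linarith
  have hq1 : 0 < q := by positivity
  have hq2 : q ≤ 2 := by
    rw [hq, div_le_iff₀ hr1]; linarith
  set A : ℝ := (a : ℝ) + 1 with hA
  have hA1 : 0 < A := by positivity
  have hAq : A ^ q ≤ (r : ℝ) * ((D : ℝ) + 1) := by
    have h5 : A ^ r ≤ ((r : ℝ) * ((D : ℝ) + 1)) ^ (r - 1) := by
      have : (((a + 1) ^ r : ℕ) : ℝ) ≤ (((r * (D + 1)) ^ (r - 1) : ℕ) : ℝ) := by exact_mod_cast hD2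
      push_cast at this
      exact this
    have hrm : ((r - 1 : ℕ) : ℝ) = (r : ℝ) - 1 := by
      rw [Nat.cast_sub (by omega)]; simp
    have hne : ((r - 1 : ℕ) : ℝ) ≠ 0 := by rw [hrm]; exact hr1.ne'
    have hne' : (r - 1 : ℕ) ≠ 0 := by omega
    have h6 : (A ^ r) ^ (((r - 1 : ℕ) : ℝ)⁻¹) ≤ (((r : ℝ) * ((D : ℝ) + 1)) ^ (r - 1)) ^ (((r - 1 : ℕ) : ℝ)⁻¹) :=
      Real.rpow_le_rpow (by positivity) h5 (by positivity)
    rw [Real.pow_rpow_inv_natCast (by positivity) hne'] at h6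
    refine le_trans (le_of_eq ?_) h6
    rw [hq, ← Real.rpow_natCast A r, ← Real.rpow_mul hA1.le, hrm]
    congr 1
  have hL2 : L ≤ 2 * b * A := by
    have h7 : L / (2 * b) < (a : ℝ) + 1 := Nat.lt_floor_add_one _
    rw [div_lt_iff₀ (by positivity)] at h7
    rw [hA]; linarith
  have hLq : L ^ q ≤ (2 * b) ^ q * A ^ q := by
    rw [← Real.mul_rpow (by positivity) hA1.le]
    exact Real.rpow_le_rpow hLpos.le hL2 hq1.le
  have h2b : (2 * b) ^ q ≤ (2 * b) ^ (2 : ℝ) :=
    Real.rpow_le_rpow_of_exponent_le (by linarith) hq2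
  have h2b' : (2 * b) ^ (2 : ℝ) = 4 * b ^ 2 := by
    rw [Real.rpow_two]; ring
  -- the logarithm is small
  have hbsq : t * b ^ 2 ≤ 16 := by
    have hs0 : 0 < √B := Real.sqrt_pos.mpr hB0
    have h8 : b ≤ 2 * √B := by
      have h9 : Real.log √B = b / 2 := Real.log_sqrt hB0.le
      have h10 := Real.log_le_sub_one_of_pos hs0
      linarith
    have h11 : b ^ 2 ≤ 4 * B := by
      have h12 : √B ^ 2 = B := Real.sq_sqrt hB0.le
      have hb0 : 0 ≤ b := by linarith
      calc b ^ 2 ≤ (2 * √B) ^ 2 := pow_le_pow_left₀ hb0 h8 2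
        _ = 4 * B := by rw [mul_pow, h12]; norm_num
    have h13 : t * B = 4 := by
      rw [hBdef]; unfold bB; rw [← ht]; field_simp
    calc t * b ^ 2 ≤ t * (4 * B) := mul_le_mul_of_nonneg_left h11 ht0.le
      _ = 4 * (t * B) := by ring
      _ = 16 := by rw [h13]; norm_num
  -- finish
  have hLqpos : 0 ≤ L ^ q := Real.rpow_nonneg hLpos.le _
  have hAqpos : 0 ≤ A ^ q := Real.rpow_nonneg hA1.le _
  have h2bpos : 0 ≤ (2 * b) ^ q := Real.rpow_nonneg (by linarith) _
  have hfinal : L ^ q ≤ 4 * b ^ 2 * ((r : ℝ) * ((D : ℝ) + 1)) := by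
    calc L ^ q ≤ (2 * b) ^ q * A ^ q := hLq
      _ ≤ (2 * b) ^ q * ((r : ℝ) * ((D : ℝ) + 1)) := mul_le_mul_of_nonneg_left hAq h2bpos
      _ ≤ 4 * b ^ 2 * ((r : ℝ) * ((D : ℝ) + 1)) := by
        apply mul_le_mul_of_nonneg_right _ (by positivity)
        rw [← h2b']; exact h2b
  calc Var * L ^ q ≤ (t * I * (2 / ((D : ℝ) + 1))) * (4 * b ^ 2 * ((r : ℝ) * ((D : ℝ) + 1))) :=
        mul_le_mul hmain hfinal hLqpos (by positivity)
    _ = 8 * r * (t * b ^ 2) * I := by field_simp; ring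
    _ ≤ 8 * r * 16 * I := by gcongr
    _ = 128 * r * I := by ring

end Final

end Crest.Agent.SharpLib
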