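/-
The Russo--Margulis formula and the passage from the variance inequality to a threshold width.
-/
import Crest.Agent.Lib.SharpMain

set_option autoImplicit false
set_option linter.unusedSectionVars false
set_option linter.unusedSimpArgs false
set_option linter.unusedVariables false

namespace Crest.Agent.SharpLib

open Finset
open Crest.FinProb (bernoulliWeight bernoulliProb)

variable {ι : Type} [Fintype ι] [DecidableEq ι]

lemma hasDerivAt_wb (p : ℝ) (b : Bool) :
    HasDerivAt (fun s => wb s b) (if b then 1 else -1) p := by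
  cases b
  · simpa [wb] using (hasDerivAt_id' p).const_sub 1
  · simpa [wb] using hasDerivAt_id' p

lemma hasDerivAt_wt (p : ℝ) (x : ι → Bool) :
    HasDerivAt (fun s => bernoulliWeight s x)
      (∑ e, (∏ j ∈ univ.erase e, wb p (x j)) * (if x e then 1 else -1)) p := by
  have h := HasDerivAt.fun_finsetProd (u := (univ : Finset ι)) (f := fun i s => wb s (x i))
    (f' := fun i => if x i then 1 else -1) (x := p) (fun i _ => hasDerivAt_wb p (x i))
  simpa [wt_eq, smul_eq_mul] using h

/-- the Russo--Margulis formula for general functions -/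
theorem hasDerivAt_Ex {p : ℝ} (h0 : 0 < p) (h1 : p < 1) (g : (ι → Bool) → ℝ) :
    HasDerivAt (fun s => Ex s g)
      (∑ e, Ex p (fun x => g (Function.update x e true) - g (Function.update x e false))) p := by
  have h : HasDerivAt (fun s => Ex s g)
      (∑ x, (∑ e, (∏ j ∈ univ.erase e, wb p (x j)) * (if x e then 1 else -1)) * g x) p := by
    unfold Ex
    exact HasDerivAt.fun_sum (fun x _ => (hasDerivAt_wt p x).mul_const (g x))
  convert h using 1
  simp_rw [Finset.sum_mul]
  rw [Finset.sum_comm]
  apply Finset.sum_congr rfl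
  intro e _
  -- rewrite in terms of the weight
  have hw : ∀ x : ι → Bool, (∏ j ∈ univ.erase e, wb p (x j)) * (if x e then 1 else -1) * g x
      = bernoulliWeight p x * (((if x e then 1 else -1) / wb p (x e)) * g x) := by
    intro x
    have hne : wb p (x e) ≠ 0 := (wb_pos h0 h1 _).ne'
    rw [wt_eq, ← Finset.prod_erase_mul univ (fun j => wb p (x j)) (Finset.mem_univ e)]
    field_simp
  simp_rw [hw]
  change _ = Ex p (fun x => ((if x e then 1 else -1) / wb p (x e)) * g x)
  rw [Ex_update p e (fun x => ((if x e then 1 else -1) / wb p (x e)) * g x)]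
  apply Ex_congr
  intro x
  have hp : p ≠ 0 := h0.ne'
  have hq : 1 - p ≠ 0 := by linarith
  simp only [Function.update_self, wb]
  simp
  field_simp
  ring

lemma continuous_Ex (g : (ι → Bool) → ℝ) : Continuous (fun s => Ex s g) := by
  unfold Ex
  apply continuous_finsetSum
  intro x _
  apply Continuous.mul _ continuous_const
  simp only [wt_eq]
  apply continuous_finsetProd
  intro i _
  cases h : x i
  · simp only [wb]
    simp only [Bool.false_eq_true, if_false]
    fun_prop
  · simp only [wb]
    simp only [if_true]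
    fun_prop

section Mono

variable (f : (ι → Bool) → Bool) (hmono : ∀ x y : ι → Bool, (∀ i, x i ≤ y i) → f x ≤ f y)

include hmono in
/-- the Russo--Margulis formula. -/
theorem russo {p : ℝ} (h0 : 0 < p) (h1 : p < 1) :
    HasDerivAt (fun s => Ex s (fun x => bv (f x))) (∑ e, Inf p f e) p := by
  convert hasDerivAt_Ex h0 h1 (fun x => bv (f x)) using 1
  apply Finset.sum_congr rfl
  intro e _
  unfold Inf
  apply Ex_congr
  intro x
  unfold piv
  have hle : f (Function.update x e false) ≤ f (Function.update x e true) := by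
    apply hmono
    intro i
    by_cases hi : i = e
    · subst hi; simp
    · simp [Function.update_of_ne hi]
  cases h1' : f (Function.update x e true) <;> cases h2' : f (Function.update x e false)
  · simp [bv]
  · rw [h1', h2'] at hle
    exact absurd hle (by decide)
  · simp [bv]
  · simp [bv]

include hmono in
/-- The width of the threshold window, given a variance inequality. -/
theorem threshold_ode {c : ℝ} (hc : 0 < c)
    (hkey : ∀ s : ℝ, 0 < s → s < 1 →
      c * (Ex s (fun x => bv (f x)) * (1 - Ex s (fun x => bv (f x)))) ≤ ∑ e, Inf s f e)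
    {ε p q : ℝ} (hε0 : 0 < ε) (hε : ε < 1 / 2) (hp0 : 0 ≤ p) (hq1 : q ≤ 1)
    (hp : ε ≤ Ex p (fun x => bv (f x)))
    (hq : p + 4 / c * Real.log (1 / (2 * ε)) ≤ q) :
    1 - ε ≤ Ex q (fun x => bv (f x)) := by
  by_contra hcon
  push Not at hcon
  set μ : ℝ → ℝ := fun s => Ex s (fun x => bv (f x)) with hμ
  have hμc : Continuous μ := continuous_Ex _
  have hΛ : 0 < Real.log (1 / (2 * ε)) := by
    apply Real.log_pos
    rw [lt_div_iff₀ (by linarith)]
    linarith
  have hpq : p < q := by
    have : 0 < 4 / c * Real.log (1 / (2 * ε)) := by positivity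
    linarith
  -- monotonicity of `μ` on `[0, 1]`
  have hderiv : ∀ s ∈ Set.Ioo (0 : ℝ) 1, HasDerivAt μ (∑ e, Inf s f e) s :=
    fun s hs => russo f hmono hs.1 hs.2
  have hmonoμ : MonotoneOn μ (Set.Icc 0 1) := by
    apply monotoneOn_of_deriv_nonneg (convex_Icc 0 1) hμc.continuousOn
    · rw [interior_Icc]
      intro s hs
      exact (hderiv s hs).differentiableAt.differentiableWithinAt
    · rw [interior_Icc]
      intro s hs
      rw [(hderiv s hs).deriv]
      exact Finset.sum_nonneg (fun e _ => Inf_nonneg hs.1 hs.2 f e)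
  have hpI : p ∈ Set.Icc (0 : ℝ) 1 := ⟨hp0, by linarith⟩
  have hqI : q ∈ Set.Icc (0 : ℝ) 1 := ⟨by linarith, hq1⟩
  -- bounds on `[p, q]`
  have hlo : ∀ s ∈ Set.Icc p q, ε ≤ μ s := fun s hs =>
    hp.trans (hmonoμ hpI ⟨by linarith [hs.1], by linarith [hs.2]⟩ hs.1)
  have hhi : ∀ s ∈ Set.Icc p q, μ s < 1 - ε := fun s hs =>
    lt_of_le_of_lt (hmonoμ ⟨by linarith [hs.1], by linarith [hs.2]⟩ hqI hs.2) hcon
  -- the logit
  set ψ : ℝ → ℝ := fun s => Real.log (μ s) - Real.log (1 - μ s) - c * s with hψ
  have hψmono : MonotoneOn ψ (Set.Icc p q) := by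
    apply monotoneOn_of_deriv_nonneg (convex_Icc p q)
    · apply ContinuousOn.sub
      · apply ContinuousOn.sub
        · apply ContinuousOn.log hμc.continuousOn
          intro s hs
          have := hlo s hs
          linarith
        · have hc1 : Continuous (fun s => 1 - μ s) := continuous_const.sub hμc
          apply ContinuousOn.log hc1.continuousOn
          intro s hs
          have := hhi s hs
          show 1 - μ s ≠ 0
          linarith
      · exact (continuous_const.mul continuous_id).continuousOn
    · rw [interior_Icc]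
      intro s hs
      have hsI : s ∈ Set.Icc p q := ⟨hs.1.le, hs.2.le⟩
      have hs01 : s ∈ Set.Ioo (0 : ℝ) 1 := ⟨by linarith [hs.1], by linarith [hs.2]⟩
      have hd := hderiv s hs01
      have h1 : μ s ≠ 0 := by have := hlo s hsI; linarith
      have h2 : 1 - μ s ≠ 0 := by have := hhi s hsI; linarith
      have : DifferentiableAt ℝ ψ s := by
        apply DifferentiableAt.sub
        · apply DifferentiableAt.sub
          · exact hd.differentiableAt.log h1
          · exact ((hd.const_sub 1).differentiableAt).log h2
        · exact (differentiableAt_id.const_mul c)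
      exact this.differentiableWithinAt
    · rw [interior_Icc]
      intro s hs
      have hsI : s ∈ Set.Icc p q := ⟨hs.1.le, hs.2.le⟩
      have hs01 : s ∈ Set.Ioo (0 : ℝ) 1 := ⟨by linarith [hs.1], by linarith [hs.2]⟩
      have hd := hderiv s hs01
      have hlo' := hlo s hsI
      have hhi' := hhi s hsI
      have h1 : μ s ≠ 0 := by linarith
      have h2 : 1 - μ s ≠ 0 := by linarith
      have hd2 : HasDerivAt ψ ((∑ e, Inf s f e) / μ s - (-(∑ e, Inf s f e)) / (1 - μ s) - c * 1) s := by
        apply HasDerivAt.sub
        · apply HasDerivAt.sub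
          · exact hd.log h1
          · exact (hd.const_sub 1).log h2
        · exact (hasDerivAt_id s).const_mul c
      rw [hd2.deriv]
      have hm0 : 0 < μ s := by linarith
      have hm1 : 0 < 1 - μ s := by linarith
      have hk := hkey s hs01.1 hs01.2
      have : (∑ e, Inf s f e) / μ s - (-(∑ e, Inf s f e)) / (1 - μ s) - c * 1
          = ((∑ e, Inf s f e) - c * (μ s * (1 - μ s))) / (μ s * (1 - μ s)) := by
        field_simp
        ring
      rw [this]
      apply div_nonneg
      · linarith
      · positivity
  have hψpq := hψmono (Set.left_mem_Icc.mpr hpq.le) (Set.right_mem_Icc.mpr hpq.le) hpq.le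
  simp only [hψ] at hψpq
  -- endpoint estimates
  have hεlt : ε < 1 - ε := by linarith
  have hεpos' : 0 < 1 - ε := by linarith
  have hμq0 : 0 < μ q := by have := hlo q (Set.right_mem_Icc.mpr hpq.le); linarith
  have hμp0 : 0 < μ p := by linarith
  have hμp1 : μ p < 1 - ε := hhi p (Set.left_mem_Icc.mpr hpq.le)
  have e1 : Real.log ε ≤ Real.log (μ p) := Real.log_le_log hε0 hp
  have e2 : Real.log (1 - μ p) ≤ Real.log (1 - ε) := Real.log_le_log (by linarith) (by linarith)
  have e3 : Real.log (μ q) < Real.log (1 - ε) := Real.log_lt_log hμq0 hcon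
  have e4 : Real.log ε ≤ Real.log (1 - μ q) := Real.log_le_log hε0 (by linarith)
  have hcq : 4 * Real.log (1 / (2 * ε)) ≤ c * (q - p) := by
    have h5 : 4 / c * Real.log (1 / (2 * ε)) ≤ q - p := by linarith
    calc 4 * Real.log (1 / (2 * ε)) = c * (4 / c * Real.log (1 / (2 * ε))) := by field_simp
      _ ≤ c * (q - p) := mul_le_mul_of_nonneg_left h5 hc.le
  -- the elementary inequality
  have hfin : Real.log (1 - ε) - Real.log ε ≤ 2 * Real.log (1 / (2 * ε)) := by
    have h6 : Real.log (1 / (2 * ε)) = -Real.log 2 - Real.log ε := by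
      rw [one_div, Real.log_inv, Real.log_mul (by norm_num) hε0.ne']
      ring
    rw [h6]
    have h7 : Real.log (4 * (ε * (1 - ε))) ≤ 0 := by
      apply Real.log_nonpos
      · have : 0 < ε * (1 - ε) := mul_pos hε0 hεpos'
        linarith
      · nlinarith [sq_nonneg (ε - 1 / 2)]
    rw [Real.log_mul (by norm_num) (mul_pos hε0 hεpos').ne', Real.log_mul hε0.ne' hεpos'.ne'] at h7
    have h8 : Real.log 4 = 2 * Real.log 2 := by
      rw [show (4 : ℝ) = 2 ^ 2 by norm_num, Real.log_pow]; norm_num
    linarith
  nlinarith

end Mono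

end Crest.Agent.SharpLib
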